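import Crest.Agent.R172.Q.Par
import Crest.Agent.R172.HM.Defs

/-! # R172/Q: the Hilbert-Mumford number of the model is the parabolic degree (owner helper1) -/

set_option autoImplicit false
set_option linter.unusedVariables false
set_option linter.unusedSectionVars false
open Matrix Sum Crest.AlgebraR.SpinSaturation Module

noncomputable section
namespace Crest.Agent.R172.Q
open Crest.Agent.R172.W

variable {n : ℕ} {l : Fin 3 → ℕ}

theorem mem_Lam {g : Fin 3 → Matrix (L n) (L n) ℂ} {a : Fin 3 → Wt n} {φ : Matrix (L n) (K l) ℂ} :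
    φ ∈ Lam g a l ↔ ∀ k : K l, (fun p => φ p k) ∈ HM.Fq (g k.1) (a k.1) (l k.1) k.2 := by
  constructor
  · rintro ⟨ψ, hψ, rfl⟩ k
    exact ⟨fun p => ψ p k, fun p hp => hψ p k (not_lt.1 hp), rfl⟩
  · intro h
    choose v hv hv' using h
    refine ⟨Matrix.of fun p k => v k p, fun p k hp => hv k p (not_lt.2 hp), ?_⟩
    ext p k
    exact congrFun (hv' k) p

theorem finrank_cols (S : K l → Submodule ℂ (L n → ℂ)) (A : Submodule ℂ (Matrix (L n) (K l) ℂ))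
    (h : ∀ φ, φ ∈ A ↔ ∀ k, (fun p => φ p k) ∈ S k) : finrank ℂ A = ∑ k, finrank ℂ (S k) := by
  let Φ : (∀ k, S k) →ₗ[ℂ] Matrix (L n) (K l) ℂ :=
    { toFun := fun x => Matrix.of fun p k => (x k : L n → ℂ) p
      map_add' := fun x y => by ext p k; simp
      map_smul' := fun c x => by ext p k; simp }
  have hi : Function.Injective Φ := fun x y e => funext fun k => Subtype.ext (funext fun p => congrFun (congrFun e p) k)
  have hr : LinearMap.range Φ = A := by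
    ext φ
    rw [h]
    constructor
    · rintro ⟨x, rfl⟩ k
      exact (x k).2
    · exact fun u => ⟨fun k => ⟨_, u k⟩, rfl⟩
  rw [← hr, LinearMap.finrank_range_of_inj hi, Module.finrank_pi_fintype]

theorem chi2_eq (g : Fin 3 → Matrix (L n) (L n) ℂ) (a : Fin 3 → Wt n) (l : Fin 3 → ℕ) (R : Submodule ℂ (L n → ℂ)) :
    chi2 g a l R = HM.deg2 (g 0) (a 0) (l 0) R + HM.deg2 (g 1) (a 1) (l 1) R + HM.deg2 (g 2) (a 2) (l 2) R := by
  have h := finrank_cols (fun k : K l => R ⊓ HM.Fq (g k.1) (a k.1) (l k.1) k.2) (Lam g a l ⊓ ten R ⊤) fun φ => by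
    rw [Submodule.mem_inf, mem_Lam]
    exact ⟨fun u k => ⟨u.2.1 k, u.1 k⟩, fun u => ⟨fun k => (u k).2, fun k => (u k).1, fun p => trivial⟩⟩
  have e : ∀ i, HM.deg2 (g i) (a i) (l i) R =
      2 * ((∑ k : Fin (l i), finrank ℂ ↥(R ⊓ HM.Fq (g i) (a i) (l i) k) : ℕ) : ℤ) - l i * (finrank ℂ R : ℤ) := fun i => by
    unfold HM.deg2
    rw [Finset.sum_sub_distrib, ← Finset.mul_sum, Finset.sum_range]
    simp
  unfold chi2
  rw [h, Fintype.sum_sigma, e, e, e, Fin.sum_univ_three, Fin.sum_univ_three]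
  push_cast
  ring

theorem Adm.fit {a : Fin 3 → Wt n} (h : Adm a l) (i : Fin 3) : HM.Fit (a i) (l i) := fun j =>
  ⟨h.le i j, by have := h.par i j; rw [Int.even_iff] at this ⊢; omega⟩

theorem chi2_le_of_SS {g : Fin 3 → Matrix (L n) (L n) ℂ} {a : Fin 3 → Wt n}
    (h : HM.SS (g 0) (g 1) (g 2) (a 0) (a 1) (a 2) (l 0) (l 1) (l 2)) (R : Submodule ℂ (L n → ℂ)) : chi2 g a l R ≤ 0 := by
  rw [chi2_eq]; exact h R

theorem gw_mem_Gp {σ : Type} {w : List ((L n × L n) × σ)} (hw : HM.Roots w) (t : σ → ℂ) : HM.gw w t ∈ Gp n := by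
  refine Submonoid.list_prod_mem _ fun y hy => ?_
  obtain ⟨x, hx, rfl⟩ := List.mem_map.1 hy
  refine Submonoid.subset_closure ⟨t x.2 • Xm x.1.1 x.1.2, Submodule.smul_mem _ _ (Xm_mem _ _), ?_, rfl⟩
  have h := hw x hx
  have a : ∀ r : L n, r ≠ r.swap := fun r => by cases r <;> simp
  have b : x.1.1.swap ≠ x.1.2.swap := fun e => h (liea_swap_inj.1 e)
  have : Xm x.1.1 x.1.2 * Xm x.1.1 x.1.2 = 0 := by
    simp only [Xm, mul_sub, sub_mul, liea_mul, if_neg h.symm, if_neg (a x.1.2), if_neg (a x.1.1).symm, if_neg b, sub_zero]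
  rw [Matrix.smul_mul, Matrix.mul_smul, this, smul_zero, smul_zero]

/-- the minimal admissible sizes -/
theorem exists_adm (hn : 2 ≤ n) {a : Fin 3 → Wt n} (ha : ∀ i, IsDominantIntegral n (a i)) :
    ∃ l, Adm a l ∧ ∀ i, (l i : ℤ) = a i ⟨0, by omega⟩ := by
  have hd := fun i => dom_of_isDominantIntegral (ha i)
  have h0 : ∀ i, 0 ≤ a i ⟨0, by omega⟩ := fun i =>
    (abs_nonneg _).trans (hd i ⟨0, by omega⟩ ⟨1, by omega⟩ (by simp [Fin.lt_def]))
  have e : ∀ i, (((a i ⟨0, by omega⟩).toNat : ℕ) : ℤ) = a i ⟨0, by omega⟩ := fun i => Int.toNat_of_nonneg (h0 i)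
  refine ⟨fun i => (a i ⟨0, by omega⟩).toNat, ⟨hd, fun i j => ?_, fun i j => ?_⟩, e⟩
  · rw [e]; exact (ha i).1 _ _
  · rw [e]
    by_cases hj : j = ⟨0, by omega⟩
    · rw [hj, abs_of_nonneg (h0 i)]
    · exact hd i _ j (by rw [Fin.lt_def]; have : (j : ℕ) ≠ 0 := fun u => hj (Fin.ext u); simp; omega)

/-- the output of the Hilbert-Mumford block -/
def HMOut {n : ℕ} (a : Fin 3 → Wt n) : Prop :=
  ∃ l1 l2 l3 : List (L n × L n), (∀ x ∈ l1 ++ l2 ++ l3, x.1 ≠ x.2) ∧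
    ∀ (σ : Type) (u1 u2 u3 : List ((L n × L n) × σ)), HM.Roots u1 → HM.Roots u2 → HM.Roots u3 →
      ((u1 ++ u2 ++ u3).map Prod.snd).Nodup → l1.Sublist (u1.map Prod.fst) → l2.Sublist (u2.map Prod.fst) →
      l3.Sublist (u3.map Prod.fst) → ∃ f : MvPolynomial σ ℂ, f ≠ 0 ∧ ∀ t, MvPolynomial.eval t f ≠ 0 →
        ∀ L1 L2 L3, HM.Fit (a 0) L1 → HM.Fit (a 1) L2 → HM.Fit (a 2) L3 →
          HM.SS (HM.gw u1 t) (HM.gw u2 t) (HM.gw u3 t) (a 0) (a 1) (a 2) L1 L2 L3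

/-- the core of the route (generic point included) -/
def S_CORE : Prop := ∀ (n : ℕ), 2 ≤ n → ∀ a : Fin 3 → Wt n, (∀ i, IsDominantIntegral n (a i)) →
  InRootLattice n (a 0 + a 1 + a 2) → HMOut a →
    ∃ l : Fin 3 → ℕ, Adm a l ∧ ∃ g : Fin 3 → Matrix (L n) (L n) ℂ, (∀ i, g i ∈ Gp n) ∧
      ∃ T : Submodule ℂ (K l → ℂ), IsLag T ∧ H g a T = ⊥

end Crest.Agent.R172.Q
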