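import Mathlib

/-! # Row 172 (Pfaffian route), block F3: connections along a derivation of `ℂ` -/

set_option autoImplicit false
set_option linter.unusedSectionVars false
set_option linter.unusedVariables false

noncomputable section

namespace Crest.Agent.R172.Q

open TensorProduct

/-- derivations of `ℂ` over `ℚ` -/
abbrev Der : Type := Derivation ℚ ℂ ℂ

/-- a connection on a complex vector space along the derivation `D` -/
structure Conn (D : Der) (E : Type) [AddCommGroup E] [Module ℂ E] where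
  /-- the additive map -/
  toFun : E →+ E
  leib : ∀ (c : ℂ) (v : E), toFun (c • v) = D c • v + c • toFun v

namespace Conn

variable {D : Der} {E F : Type} [AddCommGroup E] [Module ℂ E] [AddCommGroup F] [Module ℂ F]

instance : CoeFun (Conn D E) (fun _ => E → E) := ⟨fun N => N.toFun⟩

theorem map_add' (N : Conn D E) (u v : E) : N (u + v) = N u + N v := N.toFun.map_add u v
theorem map_sub' (N : Conn D E) (u v : E) : N (u - v) = N u - N v := N.toFun.map_sub u v
theorem map_zero' (N : Conn D E) : N 0 = 0 := N.toFun.map_zero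
theorem map_sum' (N : Conn D E) {ι : Type} (s : Finset ι) (f : ι → E) : N (∑ i ∈ s, f i) = ∑ i ∈ s, N (f i) :=
  map_sum N.toFun f s

/-- `D` itself on `ℂ` -/
def base (D : Der) : Conn D ℂ where
  toFun := D.toLinearMap.toAddMonoidHom
  leib c v := by simp [mul_comm, add_comm]

@[simp] theorem base_apply (c : ℂ) : base D c = D c := rfl

/-- coordinatewise -/
def pi (ι : Type) (N : Conn D E) : Conn D (ι → E) where
  toFun := { toFun := fun v i => N (v i), map_zero' := funext fun _ => N.map_zero', map_add' := fun u v => funext fun i => N.map_add' _ _ }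
  leib c v := funext fun i => N.leib c (v i)

@[simp] theorem pi_apply {ι : Type} (N : Conn D E) (v : ι → E) (i : ι) : pi ι N v i = N (v i) := rfl

/-- the standard connection on `ι → ℂ` -/
def std (D : Der) (ι : Type) : Conn D (ι → ℂ) := pi ι (base D)

@[simp] theorem std_apply {ι : Type} (v : ι → ℂ) (i : ι) : std D ι v i = D (v i) := rfl

/-- `∇ - X` -/
def tw (N : Conn D E) (X : E →ₗ[ℂ] E) : Conn D E where
  toFun := N.toFun - X.toAddMonoidHom
  leib c v := by simp [N.leib, smul_sub, add_sub_assoc]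

@[simp] theorem tw_apply (N : Conn D E) (X : E →ₗ[ℂ] E) (v : E) : N.tw X v = N v - X v := rfl

/-- the difference of two connections is linear -/
def diff (N M : Conn D E) : E →ₗ[ℂ] E where
  toFun v := N v - M v
  map_add' u v := by rw [N.map_add', M.map_add']; abel
  map_smul' c v := by simp [N.leib, M.leib, smul_sub]

@[simp] theorem diff_apply (N M : Conn D E) (v : E) : N.diff M v = N v - M v := rfl

/-- product -/
def prod (N : Conn D E) (M : Conn D F) : Conn D (E × F) where
  toFun := N.toFun.prodMap M.toFun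
  leib c v := Prod.ext (N.leib c v.1) (M.leib c v.2)

@[simp] theorem prod_apply (N : Conn D E) (M : Conn D F) (v : E × F) : N.prod M v = (N v.1, M v.2) := rfl

/-- the covariant derivative of a linear map -/
def homAp (N : Conn D E) (M : Conn D F) (φ : E →ₗ[ℂ] F) : E →ₗ[ℂ] F where
  toFun v := M (φ v) - φ (N v)
  map_add' u v := by rw [map_add, N.map_add', M.map_add', map_add]; abel
  map_smul' c v := by simp [N.leib, M.leib, smul_sub]

/-- the connection on `E →ₗ[ℂ] F` -/
def hom (N : Conn D E) (M : Conn D F) : Conn D (E →ₗ[ℂ] F) where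
  toFun :=
    { toFun := homAp N M
      map_zero' := by ext v; simp [homAp, M.map_zero']
      map_add' := fun φ ψ => by ext v; simp [homAp, M.map_add']; abel }
  leib c φ := by ext v; simp [homAp, M.leib, smul_sub, add_sub_assoc]

@[simp] theorem hom_apply (N : Conn D E) (M : Conn D F) (φ : E →ₗ[ℂ] F) (v : E) :
    N.hom M φ v = M (φ v) - φ (N v) := rfl

/-- auxiliary biadditive map -/
def tensAux (N : Conn D E) (M : Conn D F) : E →+ F →+ E ⊗[ℂ] F where
  toFun u :=
    { toFun := fun v => N u ⊗ₜ[ℂ] v + u ⊗ₜ[ℂ] M v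
      map_zero' := by rw [M.map_zero', tmul_zero, tmul_zero, add_zero]
      map_add' := fun v w => by rw [M.map_add', tmul_add, tmul_add]; abel }
  map_zero' := AddMonoidHom.ext fun v => by
    change N 0 ⊗ₜ[ℂ] v + (0 : E) ⊗ₜ[ℂ] M v = 0
    rw [N.map_zero', zero_tmul, zero_tmul, add_zero]
  map_add' u w := AddMonoidHom.ext fun v => by
    change N (u + w) ⊗ₜ[ℂ] v + (u + w) ⊗ₜ[ℂ] M v = (N u ⊗ₜ[ℂ] v + u ⊗ₜ[ℂ] M v) + (N w ⊗ₜ[ℂ] v + w ⊗ₜ[ℂ] M v)
    rw [N.map_add', add_tmul, add_tmul]; abel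

theorem tensAux_smul (N : Conn D E) (M : Conn D F) (c : ℂ) (u : E) (v : F) :
    tensAux N M (c • u) v = tensAux N M u (c • v) := by
  change N (c • u) ⊗ₜ[ℂ] v + (c • u) ⊗ₜ[ℂ] M v = N u ⊗ₜ[ℂ] (c • v) + u ⊗ₜ[ℂ] M (c • v)
  rw [N.leib, M.leib, add_tmul, tmul_add, smul_tmul, smul_tmul, smul_tmul]
  abel

/-- the connection on `E ⊗ F` -/
def tens (N : Conn D E) (M : Conn D F) : Conn D (E ⊗[ℂ] F) where
  toFun := TensorProduct.liftAddHom (tensAux N M) (tensAux_smul N M)
  leib c t := by
    induction t using TensorProduct.induction_on with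
    | zero => rw [smul_zero, map_zero, smul_zero, smul_zero, add_zero]
    | tmul u v =>
      rw [smul_tmul', liftAddHom_tmul, liftAddHom_tmul]
      change N (c • u) ⊗ₜ[ℂ] v + (c • u) ⊗ₜ[ℂ] M v = _ + c • (N u ⊗ₜ[ℂ] v + u ⊗ₜ[ℂ] M v)
      rw [N.leib, add_tmul, smul_add, ← smul_tmul', ← smul_tmul', ← smul_tmul']
      abel
    | add a b ha hb => rw [smul_add, map_add, map_add, ha, hb, smul_add, smul_add]; abel

@[simp] theorem tens_tmul (N : Conn D E) (M : Conn D F) (u : E) (v : F) :
    N.tens M (u ⊗ₜ[ℂ] v) = N u ⊗ₜ[ℂ] v + u ⊗ₜ[ℂ] M v := liftAddHom_tmul (tensAux N M) (tensAux_smul N M) u v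

/-- a stable subspace -/
def Stab (N : Conn D E) (S : Submodule ℂ E) : Prop := ∀ v ∈ S, N v ∈ S

theorem stab_bot (N : Conn D E) : N.Stab ⊥ := fun v hv => by
  rw [(Submodule.mem_bot ℂ).1 hv, N.map_zero']; exact Submodule.zero_mem _

theorem stab_top (N : Conn D E) : N.Stab ⊤ := fun _ _ => trivial

theorem Stab.inf {N : Conn D E} {S T : Submodule ℂ E} (hS : N.Stab S) (hT : N.Stab T) : N.Stab (S ⊓ T) :=
  fun v hv => ⟨hS v hv.1, hT v hv.2⟩

theorem Stab.sup {N : Conn D E} {S T : Submodule ℂ E} (hS : N.Stab S) (hT : N.Stab T) : N.Stab (S ⊔ T) := fun v hv => by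
  obtain ⟨a, ha, b, hb, rfl⟩ := Submodule.mem_sup.1 hv
  rw [N.map_add']; exact Submodule.add_mem_sup (hS a ha) (hT b hb)

theorem stab_span {N : Conn D E} {s : Set E} (h : ∀ v ∈ s, N v ∈ Submodule.span ℂ s) : N.Stab (Submodule.span ℂ s) := by
  intro v hv
  induction hv using Submodule.span_induction with
  | mem x hx => exact h x hx
  | zero => rw [N.map_zero']; exact Submodule.zero_mem _
  | add x y hx hy ax ay => rw [N.map_add']; exact Submodule.add_mem _ ax ay
  | smul c x hx ax => rw [N.leib]; exact Submodule.add_mem _ (Submodule.smul_mem _ _ hx) (Submodule.smul_mem _ _ ax)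

theorem stab_iInf {N : Conn D E} {ι : Sort*} {S : ι → Submodule ℂ E} (h : ∀ i, N.Stab (S i)) : N.Stab (⨅ i, S i) :=
  fun v hv => (Submodule.mem_iInf _).2 fun i => h i v ((Submodule.mem_iInf _).1 hv i)

theorem stab_iSup {N : Conn D E} {ι : Sort*} {S : ι → Submodule ℂ E} (h : ∀ i, N.Stab (S i)) : N.Stab (⨆ i, S i) := by
  intro v hv
  induction hv using Submodule.iSup_induction' with
  | mem i x hx => exact Submodule.mem_iSup_of_mem i (h i x hx)
  | zero => rw [N.map_zero']; exact Submodule.zero_mem _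
  | add x y hx hy ax ay => rw [N.map_add']; exact Submodule.add_mem _ ax ay

/-- twisting by an endomorphism preserving `S` does not change stability -/
theorem Stab.tw {N : Conn D E} {S : Submodule ℂ E} (hS : N.Stab S) {X : E →ₗ[ℂ] E} (hX : ∀ v ∈ S, X v ∈ S) :
    (N.tw X).Stab S := fun v hv => S.sub_mem (hS v hv) (hX v hv)

theorem Stab.map {N : Conn D E} {M : Conn D F} {S : Submodule ℂ E} (hS : N.Stab S) {φ : E →ₗ[ℂ] F}
    (hφ : ∀ v ∈ S, N.hom M φ v ∈ S.map φ) : M.Stab (S.map φ) := by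
  rintro _ ⟨v, hv, rfl⟩
  have := (S.map φ).add_mem (hφ v hv) (Submodule.mem_map_of_mem (hS v hv))
  simpa using this

theorem Stab.comap {N : Conn D E} {M : Conn D F} {T : Submodule ℂ F} (hT : M.Stab T) {φ : E →ₗ[ℂ] F}
    (hφ : ∀ v, φ v ∈ T → N.hom M φ v ∈ T) : N.Stab (T.comap φ) := fun v hv => by
  have := T.sub_mem (hT _ hv) (hφ v hv)
  simpa using this

/-- linear maps sending a stable subspace into a stable subspace form a stable subspace -/
theorem hom_mem {N : Conn D E} {M : Conn D F} {S : Submodule ℂ E} {T : Submodule ℂ F} (hS : N.Stab S) (hT : M.Stab T)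
    {φ : E →ₗ[ℂ] F} (hφ : ∀ v ∈ S, φ v ∈ T) : ∀ v ∈ S, N.hom M φ v ∈ T := fun v hv =>
  T.sub_mem (hT _ (hφ v hv)) (hφ _ (hS v hv))

/-- the derivative of ANY linear map sends its kernel into its image (rank constancy is automatic) -/
theorem hom_ker (N : Conn D E) (M : Conn D F) (φ : E →ₗ[ℂ] F) {v : E} (hv : φ v = 0) :
    N.hom M φ v ∈ LinearMap.range φ := by
  rw [hom_apply, hv, M.map_zero', zero_sub]; exact Submodule.neg_mem _ ⟨_, rfl⟩

theorem stab_tens {N : Conn D E} {M : Conn D F} {S : Submodule ℂ E} {T : Submodule ℂ F} (hS : N.Stab S) (hT : M.Stab T) :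
    (N.tens M).Stab (Submodule.map₂ (TensorProduct.mk ℂ E F) S T) := by
  rw [Submodule.map₂_eq_span_image2]
  refine stab_span ?_
  rintro _ ⟨u, hu, v, hv, rfl⟩
  simp only [mk_apply, tens_tmul]
  exact Submodule.add_mem _ (Submodule.subset_span ⟨_, hS u hu, v, hv, rfl⟩) (Submodule.subset_span ⟨u, hu, _, hT v hv, rfl⟩)

/-- restriction to a stable subspace -/
def restrict (N : Conn D E) {S : Submodule ℂ E} (hS : N.Stab S) : Conn D S where
  toFun :=
    { toFun := fun v => ⟨N v, hS v v.2⟩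
      map_zero' := Subtype.ext N.map_zero'
      map_add' := fun u v => Subtype.ext (N.map_add' _ _) }
  leib c v := Subtype.ext (N.leib c v)

@[simp] theorem restrict_apply (N : Conn D E) {S : Submodule ℂ E} (hS : N.Stab S) (v : S) :
    (N.restrict hS v : E) = N v := rfl

/-- the quotient by a stable subspace -/
def quot (N : Conn D E) {S : Submodule ℂ E} (hS : N.Stab S) : Conn D (E ⧸ S) where
  toFun := QuotientAddGroup.map S.toAddSubgroup S.toAddSubgroup N.toFun fun v hv => hS v hv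
  leib c v := by
    obtain ⟨v, rfl⟩ := S.mkQ_surjective v
    change S.mkQ (N (c • v)) = D c • S.mkQ v + c • S.mkQ (N v)
    rw [N.leib, map_add, map_smul, map_smul]

@[simp] theorem quot_mk (N : Conn D E) {S : Submodule ℂ E} (hS : N.Stab S) (v : E) :
    N.quot hS (Submodule.Quotient.mk v) = Submodule.Quotient.mk (N v) := rfl

/-- the drift (second fundamental form) of an arbitrary subspace: a LINEAR map `K → E ⧸ K` -/
def drift (N : Conn D E) (K : Submodule ℂ E) : K →ₗ[ℂ] E ⧸ K where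
  toFun v := K.mkQ (N v)
  map_add' u v := by rw [Submodule.coe_add, N.map_add', map_add]
  map_smul' c v := by
    have : K.mkQ (v : E) = 0 := (Submodule.Quotient.mk_eq_zero K).2 v.2
    rw [Submodule.coe_smul, N.leib, map_add, map_smul, map_smul, this, smul_zero, zero_add]; rfl

@[simp] theorem drift_apply (N : Conn D E) (K : Submodule ℂ E) (v : K) : N.drift K v = K.mkQ (N v) := rfl

theorem drift_eq_zero {N : Conn D E} {K : Submodule ℂ E} : N.drift K = 0 ↔ N.Stab K :=
  ⟨fun h v hv => (Submodule.Quotient.mk_eq_zero K).1 (LinearMap.congr_fun h ⟨v, hv⟩),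
    fun h => LinearMap.ext fun v => (Submodule.Quotient.mk_eq_zero K).2 (h v v.2)⟩

/-- the drift is filtered for every stable subspace -/
theorem drift_mem {N : Conn D E} (K : Submodule ℂ E) {S : Submodule ℂ E} (hS : N.Stab S) (v : K) (hv : (v : E) ∈ S) :
    N.drift K v ∈ S.map K.mkQ := ⟨_, hS _ hv, rfl⟩

/-- persistence: if `X` is the difference of two connections and `K` is arbitrary, `S` stable for `N.tw X`, then
`X - (a lift of the drift)` preserves the incidence `K ⊓ S`. -/
theorem persist {N : Conn D E} {X : E →ₗ[ℂ] E} {S : Submodule ℂ E} (hS : (N.tw X).Stab S) (K : Submodule ℂ E) (v : K)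
    (hv : (v : E) ∈ S) : N.drift K v - K.mkQ (X v) ∈ S.map K.mkQ := ⟨_, hS _ hv, by simp⟩

/-- a bilinear pairing is horizontal -/
def Compat (N : Conn D E) (M : Conn D F) (B : E →ₗ[ℂ] F →ₗ[ℂ] ℂ) : Prop := ∀ u v, D (B u v) = B (N u) v + B u (M v)

theorem Compat.tw {N : Conn D E} {M : Conn D F} {B : E →ₗ[ℂ] F →ₗ[ℂ] ℂ} (h : N.Compat M B) {X : E →ₗ[ℂ] E}
    {Y : F →ₗ[ℂ] F} (hXY : ∀ u v, B (X u) v + B u (Y v) = 0) : (N.tw X).Compat (M.tw Y) B := fun u v => by
  simp only [tw_apply, map_sub, LinearMap.sub_apply, h u v]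
  linear_combination hXY u v

/-- the annihilator of a stable subspace is stable -/
theorem Compat.stab_perp {N : Conn D E} {M : Conn D F} {B : E →ₗ[ℂ] F →ₗ[ℂ] ℂ} (h : N.Compat M B) {S : Submodule ℂ E}
    (hS : N.Stab S) {T : Submodule ℂ F} (hT : ∀ v, v ∈ T ↔ ∀ u ∈ S, B u v = 0) : M.Stab T := fun v hv =>
  (hT _).2 fun u hu => by
    have := h u v
    rw [(hT v).1 hv u hu, map_zero, (hT v).1 hv _ (hS u hu), zero_add] at this
    exact this.symm

theorem Compat.stab_orthogonal {N : Conn D E} {B : LinearMap.BilinForm ℂ E} (h : N.Compat N B) {S : Submodule ℂ E}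
    (hS : N.Stab S) : N.Stab (B.orthogonal S) :=
  h.stab_perp hS fun v => LinearMap.BilinForm.mem_orthogonal_iff

/-- the drift of an isotropic subspace is skew -/
theorem Compat.skew {N : Conn D E} {B : LinearMap.BilinForm ℂ E} (h : N.Compat N B) {u v : E} (huv : B u v = 0) :
    B (N u) v + B u (N v) = 0 := by rw [← h u v, huv, map_zero]

/-- PETRI identity: `A` stable for `N`, `L` stable for `M`, `φ ∈ A ⊓ L`, and `ψ` kills `A` and `L`
(e.g. `A`, `L` isotropic and `ψ ∈ A ⊓ L`). -/
theorem petri {N M : Conn D E} {A L : Submodule ℂ E} (hA : N.Stab A) (hL : M.Stab L) {φ : E} (h1 : φ ∈ A) (h2 : φ ∈ L)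
    (ψ : E →ₗ[ℂ] ℂ) (hψA : ∀ a ∈ A, ψ a = 0) (hψL : ∀ a ∈ L, ψ a = 0) : ψ (N.diff M φ) = 0 := by
  rw [diff_apply, map_sub, hψA _ (hA φ h1), hψL _ (hL φ h2), sub_zero]

theorem petri_mem {N : Conn D E} {X Y : E →ₗ[ℂ] E} {A L : Submodule ℂ E} (hA : (N.tw X).Stab A) (hL : (N.tw Y).Stab L)
    {φ : E} (h1 : φ ∈ A) (h2 : φ ∈ L) : X φ - Y φ ∈ A ⊔ L := by
  have := Submodule.sub_mem (A ⊔ L) (Submodule.mem_sup_right (hL φ h2)) (Submodule.mem_sup_left (hA φ h1))
  simpa using this

end Conn

end Crest.Agent.R172.Q
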