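import Mathlib

/-! # R172/Q: parity of intersections of Lagrangian subspaces (owner helper1) -/

set_option autoImplicit false
set_option linter.unusedVariables false
set_option linter.unusedSectionVars false
open Module

noncomputable section
namespace Crest.Agent.R172.Q.Par

variable {E : Type} [AddCommGroup E] [Module ℂ E] [FiniteDimensional ℂ E]

theorem alt_even (ω : LinearMap.BilinForm ℂ E) (h : ∀ x y, ω x y = -ω y x) :
    Even (finrank ℂ E + finrank ℂ (LinearMap.ker ω)) := by
  classical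
  obtain ⟨C, hC⟩ := Submodule.exists_isCompl (LinearMap.ker ω)
  have hd := Submodule.finrank_add_eq_of_isCompl hC
  have hnd : (ω.restrict C).Nondegenerate := by
    have key : ∀ x : C, (∀ y : C, ω x y = 0) → x = 0 := by
      intro x hx
      have hk : (x : E) ∈ LinearMap.ker ω := by
        rw [LinearMap.mem_ker]
        ext y
        have hy : y ∈ LinearMap.ker ω ⊔ C := by rw [hC.sup_eq_top]; trivial
        obtain ⟨u, hu, v, hv, rfl⟩ := Submodule.mem_sup.1 hy
        have h1 : ω x u = 0 := by rw [h, LinearMap.mem_ker.1 hu]; simp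
        simp [h1, hx ⟨v, hv⟩]
      have := hC.disjoint.le_bot (show (x : E) ∈ LinearMap.ker ω ⊓ C from ⟨hk, x.2⟩)
      exact Subtype.ext (by simpa using this)
    refine ⟨fun x hx => key x fun y => hx y, fun x hx => key x fun y => ?_⟩
    have := hx y
    rw [h]
    simpa using this
  let b := Module.finBasis ℂ C
  let M := LinearMap.BilinForm.toMatrix b (ω.restrict C)
  have hM : M.det ≠ 0 := (LinearMap.BilinForm.nondegenerate_iff_det_ne_zero b).1 hnd
  have hT : M.transpose = -M := by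
    ext i j
    simp only [M, Matrix.transpose_apply, Matrix.neg_apply, LinearMap.BilinForm.toMatrix_apply]
    exact h _ _
  have h1 : M.det = (-1) ^ finrank ℂ C * M.det := by
    conv_lhs => rw [← Matrix.det_transpose, hT, Matrix.det_neg]
    simp
  have h2 : Even (finrank ℂ C) := by
    by_contra hodd
    rw [(Nat.not_even_iff_odd.1 hodd).neg_one_pow] at h1
    apply hM
    linear_combination h1 / 2
  obtain ⟨r, hr⟩ := h2
  exact ⟨finrank ℂ (LinearMap.ker ω) + r, by omega⟩

variable {β : LinearMap.BilinForm ℂ E}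

/-- Lagrangian subspaces -/
def IsL (β : LinearMap.BilinForm ℂ E) (A : Submodule ℂ E) : Prop := ∀ x, x ∈ A ↔ ∀ y ∈ A, β x y = 0

theorem IsL.orth (hs : ∀ x y, β x y = β y x) {A : Submodule ℂ E} (h : IsL β A) : β.orthogonal A = A := by
  ext x
  rw [LinearMap.BilinForm.mem_orthogonal_iff, h x]
  exact forall₂_congr fun y hy => by rw [hs]

theorem orth_sup (A B : Submodule ℂ E) : β.orthogonal (A ⊔ B) = β.orthogonal A ⊓ β.orthogonal B := by
  ext x
  simp only [Submodule.mem_inf, LinearMap.BilinForm.mem_orthogonal_iff]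
  constructor
  · exact fun h => ⟨fun y hy => h y (Submodule.mem_sup_left hy), fun y hy => h y (Submodule.mem_sup_right hy)⟩
  · rintro ⟨h1, h2⟩ y hy
    obtain ⟨u, hu, v, hv, rfl⟩ := Submodule.mem_sup.1 hy
    simp [h1 u hu, h2 v hv]

theorem IsL.dim (hs : ∀ x y, β x y = β y x) (hn : β.Nondegenerate) {A : Submodule ℂ E} (h : IsL β A) :
    2 * finrank ℂ A = finrank ℂ E := by
  have h1 := LinearMap.BilinForm.finrank_orthogonal hn A
  rw [h.orth hs] at h1
  have := Submodule.finrank_le A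
  omega

theorem par3 (hs : ∀ x y, β x y = β y x) (hn : β.Nondegenerate) {A B C : Submodule ℂ E}
    (hA : IsL β A) (hB : IsL β B) (hC : IsL β C) :
    Even (finrank ℂ ↥(A ⊓ B) + finrank ℂ ↥(A ⊓ C) + finrank ℂ ↥(B ⊓ C) + finrank ℂ A) := by
  have hr : β.IsRefl := fun x y h => by rw [hs]; exact h
  have iA : ∀ x ∈ A, ∀ y ∈ A, β x y = 0 := fun x hx => (hA x).1 hx
  have iB : ∀ x ∈ B, ∀ y ∈ B, β x y = 0 := fun x hx => (hB x).1 hx
  have iC : ∀ x ∈ C, ∀ y ∈ C, β x y = 0 := fun x hx => (hC x).1 hx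
  let f : (B × C) →ₗ[ℂ] E := B.subtype.coprod C.subtype
  have hf : LinearMap.range f = B ⊔ C := by simp [f, LinearMap.range_coprod]
  obtain ⟨g, hg⟩ := LinearMap.exists_rightInverse_of_surjective f.rangeRestrict f.range_rangeRestrict
  set S : Submodule ℂ E := A ⊓ (B ⊔ C) with hS
  have hle : S ≤ LinearMap.range f := by rw [hf]; exact inf_le_right
  let σ : S →ₗ[ℂ] E := B.subtype ∘ₗ LinearMap.fst ℂ B C ∘ₗ g ∘ₗ Submodule.inclusion hle
  have hσB : ∀ x, σ x ∈ B := fun x => (g (Submodule.inclusion hle x)).1.2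
  have hσC : ∀ x : S, (x : E) - σ x ∈ C := fun x => by
    have h1 := congrArg Subtype.val (LinearMap.congr_fun hg (Submodule.inclusion hle x))
    have h2 : (x : E) = σ x + ((g (Submodule.inclusion hle x)).2 : E) := h1.symm
    have h3 : (x : E) - σ x = ((g (Submodule.inclusion hle x)).2 : E) := by rw [sub_eq_iff_eq_add', ← h2]
    rw [h3]; exact Subtype.property _
  let ω : LinearMap.BilinForm ℂ S := β.compl₁₂ S.subtype σ
  have hω : ∀ x y : S, ω x y = β x (σ y) := fun x y => rfl
  have hsk : ∀ x y, ω x y = -ω y x := by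
    intro x y
    have h1 := iC _ (hσC x) _ (hσC y)
    have h2 := iB _ (hσB x) _ (hσB y)
    have h3 := iA _ x.2.1 _ y.2.1
    simp only [map_sub, LinearMap.sub_apply] at h1
    rw [hω, hω, hs y]
    linear_combination -h1 + h2 + h3
  have hZ : (A ⊓ B) ⊔ (A ⊓ C) ≤ S := sup_le (inf_le_inf_left _ le_sup_left) (inf_le_inf_left _ le_sup_right)
  have oAC : β.orthogonal (A ⊓ C) = A ⊔ C := by
    conv_lhs => rw [← hA.orth hs, ← hC.orth hs, ← orth_sup]
    exact LinearMap.BilinForm.orthogonal_orthogonal hn hr _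
  have hker : LinearMap.ker ω = ((A ⊓ B) ⊔ (A ⊓ C)).comap S.subtype := by
    ext x
    rw [LinearMap.mem_ker, Submodule.mem_comap]
    constructor
    · intro hx
      have hx' : ∀ y, β x (σ y) = 0 := fun y => by rw [← hω, hx]; rfl
      have h1 : (x : E) ∈ β.orthogonal (β.orthogonal (B ⊔ (A ⊓ C))) := by
        rw [orth_sup, hB.orth hs, oAC, LinearMap.BilinForm.mem_orthogonal_iff]
        rintro b ⟨hb, hb'⟩
        obtain ⟨a, ha, c, hc, rfl⟩ := Submodule.mem_sup.1 hb'
        have haS : a ∈ S := ⟨ha, by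
          have : a = (a + c) - c := by abel
          rw [this]
          exact Submodule.sub_mem _ (Submodule.mem_sup_left hb) (Submodule.mem_sup_right hc)⟩
        have hzB : a + c - σ ⟨a, haS⟩ ∈ B := B.sub_mem hb (hσB _)
        have hzC : a + c - σ ⟨a, haS⟩ ∈ C := by
          have : a + c - σ ⟨a, haS⟩ = (a - σ ⟨a, haS⟩) + c := by abel
          rw [this]; exact C.add_mem (hσC ⟨a, haS⟩) hc
        have h2 := iB _ (hσB x) _ hzB
        have h3 := iC _ (hσC x) _ hzC
        have h4 := hx' ⟨a, haS⟩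
        rw [hs]
        simp only [map_sub, LinearMap.sub_apply] at h2 h3
        linear_combination h2 + h3 + h4
      rw [LinearMap.BilinForm.orthogonal_orthogonal hn hr] at h1
      obtain ⟨b, hb, z, hz, hbz⟩ := Submodule.mem_sup.1 h1
      refine Submodule.mem_sup.2 ⟨b, ⟨?_, hb⟩, z, hz, hbz⟩
      have : b = (x : E) - z := by rw [← hbz]; abel
      rw [this]; exact A.sub_mem x.2.1 hz.1
    · intro hx
      ext y
      obtain ⟨u, hu, v, hv, huv⟩ := Submodule.mem_sup.1 hx
      have h1 := iB _ hu.2 _ (hσB y)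
      have h2 := iC _ hv.2 _ (hσC y)
      have h3 := iA _ hv.1 _ y.2.1
      have h4 : (x : E) = u + v := huv.symm
      rw [hω, h4]
      simp only [map_sub, map_add, LinearMap.add_apply, LinearMap.zero_apply] at h2 ⊢
      linear_combination h1 - h2 + h3
  have e1 := alt_even ω hsk
  rw [hker, (Submodule.comapSubtypeEquivOfLe hZ).finrank_eq] at e1
  have e2 := Submodule.finrank_sup_add_finrank_inf_eq (A ⊓ B) (A ⊓ C)
  have e3 := Submodule.finrank_sup_add_finrank_inf_eq A (B ⊓ C)
  have e4 : A ⊓ B ⊓ (A ⊓ C) = A ⊓ (B ⊓ C) := by rw [← inf_inf_distrib_left]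
  have oBC : β.orthogonal (B ⊓ C) = B ⊔ C := by
    conv_lhs => rw [← hB.orth hs, ← hC.orth hs, ← orth_sup]
    exact LinearMap.BilinForm.orthogonal_orthogonal hn hr _
  have e5 := LinearMap.BilinForm.finrank_orthogonal hn (A ⊔ (B ⊓ C))
  rw [orth_sup, hA.orth hs, oBC, ← hS] at e5
  have e6 := hA.dim hs hn
  have e7 := Submodule.finrank_le (A ⊔ (B ⊓ C))
  rw [e4] at e2
  rw [Nat.even_iff] at e1 ⊢
  omega

theorem paru (hs : ∀ x y, β x y = β y x) {A : Submodule ℂ E} (hA : IsL β A) (N : E →ₗ[ℂ] E)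
    (hN : ∀ x y, β (N x) y = -β x (N y)) (h2 : ∀ x, N (N x) = 0) :
    Even (finrank ℂ ↥(A.map (LinearMap.id + N) ⊓ A) + finrank ℂ A) := by
  let ω : LinearMap.BilinForm ℂ A := β.compl₁₂ (N ∘ₗ A.subtype) A.subtype
  have hω : ∀ x y : A, ω x y = β (N x) y := fun x y => rfl
  have e1 := alt_even ω fun x y => by rw [hω, hω, hN, hs]
  have hinj : Function.Injective ((LinearMap.id + N) ∘ₗ A.subtype : A →ₗ[ℂ] E) := by
    rw [← LinearMap.ker_eq_bot, LinearMap.ker_eq_bot']
    intro x hx
    have h3 : (x : E) + N x = 0 := hx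
    have h4 := congrArg N h3
    rw [map_add, h2, add_zero, map_zero] at h4
    rw [h4, add_zero] at h3
    exact Subtype.ext h3
  have e2 : A.map (LinearMap.id + N) ⊓ A = (LinearMap.ker ω).map ((LinearMap.id + N) ∘ₗ A.subtype) := by
    ext z
    constructor
    · rintro ⟨⟨x, hx, rfl⟩, hz⟩
      refine ⟨⟨x, hx⟩, ?_, rfl⟩
      have hNx : N x ∈ A := by
        have : N x = (x + N x) - x := by abel
        rw [this]; exact A.sub_mem hz hx
      show ω ⟨x, hx⟩ = 0
      ext y
      exact (hA _).1 hNx _ y.2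
    · rintro ⟨x, hx, rfl⟩
      refine ⟨⟨x, x.2, rfl⟩, ?_⟩
      have hNx : N x ∈ A := (hA _).2 fun y hy => by
        have : ω x = 0 := hx
        rw [← hω x ⟨y, hy⟩, this]; rfl
      exact A.add_mem x.2 hNx
  rw [e2, ← (Submodule.equivMapOfInjective _ hinj _).finrank_eq, add_comm]
  exact e1

end Crest.Agent.R172.Q.Par
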