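import Crest.Agent.R172.Q.Defs
import Crest.Agent.R172.Q.Par0

/-! # R172/Q: `dim H` is even on the root lattice (owner helper1) -/

set_option autoImplicit false
set_option linter.unusedVariables false
set_option linter.unusedSectionVars false
open Matrix Sum Crest.AlgebraR.SpinSaturation Module

noncomputable section
namespace Crest.Agent.R172.Q
open Crest.Agent.R172.W

variable {n : ℕ} {l : Fin 3 → ℕ}

/-- the parity statement -/
def S_PAR : Prop := ∀ (n : ℕ) (a : Fin 3 → Wt n) (l : Fin 3 → ℕ), Adm a l → InRootLattice n (a 0 + a 1 + a 2) →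
  ∀ g : Fin 3 → Matrix (L n) (L n) ℂ, (∀ i, g i ∈ Gp n) → ∀ T : Submodule ℂ (K l → ℂ), IsLag T →
    Even (finrank ℂ ↥(H g a T))

theorem rv_rv (k : K l) : rv (rv k) = k := by
  obtain ⟨i, k⟩ := k
  simp [rv]

/-- `rv` as a permutation -/
def rvE (l : Fin 3 → ℕ) : K l ≃ K l := ⟨rv, rv, rv_rv, rv_rv⟩

/-- `bV` as a bilinear form -/
def βV (l : Fin 3 → ℕ) : LinearMap.BilinForm ℂ (K l → ℂ) :=
  LinearMap.mk₂ ℂ bV (fun x y z => by simp [bV, add_mul, Finset.sum_add_distrib])
    (fun c x y => by simp [bV, Finset.mul_sum, mul_assoc]) (fun x y z => by simp [bV, mul_add, Finset.sum_add_distrib])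
    (fun c x y => by simp [bV, Finset.mul_sum, mul_left_comm])

/-- `bE` as a bilinear form -/
def βE (n : ℕ) (l : Fin 3 → ℕ) : LinearMap.BilinForm ℂ (Matrix (L n) (K l) ℂ) :=
  LinearMap.mk₂ ℂ bE (fun x y z => by simp [bE, add_mul, Finset.sum_add_distrib])
    (fun c x y => by simp only [bE, Matrix.smul_apply, smul_eq_mul, Finset.mul_sum, mul_assoc])
    (fun x y z => by simp [bE, mul_add, Finset.sum_add_distrib])
    (fun c x y => by simp only [bE, Matrix.smul_apply, smul_eq_mul, Finset.mul_sum, mul_left_comm])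

theorem βV_apply (x y : K l → ℂ) : βV l x y = bV x y := rfl
theorem βE_apply (x y : Matrix (L n) (K l) ℂ) : βE n l x y = bE x y := rfl

theorem bV_comm (x y : K l → ℂ) : bV x y = bV y x := by
  unfold bV
  rw [← (rvE l).sum_comp]
  exact Finset.sum_congr rfl fun k _ => by simp [rvE, rv_rv, mul_comm]

theorem bE_rows (x y : Matrix (L n) (K l) ℂ) : bE x y = ∑ p, bV (fun k => x p k) (fun k => y p.swap k) := rfl

theorem bE_comm (x y : Matrix (L n) (K l) ℂ) : bE x y = bE y x := by
  rw [bE_rows, bE_rows, ← (Equiv.sumComm (Fin n) (Fin n)).sum_comp]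
  exact Finset.sum_congr rfl fun p _ => by rw [bV_comm]; simp

theorem bV_single (x : K l → ℂ) (k : K l) : bV x (Pi.single (rv k) 1) = x k := by
  classical
  unfold bV
  rw [Finset.sum_eq_single k]
  · simp
  · intro j _ hj
    have : rv j ≠ rv k := fun h => hj (by rw [← rv_rv j, h, rv_rv])
    simp [this]
  · simp

theorem bE_row (x : Matrix (L n) (K l) ℂ) (p : L n) (y : K l → ℂ) :
    bE x (Matrix.of fun q k => if q = p.swap then y k else 0) = bV (fun k => x p k) y := by
  rw [bE_rows, Finset.sum_eq_single p]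
  · simp
  · intro q _ hq
    have : q.swap ≠ p.swap := fun h => hq (liea_swap_inj.1 h)
    simp [this, bV]
  · simp

theorem βV_nd : (βV l).Nondegenerate := by
  have key : ∀ x : K l → ℂ, (∀ y, bV x y = 0) → x = 0 := fun x hx => funext fun k => by
    rw [← bV_single x k, hx]; rfl
  exact ⟨fun x hx => key x hx, fun x hx => key x fun y => by rw [bV_comm]; exact hx y⟩

theorem βE_nd : (βE n l).Nondegenerate := by
  have key : ∀ x : Matrix (L n) (K l) ℂ, (∀ y, bE x y = 0) → x = 0 := fun x hx => by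
    ext p k
    have := bE_row x p (Pi.single (rv k) 1)
    rw [hx, bV_single] at this
    exact this.symm
  exact ⟨fun x hx => key x hx, fun x hx => key x fun y => by rw [bE_comm]; exact hx y⟩

theorem isL_ten {T : Submodule ℂ (K l → ℂ)} (hT : IsLag T) : Par.IsL (βE n l) (ten ⊤ T) := by
  intro x
  constructor
  · intro hx y hy
    rw [βE_apply, bE_rows]
    exact Finset.sum_eq_zero fun p _ => (hT _).1 (hx.2 p) _ (hy.2 p.swap)
  · intro hx
    refine ⟨fun k => trivial, fun p => (hT _).2 fun y hy => ?_⟩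
    rw [← bE_row]
    refine hx _ ⟨fun k => trivial, fun q => ?_⟩
    by_cases h : q = p.swap
    · simpa [h] using hy
    · simp only [Matrix.of_apply, h, if_false]
      exact T.zero_mem

/-- coordinate subspaces -/
def Co (s : L n → K l → Prop) : Submodule ℂ (Matrix (L n) (K l) ℂ) where
  carrier := {φ | ∀ p k, ¬ s p k → φ p k = 0}
  add_mem' := fun h h' p k e => by simp [h p k e, h' p k e]
  zero_mem' := fun p k e => rfl
  smul_mem' := fun c φ h p k e => by simp [h p k e]

theorem isL_Co {s : L n → K l → Prop} (hs : ∀ p k, s p k ↔ ¬ s p.swap (rv k)) : Par.IsL (βE n l) (Co s) := by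
  classical
  intro x
  constructor
  · intro hx y hy
    rw [βE_apply]
    unfold bE
    refine Finset.sum_eq_zero fun p _ => Finset.sum_eq_zero fun k _ => ?_
    by_cases h : s p k
    · rw [hy _ _ ((hs p k).1 h), mul_zero]
    · rw [hx _ _ h, zero_mul]
  · intro hx p k h
    have h1 := bE_row x p (Pi.single (rv k) 1)
    rw [bV_single] at h1
    rw [← h1]
    refine hx _ fun q j hq => ?_
    by_cases h2 : q = p.swap
    · have h3 : j ≠ rv k := by
        rintro rfl
        subst h2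
        exact h ((hs p k).2 hq)
      simp [h3]
    · simp [h2]

theorem finrank_Co (s : L n → K l → Prop) [∀ p k, Decidable (s p k)] :
    finrank ℂ ↥(Co s) = ∑ p, ∑ k, if s p k then 1 else 0 := by
  classical
  let Ψ : ({x : L n × K l // s x.1 x.2} → ℂ) →ₗ[ℂ] Matrix (L n) (K l) ℂ :=
    { toFun := fun f => Matrix.of fun p k => if h : s p k then f ⟨(p, k), h⟩ else 0
      map_add' := fun f f' => by ext p k; by_cases h : s p k <;> simp [h]
      map_smul' := fun c f => by ext p k; by_cases h : s p k <;> simp [h] }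
  have hi : Function.Injective Ψ := fun f f' h => funext fun x => by
    have := congrFun (congrFun h x.1.1) x.1.2
    simpa [Ψ, x.2] using this
  have hr : LinearMap.range Ψ = Co s := by
    ext φ
    constructor
    · rintro ⟨f, rfl⟩ p k h
      simp [Ψ, h]
    · intro h
      refine ⟨fun x => φ x.1.1 x.1.2, ?_⟩
      ext p k
      by_cases h' : s p k
      · simp [Ψ, h']
      · simp [Ψ, h', h p k h']
  rw [← hr, LinearMap.finrank_range_of_inj hi, Module.finrank_fintype_fun_eq_card, Fintype.card_subtype,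
    Finset.card_filter, Fintype.sum_prod_type]

theorem Lam0_eq (a : Fin 3 → Wt n) :
    Lam0 a l = Co fun p k => 2 * ((k.2 : ℕ) : ℤ) < (l k.1 : ℤ) + sc (a k.1) p := by
  ext φ
  exact forall₂_congr fun p k => by rw [not_lt]

theorem sc_swap (a : Wt n) (p : L n) : sc a p.swap = -sc a p := by
  rcases p with p | p <;> simp [sc]

theorem isL_Lam0 {a : Fin 3 → Wt n} (h : Adm a l) : Par.IsL (βE n l) (Lam0 a l) := by
  rw [Lam0_eq]
  refine isL_Co fun p k => ?_
  obtain ⟨i, k⟩ := k
  have h1 : Even ((l i : ℤ) - sc (a i) p) := by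
    rcases p with p | p
    · exact h.par i p
    · have := h.par i p
      simp only [sc, Sum.elim_inr]
      rw [Int.even_iff] at this ⊢
      omega
  have h2 := k.2
  simp only [rv, sc_swap, Fin.val_rev]
  rw [Int.even_iff] at h1
  omega

theorem mv_mul (g h : Fin 3 → Matrix (L n) (L n) ℂ) : (mv (g * h) : Matrix (L n) (K l) ℂ →ₗ[ℂ] _) = mv g ∘ₗ mv h := by
  ext φ p k
  simp only [mv_apply, LinearMap.comp_apply, Pi.mul_apply, Matrix.mul_apply, Finset.sum_mul, Finset.mul_sum, mul_assoc]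
  exact Finset.sum_comm

theorem mv_add (g h : Fin 3 → Matrix (L n) (L n) ℂ) : (mv (g + h) : Matrix (L n) (K l) ℂ →ₗ[ℂ] _) = mv g + mv h := by
  ext φ p k
  simp only [mv_apply, LinearMap.add_apply, Pi.add_apply, Matrix.add_apply, add_mul, Finset.sum_add_distrib]

theorem mv_one_id : (mv 1 : Matrix (L n) (K l) ℂ →ₗ[ℂ] _) = LinearMap.id := by
  ext φ p k
  simp [mv_apply, Matrix.one_apply]

theorem mv_zero : (mv 0 : Matrix (L n) (K l) ℂ →ₗ[ℂ] _) = 0 := by
  ext φ p k
  simp [mv_apply]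

theorem mv_skew {e : Fin 3 → Matrix (L n) (L n) ℂ} (he : ∀ i, e i ∈ LieAlgebra.Orthogonal.typeD (Fin n) ℂ)
    (x y : Matrix (L n) (K l) ℂ) : bE (mv e x) y = -bE x (mv e y) := by
  unfold bE
  rw [Finset.sum_comm, Finset.sum_comm (f := fun p k => x p k * mv e y p.swap (rv k)), ← Finset.sum_neg_distrib]
  refine Finset.sum_congr rfl fun k _ => ?_
  simp only [mv_apply, Finset.sum_mul, Finset.mul_sum]
  rw [Finset.sum_comm, ← Finset.sum_neg_distrib]
  refine Finset.sum_congr rfl fun q _ => ?_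
  rw [← Finset.sum_neg_distrib, ← (Equiv.sumComm (Fin n) (Fin n)).sum_comp]
  refine Finset.sum_congr rfl fun p _ => ?_
  have := mem_typeD.1 (he k.1) p.swap q
  simp only [Equiv.sumComm_apply, Sum.swap_swap] at this ⊢
  rw [this]
  simp only [rv]
  ring

/-- isometries that keep the family of every Lagrangian -/
def Good (f : Matrix (L n) (K l) ℂ →ₗ[ℂ] Matrix (L n) (K l) ℂ) : Prop :=
  (∀ x y, bE (f x) (f y) = bE x y) ∧ ∀ A, Par.IsL (βE n l) A → Even (finrank ℂ ↥(A.map f ⊓ A) + finrank ℂ A)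

theorem isL_map {f : Matrix (L n) (K l) ℂ →ₗ[ℂ] Matrix (L n) (K l) ℂ} (hf : ∀ x y, bE (f x) (f y) = bE x y)
    {A : Submodule ℂ (Matrix (L n) (K l) ℂ)} (hA : Par.IsL (βE n l) A) : Par.IsL (βE n l) (A.map f) := by
  have hi : Function.Injective f := by
    rw [← LinearMap.ker_eq_bot, LinearMap.ker_eq_bot']
    intro x hx
    refine βE_nd.1 x fun y => ?_
    rw [βE_apply, ← hf, hx]
    simp [bE]
  have hsu := LinearMap.surjective_of_injective hi
  intro x
  obtain ⟨x, rfl⟩ := hsu x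
  constructor
  · rintro ⟨z, hz, hzx⟩ _ ⟨y, hy, rfl⟩
    rw [← hzx, βE_apply, hf]
    exact (hA z).1 hz y hy
  · intro h
    exact ⟨x, (hA x).2 fun y hy => by rw [βE_apply, ← hf]; exact h _ ⟨y, hy, rfl⟩, rfl⟩

theorem Good.comp {f g : Matrix (L n) (K l) ℂ →ₗ[ℂ] Matrix (L n) (K l) ℂ} (hf : Good f) (hg : Good g) : Good (f ∘ₗ g) := by
  refine ⟨fun x y => by rw [LinearMap.comp_apply, LinearMap.comp_apply, hf.1, hg.1], fun A hA => ?_⟩
  have h1 := isL_map hg.1 hA
  have h2 := isL_map hf.1 h1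
  have e1 := hf.2 _ h1
  have e2 := hg.2 _ hA
  have e3 := Par.par3 bE_comm βE_nd h2 h1 hA
  have d1 := hA.dim bE_comm βE_nd
  have d2 := h1.dim bE_comm βE_nd
  have d3 := h2.dim bE_comm βE_nd
  rw [Submodule.map_comp]
  rw [Nat.even_iff] at e1 e2 e3 ⊢
  omega

theorem good_id : Good (LinearMap.id : Matrix (L n) (K l) ℂ →ₗ[ℂ] _) :=
  ⟨fun _ _ => rfl, fun A _ => by rw [Submodule.map_id, inf_idem]; exact ⟨_, rfl⟩⟩

/-- `u` in the slot `i`, `d` elsewhere -/
def slot (d : Matrix (L n) (L n) ℂ) (i : Fin 3) (u : Matrix (L n) (L n) ℂ) : Fin 3 → Matrix (L n) (L n) ℂ :=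
  fun j => if j = i then u else d

theorem good_slot (i : Fin 3) {u : Matrix (L n) (L n) ℂ} (hu : u ∈ Gp n) :
    Good (mv (slot 1 i u) : Matrix (L n) (K l) ℂ →ₗ[ℂ] _) := by
  induction hu using Submonoid.closure_induction with
  | mem x hx =>
    obtain ⟨e, he, h2, rfl⟩ := hx
    have h1 : slot (1 : Matrix (L n) (L n) ℂ) i (1 + e) = 1 + slot 0 i e := by
      funext j; by_cases h : j = i <;> simp [h, slot]
    have h3 : ∀ j, slot (0 : Matrix (L n) (L n) ℂ) i e j ∈ LieAlgebra.Orthogonal.typeD (Fin n) ℂ := by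
      intro j; by_cases h : j = i <;> simp [h, slot, he]
    have h4 : ∀ x : Matrix (L n) (K l) ℂ, mv (slot 0 i e) (mv (slot 0 i e) x) = 0 := by
      intro x
      have : slot (0 : Matrix (L n) (L n) ℂ) i e * slot 0 i e = 0 := by
        funext j; by_cases h : j = i <;> simp [h, slot, h2]
      rw [← LinearMap.comp_apply, ← mv_mul, this, mv_zero]; rfl
    rw [h1, mv_add, mv_one_id]
    refine ⟨fun x y => ?_, fun A hA => Par.paru bE_comm hA _ (mv_skew h3) h4⟩
    have h5 := mv_skew h3 x y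
    have h6 := mv_skew h3 x (mv (slot 0 i e) y)
    rw [h4] at h6
    simp only [← βE_apply, LinearMap.add_apply, LinearMap.id_apply, map_add, map_zero] at h5 h6 ⊢
    linear_combination h5 + h6
  | one =>
    have : slot (1 : Matrix (L n) (L n) ℂ) i 1 = 1 := by funext j; simp [slot]
    rw [this, mv_one_id]; exact good_id
  | mul x y _ _ hx hy =>
    have : slot (1 : Matrix (L n) (L n) ℂ) i (x * y) = slot 1 i x * slot 1 i y := by
      funext j; by_cases h : j = i <;> simp [h, slot]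
    rw [this, mv_mul]; exact hx.comp hy

theorem good_mv {g : Fin 3 → Matrix (L n) (L n) ℂ} (hg : ∀ i, g i ∈ Gp n) : Good (mv g : Matrix (L n) (K l) ℂ →ₗ[ℂ] _) := by
  have : g = slot 1 0 (g 0) * (slot 1 1 (g 1) * slot 1 2 (g 2)) := by
    funext j; fin_cases j <;> simp [slot]
  rw [this, mv_mul, mv_mul]
  exact (good_slot 0 (hg 0)).comp ((good_slot 1 (hg 1)).comp (good_slot 2 (hg 2)))

theorem isL_Lam {a : Fin 3 → Wt n} (h : Adm a l) {g : Fin 3 → Matrix (L n) (L n) ℂ} (hg : ∀ i, g i ∈ Gp n) :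
    Par.IsL (βE n l) (Lam g a l) := isL_map (good_mv hg).1 (isL_Lam0 h)

theorem finrank_K : finrank ℂ (K l → ℂ) = ∑ i, l i := by simp

theorem finrank_inl_ten (T : Submodule ℂ (K l → ℂ)) :
    finrank ℂ ↥(Co (fun (p : L n) (_ : K l) => p.isLeft = true) ⊓ ten ⊤ T) = n * finrank ℂ T := by
  let Φ : (Fin n → T) →ₗ[ℂ] Matrix (L n) (K l) ℂ :=
    { toFun := fun x => Matrix.of (Sum.elim (fun i k => (x i : K l → ℂ) k) fun _ _ => 0)
      map_add' := fun x y => by ext p k; rcases p with p | p <;> simp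
      map_smul' := fun c x => by ext p k; rcases p with p | p <;> simp }
  have hi : Function.Injective Φ := fun x y h => funext fun i => Subtype.ext (congrFun h (inl i))
  have hr : LinearMap.range Φ = Co (fun (p : L n) (_ : K l) => p.isLeft = true) ⊓ ten ⊤ T := by
    ext φ
    constructor
    · rintro ⟨x, rfl⟩
      refine ⟨fun p k h => ?_, fun k => trivial, fun p => ?_⟩
      · rcases p with p | p
        · simp at h
        · rfl
      · rcases p with p | p
        · exact (x p).2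
        · exact T.zero_mem
    · rintro ⟨h1, h2⟩
      refine ⟨fun i => ⟨fun k => φ (inl i) k, h2.2 _⟩, ?_⟩
      ext p k
      rcases p with p | p
      · rfl
      · exact (h1 (inr p) k (by simp)).symm
  rw [← hr, LinearMap.finrank_range_of_inj hi, Module.finrank_pi_fintype]
  simp

theorem count_lt (m : ℕ) (c : ℤ) (h1 : Even ((m : ℤ) - c)) (h2 : |c| ≤ m) :
    2 * ((∑ k : Fin m, if 2 * ((k : ℕ) : ℤ) < (m : ℤ) + c then 1 else 0 : ℕ) : ℤ) = m + c := by
  obtain ⟨r, hr⟩ : ∃ r : ℕ, 2 * (r : ℤ) = m + c := by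
    refine ⟨((m + c) / 2).toNat, ?_⟩
    rw [Int.even_iff] at h1
    have := abs_le.1 h2
    omega
  have h3 : r ≤ m := by have := abs_le.1 h2; omega
  have h4 : ∀ k : Fin m, (2 * ((k : ℕ) : ℤ) < (m : ℤ) + c) ↔ (k : ℕ) < r := fun k => by omega
  simp only [h4]
  rw [← Finset.card_filter, Fin.card_filter_val_lt, min_eq_right h3, hr]

theorem s_PAR : S_PAR := by
  classical
  intro n a l h hroot g hg T hT
  have hP : Par.IsL (βE n l) (Co fun (p : L n) (_ : K l) => p.isLeft = true) :=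
    isL_Co fun p k => by rcases p with p | p <;> simp
  have h0 := isL_Lam0 h
  have h1 := isL_Lam h hg
  have h2 : Par.IsL (βE n l) (ten ⊤ T) := isL_ten hT
  have e1 := Par.par3 bE_comm βE_nd h1 h0 h2
  have e2 : Even (finrank ℂ ↥(Lam g a l ⊓ Lam0 a l) + finrank ℂ ↥(Lam0 a l)) := (good_mv hg).2 _ h0
  have e3 := Par.par3 bE_comm βE_nd h0 hP h2
  have d0 := h0.dim bE_comm βE_nd
  have d1 := h1.dim bE_comm βE_nd
  have dT := Par.IsL.dim (β := βV l) bV_comm βV_nd hT
  rw [finrank_K] at dT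
  have dE : finrank ℂ (Matrix (L n) (K l) ℂ) = 2 * n * ∑ i, l i := by
    rw [Module.finrank_matrix]; simp [two_mul]
  rw [finrank_inl_ten] at e3
  have e4 : 2 * (finrank ℂ ↥(Lam0 a l ⊓ Co fun (p : L n) (_ : K l) => p.isLeft = true) : ℤ) =
      n * (∑ i, l i : ℕ) + ∑ j, (a 0 + a 1 + a 2) j := by
    have : (Lam0 a l ⊓ Co fun (p : L n) (_ : K l) => p.isLeft = true) =
        Co fun p k => 2 * ((k.2 : ℕ) : ℤ) < (l k.1 : ℤ) + sc (a k.1) p ∧ p.isLeft = true := by
      rw [Lam0_eq]
      ext φ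
      constructor
      · rintro ⟨u, v⟩ p k hk
        rcases not_and_or.1 hk with w | w
        · exact u p k w
        · exact v p k w
      · exact fun u => ⟨fun p k w => u p k fun z => w z.1, fun p k w => u p k fun z => w z.2⟩
    rw [this, finrank_Co, Fintype.sum_sum_type]
    simp only [Sum.isLeft_inl, Sum.isLeft_inr, and_true, Bool.false_eq_true, and_false, if_false, Finset.sum_const_zero,
      add_zero, Fintype.sum_sigma, sc, Sum.elim_inl]
    rw [Nat.cast_sum, Finset.mul_sum]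
    have : ∀ j : Fin n, 2 * ((∑ i : Fin 3, ∑ k : Fin (l i), if 2 * ((k : ℕ) : ℤ) < (l i : ℤ) + a i j then 1 else 0 : ℕ) : ℤ) =
        (∑ i, l i : ℕ) + (a 0 + a 1 + a 2) j := fun j => by
      rw [Nat.cast_sum, Finset.mul_sum, Finset.sum_congr rfl fun i _ => count_lt (l i) (a i j) (h.par i j) (h.le i j)]
      simp [Fin.sum_univ_three]; ring
    rw [Finset.sum_congr rfl fun j _ => this j, Finset.sum_add_distrib]
    simp
  obtain ⟨z, hz⟩ := hroot.2
  rw [hz, ← dT] at e4
  rw [← dT] at dE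
  have e5 : 2 * n * (2 * finrank ℂ T) = 4 * (n * finrank ℂ T) := by ring
  have e6 : (n : ℤ) * ((2 * finrank ℂ T : ℕ) : ℤ) = 2 * ((n * finrank ℂ T : ℕ) : ℤ) := by push_cast; ring
  rw [e5] at dE
  rw [e6] at e4
  unfold H
  rw [Nat.even_iff] at e1 e2 e3 ⊢
  omega

end Crest.Agent.R172.Q
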