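import Crest.Agent.R172.Q.Gen
import Crest.Agent.R172.Q.Chi
import Crest.Agent.R172.Q.Par

/-! # Row 172 (Pfaffian route): the core reduced to generic data (helper12) -/

set_option autoImplicit false
set_option linter.unusedVariables false

noncomputable section

namespace Crest.Agent.R172.Q

open Matrix Crest.AlgebraR.SpinSaturation Crest.Agent.R172.W

/-- for generic semistable data `dim H ≤ 1` (the family of `T` and a countable set of constants may be chosen) -/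
def S_GEN : Prop := ∀ (n : ℕ), 2 ≤ n → ∀ (a : Fin 3 → Wt n) (l : Fin 3 → ℕ), Adm a l → (∀ i (j : Fin n), (j : ℕ) = 0 → (l i : ℤ) = a i j) →
  InRootLattice n (a 0 + a 1 + a 2) → ∃ T₀ : Submodule ℂ (K l → ℂ), IsLag T₀ ∧ ∃ A : Set ℂ, A.Countable ∧
    ∀ g : Fin 3 → Matrix (L n) (L n) ℂ, (∀ i, g i ∈ Gp n) → ∀ h : Matrix (K l) (K l) ℂ, adj rv h * h = 1 → h * adj rv h = 1 →
      IsUnit (1 + h) → Generic A g (T₀.map (Matrix.toLin' h)) → (∀ R, chi2 g a l R ≤ 0) →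
        Module.finrank ℂ ↥(H g a (T₀.map (Matrix.toLin' h))) ≤ 1

theorem s_CORE_of_gen (hG : S_GEN) : S_CORE := by
  intro n hn a ha hr ⟨l1, l2, l3, hl, hS⟩
  obtain ⟨l, hadm, hl0⟩ := exists_adm hn ha
  obtain ⟨T₀, hT₀, A, hA, hcore⟩ := hG n hn a l hadm (fun i j hj => by rw [hl0 i]; congr 1; exact Fin.ext hj.symm) hr
  obtain ⟨u, hu, hnd, hsub, f₀, hf₀, hsurj⟩ := gen_words hn ![l1, l2, l3] fun i x hx => hl x (by
    fin_cases i <;> simp at hx <;> simp [hx])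
  obtain ⟨f, hf, hSS⟩ := hS _ (u 0) (u 1) (u 2) (hu 0) (hu 1) (hu 2) hnd (hsub 0) (hsub 1) (hsub 2)
  obtain ⟨t, h, ht, -, h1, h2, h3, hgen⟩ := exists_Generic hu hf₀ hsurj hf T₀ hA
  have hg : ∀ i, HM.gw (u i) t ∈ Gp n := fun i => gw_mem (hu i) t
  have hT := hT₀.map h1 h2
  refine ⟨l, hadm, _, hg, _, hT, ?_⟩
  have e1 := hcore _ hg h h1 h2 h3 hgen
    (chi2_le_of_SS (g := fun i => HM.gw (u i) t) (hSS t ht _ _ _ (hadm.fit 0) (hadm.fit 1) (hadm.fit 2)))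
  obtain ⟨m, hm⟩ := s_PAR n a l hadm hr _ hg _ hT
  exact Submodule.finrank_eq_zero.1 (by omega)

end Crest.Agent.R172.Q
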