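import Crest.Agent.R172.W.Main

/-! # R172/Q: the Pfaffian (pure spinor) model (owner helper16).
`W = L n → ℂ` with the form `bW`, `V = V₀ ⊕ V₁ ⊕ V₂ = K l → ℂ` with the form `bV` (antidiagonal on each `V_i = Fin (l i) → ℂ`, the flag
`G^i` is the coordinate flag), `W ⊗ V = Matrix (L n) (K l) ℂ` (columns are vectors of `W`, rows are vectors of `V`).
The flag `F^i` is `g i` applied to the standard isotropic flag, `g i ∈ Gp n`. Weights are DOUBLED. -/

set_option autoImplicit false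
set_option linter.unusedVariables false
set_option linter.unusedSectionVars false
open Matrix Sum Crest.AlgebraR.SpinSaturation

noncomputable section
namespace Crest.Agent.R172.Q
open Crest.Agent.R172.W

variable {n : ℕ} {l : Fin 3 → ℕ}

/-- signed doubled coordinate of a letter -/
def sc (a : Wt n) : L n → ℤ := Sum.elim a fun i => -a i
/-- the index set of `V` -/
abbrev K (l : Fin 3 → ℕ) : Type := Σ i : Fin 3, Fin (l i)
/-- the involution defining the form of `V` -/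
def rv (k : K l) : K l := ⟨k.1, k.2.rev⟩
/-- the form on `W` -/
def bW (x y : L n → ℂ) : ℂ := ∑ p, x p * y p.swap
/-- the form on `V` -/
def bV (x y : K l → ℂ) : ℂ := ∑ k, x k * y (rv k)
/-- the form on `W ⊗ V` -/
def bE (φ ψ : Matrix (L n) (K l) ℂ) : ℂ := ∑ p, ∑ k, φ p k * ψ p.swap (rv k)

/-- the group generated by the `1 + e`, `e ∈ so(W)`, `e² = 0` -/
def Gp (n : ℕ) : Submonoid (Matrix (L n) (L n) ℂ) :=
  Submonoid.closure {g | ∃ e ∈ LieAlgebra.Orthogonal.typeD (Fin n) ℂ, e * e = 0 ∧ g = 1 + e}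

/-- the standard Lagrangian: `e_p ⊗ f_k` is in it iff `2 k < l i + sc (a i) p` -/
def Lam0 (a : Fin 3 → Wt n) (l : Fin 3 → ℕ) : Submodule ℂ (Matrix (L n) (K l) ℂ) where
  carrier := {φ | ∀ p (k : K l), (l k.1 : ℤ) + sc (a k.1) p ≤ 2 * ((k.2 : ℕ) : ℤ) → φ p k = 0}
  add_mem' := fun h h' p k e => by simp [h p k e, h' p k e]
  zero_mem' := fun p k e => rfl
  smul_mem' := fun c φ h p k e => by simp [h p k e]

/-- `g i` acts on the columns of the block `i` -/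
def mv (g : Fin 3 → Matrix (L n) (L n) ℂ) : Matrix (L n) (K l) ℂ →ₗ[ℂ] Matrix (L n) (K l) ℂ where
  toFun φ := Matrix.of fun p k => ∑ q, g k.1 p q * φ q k
  map_add' φ ψ := by
    ext p k
    simp only [Matrix.of_apply, Matrix.add_apply, mul_add, Finset.sum_add_distrib]
  map_smul' c φ := by
    ext p k
    simp only [Matrix.of_apply, Matrix.smul_apply, smul_eq_mul, RingHom.id_apply, Finset.mul_sum, mul_left_comm]

theorem mv_apply (g : Fin 3 → Matrix (L n) (L n) ℂ) (φ : Matrix (L n) (K l) ℂ) (p : L n) (k : K l) :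
    mv g φ p k = ∑ q, g k.1 p q * φ q k := rfl

/-- the Lagrangian `Λ = ⊕_i ∑_j F^i_j ⊗ G^i(j)` -/
def Lam (g : Fin 3 → Matrix (L n) (L n) ℂ) (a : Fin 3 → Wt n) (l : Fin 3 → ℕ) : Submodule ℂ (Matrix (L n) (K l) ℂ) :=
  (Lam0 a l).map (mv g)

/-- `R ⊗ T`: columns in `R`, rows in `T` -/
def ten (R : Submodule ℂ (L n → ℂ)) (T : Submodule ℂ (K l → ℂ)) : Submodule ℂ (Matrix (L n) (K l) ℂ) where
  carrier := {φ | (∀ k, (fun p => φ p k) ∈ R) ∧ ∀ p, (fun k => φ p k) ∈ T}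
  add_mem' := fun h h' => ⟨fun k => R.add_mem (h.1 k) (h'.1 k), fun p => T.add_mem (h.2 p) (h'.2 p)⟩
  zero_mem' := ⟨fun k => R.zero_mem, fun p => T.zero_mem⟩
  smul_mem' := fun c φ h => ⟨fun k => R.smul_mem c (h.1 k), fun p => T.smul_mem c (h.2 p)⟩

/-- Lagrangian subspaces of `V` -/
def IsLag (T : Submodule ℂ (K l → ℂ)) : Prop := ∀ x, x ∈ T ↔ ∀ y ∈ T, bV x y = 0

/-- `H = Λ ∩ W ⊗ T` -/
def H (g : Fin 3 → Matrix (L n) (L n) ℂ) (a : Fin 3 → Wt n) (T : Submodule ℂ (K l → ℂ)) : Submodule ℂ (Matrix (L n) (K l) ℂ) :=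
  Lam g a l ⊓ ten ⊤ T

/-- twice the Hilbert-Mumford number: `2 dim (Λ ∩ R ⊗ V) - dim V * dim R` -/
def chi2 (g : Fin 3 → Matrix (L n) (L n) ℂ) (a : Fin 3 → Wt n) (l : Fin 3 → ℕ) (R : Submodule ℂ (L n → ℂ)) : ℤ :=
  2 * (Module.finrank ℂ ↥(Lam g a l ⊓ ten R ⊤) : ℤ) - (∑ i, (l i : ℤ)) * (Module.finrank ℂ R : ℤ)

/-- admissible sizes -/
structure Adm (a : Fin 3 → Wt n) (l : Fin 3 → ℕ) : Prop where
  dom : ∀ i, Dom (a i)
  par : ∀ i j, Even ((l i : ℤ) - a i j)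
  le : ∀ i j, |a i j| ≤ l i

/-- a transversal pair of Lagrangians gives an invariant -/
def S_PF : Prop := ∀ (n : ℕ) (a : Fin 3 → Wt n) (l : Fin 3 → ℕ), Adm a l →
  ∀ g : Fin 3 → Matrix (L n) (L n) ℂ, (∀ i, g i ∈ Gp n) → ∀ T : Submodule ℂ (K l → ℂ), IsLag T → H g a T = ⊥ →
    ∀ (U : Irrep n (a 0)) (V : Irrep n (a 1)) (W : Irrep n (a 2)), HasInvariant U V W

end Crest.Agent.R172.Q
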