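import Crest.Agent.R172.Q.GenW

/-! # Row 172 (Pfaffian route), block F3: a prefix whose logarithmic derivative fills so(2n) at one point (owner helper12) -/

set_option autoImplicit false
set_option linter.unusedSectionVars false
set_option linter.unusedVariables false

noncomputable section

namespace Crest.Agent.R172.Q

open Matrix Crest.AlgebraR.SpinSaturation Crest.Agent.R172.W

variable {n : ℕ}

/-- every element of `S` is a logarithmic derivative of a word with variables in a window above `N`, at a point where the word is `1` -/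
def Reach (S : Submodule ℂ (Matrix (L n) (L n) ℂ)) : Prop := ∀ N : ℕ, ∃ (u : List ((L n × L n) × ℕ)) (M : ℕ) (t : ℕ → ℂ),
  N ≤ M ∧ (∀ x ∈ u, x.1.1 ≠ x.1.2 ∧ N ≤ x.2 ∧ x.2 < M) ∧ gm (u.map lt) t = 1 ∧ gi (u.map lt) t = 1 ∧
    ∀ Y ∈ S, ∃ c : ℕ → ℂ, xi (u.map lt) t c = Y

theorem reach_bot : Reach (⊥ : Submodule ℂ (Matrix (L n) (L n) ℂ)) := fun N =>
  ⟨[], N, 0, le_rfl, by simp, rfl, rfl, fun Y hY => ⟨0, ((Submodule.mem_bot ℂ).1 hY).symm⟩⟩

/-- concatenate `u` (window `[N,M)`) and `u'` (window `[M,M')`), glue `t`, `c` by `if k < M`; `xi_append`, `gm_append`, `gm_congr`,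
`gi_congr`, `xi_congr` (`gi (u ++ u') = gi u' * gi u` by `simp [gi]`). -/
theorem Reach.sup {S T : Submodule ℂ (Matrix (L n) (L n) ℂ)} (hS : Reach S) (hT : Reach T) : Reach (S ⊔ T) := by
  intro N
  obtain ⟨u, M, t, h1, h2, h3, h4, h5⟩ := hS N
  obtain ⟨u', M', t', h1', h2', h3', h4', h5'⟩ := hT M
  have k1 : ∀ f f' : ℕ → ℂ, ∀ x ∈ u.map lt, (fun k => if k < M then f k else f' k) x.2 = f x.2 := fun f f' x hx => by
    obtain ⟨y, hy, rfl⟩ := List.mem_map.1 hx
    exact if_pos (h2 y hy).2.2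
  have k2 : ∀ f f' : ℕ → ℂ, ∀ x ∈ u'.map lt, (fun k => if k < M then f k else f' k) x.2 = f' x.2 := fun f f' x hx => by
    obtain ⟨y, hy, rfl⟩ := List.mem_map.1 hx
    exact if_neg (not_lt.2 (h2' y hy).2.1)
  have a1 : gm (u.map lt) (fun k => if k < M then t k else t' k) = 1 := (gm_congr (k1 t t')).trans h3
  have a2 : gm (u'.map lt) (fun k => if k < M then t k else t' k) = 1 := (gm_congr (k2 t t')).trans h3'
  have a3 : gi (u.map lt) (fun k => if k < M then t k else t' k) = 1 := (gi_congr (k1 t t')).trans h4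
  have a4 : gi (u'.map lt) (fun k => if k < M then t k else t' k) = 1 := (gi_congr (k2 t t')).trans h4'
  refine ⟨u ++ u', M', fun k => if k < M then t k else t' k, h1.trans h1', ?_, ?_, ?_, ?_⟩
  · intro x hx
    rcases List.mem_append.1 hx with hx | hx
    · exact ⟨(h2 x hx).1, (h2 x hx).2.1, (h2 x hx).2.2.trans_le h1'⟩
    · exact ⟨(h2' x hx).1, h1.trans (h2' x hx).2.1, (h2' x hx).2.2⟩
  · rw [List.map_append, gm_append, a1, a2, one_mul]
  · have e : ∀ s : ℕ → ℂ, gi ((u ++ u').map lt) s = gi (u'.map lt) s * gi (u.map lt) s := fun s => by simp [gi]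
    rw [e, a3, a4, one_mul]
  · intro Y hY
    obtain ⟨y, hy, z, hz, rfl⟩ := Submodule.mem_sup.1 hY
    obtain ⟨c, hc⟩ := h5 y hy
    obtain ⟨c', hc'⟩ := h5' z hz
    refine ⟨fun k => if k < M then c k else c' k, ?_⟩
    have b1 : xi (u.map lt) (fun k => if k < M then t k else t' k) (fun k => if k < M then c k else c' k) = y :=
      (xi_congr (k1 t t') (k1 c c')).trans hc
    have b2 : xi (u'.map lt) (fun k => if k < M then t k else t' k) (fun k => if k < M then c k else c' k) = z :=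
      (xi_congr (k2 t t') (k2 c c')).trans hc'
    rw [List.map_append, xi_append, a1, a3, b1, b2, one_mul, mul_one]

/-- `u = [((p,q),N)]`, `t = 0` -/
theorem reach_root {p q : L n} (h : p ≠ q) : Reach (Submodule.span ℂ {Xm p q}) := by
  intro N
  refine ⟨[((p, q), N)], N + 1, 0, by omega, ?_, ?_, ?_, ?_⟩
  · intro x hx
    rw [List.mem_singleton.1 hx]
    exact ⟨h, le_rfl, Nat.lt_succ_self N⟩
  · simp [gm_cons]
  · simp [gi_cons]
  · intro Y hY
    obtain ⟨a, rfl⟩ := Submodule.mem_span_singleton.1 hY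
    exact ⟨fun _ => a, by simp [xi_cons, lt]⟩

theorem genpb_rel {p q : L n} (h : p ≠ q) (h' : p.swap ≠ q) :
    Xm p q * Xm q p - Xm q p * Xm p q = Xm p p - Xm q q ∧ Xm p q * Xm q p * Xm p q = Xm p q := by
  have b : p ≠ q.swap := fun e => h' (liea_swap_eq.2 e)
  have e1 : Xm p q * Xm q p = Matrix.single p p 1 + Matrix.single q.swap q.swap 1 := by
    simp only [Xm, mul_sub, sub_mul, liea_mul, if_true, if_neg h', if_neg h'.symm]
    abel
  have e2 : Xm q p * Xm p q = Matrix.single q q 1 + Matrix.single p.swap p.swap 1 := by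
    simp only [Xm, mul_sub, sub_mul, liea_mul, if_true, if_neg b, if_neg b.symm]
    abel
  refine ⟨?_, ?_⟩
  · rw [e1, e2]
    simp only [Xm]
    abel
  · rw [e1]
    simp only [Xm, mul_sub, add_mul, liea_mul, if_true, if_neg b, if_neg b.symm]
    abel

/-- `u = [((p,q),N), ((q,p),N+1), ((p,q),N+2)]`, `t = 1, 0, -1`; `c = (a, a, 0)`: with `e = Xm p q`, `f = Xm q p`:
`(1+e) f (1-e) = f + (e f - f e) - e f e`, `e f e = e`, `e f - f e = Xm p p - Xm q q` (`liea_mul`). The target is reached with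
`xi = c₀ e + (1+e)(c₁ f + c₂ e)(1-e)`; state it for the span of `Xm q p + (Xm p p - Xm q q)`. -/
theorem reach_cartan {p q : L n} (h : p ≠ q) (h' : p.swap ≠ q) :
    Reach (Submodule.span ℂ {Xm q p + (Xm p p - Xm q q)}) := by
  intro N
  obtain ⟨h1, h2⟩ := genpb_rel h h'
  have hee := Xm_sq h
  have n1 : N + 1 ≠ N := by omega
  have n2 : N + 2 ≠ N := by omega
  have n3 : N + 1 ≠ N + 2 := by omega
  refine ⟨[((p, q), N), ((q, p), N + 1), ((p, q), N + 2)], N + 3,
    fun k => if k = N then 1 else if k = N + 2 then -1 else 0, by omega, ?_, ?_, ?_, ?_⟩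
  · intro x hx
    simp only [List.mem_cons, List.not_mem_nil, or_false] at hx
    rcases hx with rfl | rfl | rfl
    · exact ⟨h, by omega, by omega⟩
    · exact ⟨h.symm, by omega, by omega⟩
    · exact ⟨h, by omega, by omega⟩
  · simp only [List.map_cons, List.map_nil, lt, gm_cons, gm_nil, if_true, if_neg n1, if_neg n2, if_neg n3, zero_smul, add_zero,
      one_mul, mul_one, neg_smul, ← sub_eq_add_neg]
    exact letter_inv' hee 1
  · simp only [List.map_cons, List.map_nil, lt, gi_cons, gi_nil, if_true, if_neg n1, if_neg n2, if_neg n3, zero_smul, sub_zero,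
      one_mul, mul_one, neg_smul, sub_neg_eq_add]
    exact letter_inv' hee 1
  · intro Y hY
    obtain ⟨a, rfl⟩ := Submodule.mem_span_singleton.1 hY
    refine ⟨fun k => if k = N + 2 then 0 else a, ?_⟩
    simp only [List.map_cons, List.map_nil, lt, xi_cons, xi_nil, if_true, if_neg n1, if_neg n2, if_neg n3, if_neg n2.symm,
      zero_smul, add_zero, sub_zero, one_mul, mul_one, mul_zero, zero_mul, one_smul]
    rw [← h1, Matrix.mul_smul, Matrix.smul_mul, ← smul_add]
    congr 1
    have e : (1 + Xm p q) * Xm q p * (1 - Xm p q) =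
        Xm q p + (Xm p q * Xm q p - Xm q p * Xm p q) - Xm p q * Xm q p * Xm p q := by noncomm_ring
    rw [e, h2]
    abel

theorem genpc_mono {S T : Submodule ℂ (Matrix (L n) (L n) ℂ)} (h : S ≤ T) (hT : Reach T) : Reach S := fun N => by
  obtain ⟨u, M, t, h1, h2, h3, h4, h5⟩ := hT N
  exact ⟨u, M, t, h1, h2, h3, h4, fun Y hY => h5 Y (h hY)⟩

theorem genpc_fsup {α : Type} (s : Finset α) (f : α → Submodule ℂ (Matrix (L n) (L n) ℂ)) (h : ∀ a, Reach (f a)) :
    Reach (s.sup f) := by
  classical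
  induction s using Finset.induction_on with
  | empty => simpa using reach_bot
  | insert a s ha ih => rw [Finset.sup_insert]; exact (h a).sup ih

theorem genpc_other (hn : 2 ≤ n) (p : L n) : ∃ q : L n, p ≠ q ∧ p.swap ≠ q := by
  have : Nontrivial (Fin n) := Fin.nontrivial_iff_two_le.2 hn
  rcases p with i | i
  · obtain ⟨j, hj⟩ := exists_ne i
    exact ⟨Sum.inl j, fun e => hj (Sum.inl.inj e).symm, by simp⟩
  · obtain ⟨j, hj⟩ := exists_ne i
    exact ⟨Sum.inr j, fun e => hj (Sum.inr.inj e).symm, by simp⟩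

/-- `Finset.sup` induction gives `Reach` of the span of all generators; `X_span`; `2 • Xm p p = (Xm p p - Xm q q) + (Xm p p - Xm q' q')`
for `q' = q.swap` (`Xm q' q' = - Xm q q`), `q ∉ {p, p.swap}` exists as `2 ≤ n`. -/
theorem reach_so (hn : 2 ≤ n) : Reach (Submodule.span ℂ (Set.range fun Y : soD n => (Y : Matrix (L n) (L n) ℂ))) := by
  classical
  let f1 : L n × L n → Submodule ℂ (Matrix (L n) (L n) ℂ) := fun x =>
    if x.1 ≠ x.2 then Submodule.span ℂ {Xm x.1 x.2} else ⊥
  let f2 : L n × L n → Submodule ℂ (Matrix (L n) (L n) ℂ) := fun x =>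
    if x.1 ≠ x.2 ∧ x.1.swap ≠ x.2 then Submodule.span ℂ {Xm x.2 x.1 + (Xm x.1 x.1 - Xm x.2 x.2)} else ⊥
  have r1 : ∀ x, Reach (f1 x) := fun x => by
    by_cases h : x.1 ≠ x.2
    · simp only [f1, if_pos h]; exact reach_root h
    · simp only [f1, if_neg h]; exact reach_bot
  have r2 : ∀ x, Reach (f2 x) := fun x => by
    by_cases h : x.1 ≠ x.2 ∧ x.1.swap ≠ x.2
    · simp only [f2, if_pos h]; exact reach_cartan h.1 h.2
    · simp only [f2, if_neg h]; exact reach_bot
  set S : Submodule ℂ (Matrix (L n) (L n) ℂ) := Finset.univ.sup f1 ⊔ Finset.univ.sup f2 with hS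
  have hR : Reach S := (genpc_fsup _ f1 r1).sup (genpc_fsup _ f2 r2)
  have m1 : ∀ p q : L n, p ≠ q → Xm p q ∈ S := fun p q h => by
    refine Submodule.mem_sup_left ((Finset.le_sup (f := f1) (Finset.mem_univ (p, q))) ?_)
    simp only [f1, if_pos h]
    exact Submodule.mem_span_singleton_self _
  have m2 : ∀ p q : L n, p ≠ q → p.swap ≠ q → Xm p p - Xm q q ∈ S := fun p q h h' => by
    have a : Xm q p + (Xm p p - Xm q q) ∈ S := by
      refine Submodule.mem_sup_right ((Finset.le_sup (f := f2) (Finset.mem_univ (p, q))) ?_)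
      simp only [f2, if_pos (And.intro h h')]
      exact Submodule.mem_span_singleton_self _
    have b := S.sub_mem a (m1 q p h.symm)
    rwa [add_sub_cancel_left] at b
  have m3 : ∀ p q : L n, Xm p q ∈ S := fun p q => by
    by_cases h : p = q
    · subst h
      obtain ⟨q, h1, h2⟩ := genpc_other hn p
      have h3 : p ≠ q.swap := fun e => h2 (liea_swap_eq.2 e)
      have h4 : p.swap ≠ q.swap := fun e => h1 (liea_swap_inj.1 e)
      have e : Xm q q = -Xm q.swap q.swap := congrArg Subtype.val (X_skew q q)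
      have a := S.smul_mem (1 / 2 : ℂ) (S.add_mem (m2 p q h1 h2) (m2 p q.swap h3 h4))
      have e2 : (1 / 2 : ℂ) • (Xm p p - Xm q q + (Xm p p - Xm q.swap q.swap)) = Xm p p := by
        rw [e]; module
      rwa [e2] at a
    · exact m1 p q h
  refine genpc_mono (Submodule.span_le.2 ?_) hR
  rintro _ ⟨Y, rfl⟩
  have e := congrArg Subtype.val (X_span Y)
  have e' : (Y : Matrix (L n) (L n) ℂ) = ∑ p, ∑ q, ((Y : Matrix (L n) (L n) ℂ) p q / 2) • Xm p q := by
    refine e.trans ?_
    simp only [AddSubmonoidClass.coe_finset_sum, SetLike.val_smul, X]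
  show (Y : Matrix (L n) (L n) ℂ) ∈ S
  rw [e']
  exact S.sum_mem fun p _ => S.sum_mem fun q _ => S.smul_mem _ (m3 p q)

end Crest.Agent.R172.Q
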