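import Crest.Agent.R172.Q.GenW

/-! # Row 172 (Pfaffian route), block F3: surjectivity of the logarithmic derivative is a Zariski open condition (owner helper12) -/

set_option autoImplicit false
set_option linter.unusedSectionVars false
set_option linter.unusedVariables false

noncomputable section

namespace Crest.Agent.R172.Q

open Matrix Crest.AlgebraR.SpinSaturation Crest.Agent.R172.W

variable {n : ℕ}

attribute [local instance 100] LieRing.ofAssociativeRing LieAlgebra.ofAssociativeAlgebra in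
theorem gensa_conj {e Y : Matrix (L n) (L n) ℂ} (he : e ∈ LieAlgebra.Orthogonal.typeD (Fin n) ℂ) (h2 : e * e = 0)
    (hY : Y ∈ LieAlgebra.Orthogonal.typeD (Fin n) ℂ) (a : ℂ) :
    (1 + a • e) * Y * (1 - a • e) ∈ LieAlgebra.Orthogonal.typeD (Fin n) ℂ := by
  have h3 : ⁅e, ⁅e, Y⁆⁆ = (-2 : ℂ) • (e * Y * e) := by
    have h4 : e * (e * Y) = 0 := by rw [← mul_assoc, h2, zero_mul]
    have h5 : Y * e * e = 0 := by rw [mul_assoc, h2, mul_zero]
    simp only [Ring.lie_def, mul_sub, sub_mul, h4, h5, ← mul_assoc]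
    module
  have h1 : (1 + a • e) * Y * (1 - a • e) = Y + a • ⁅e, Y⁆ + (a * a / 2) • ⁅e, ⁅e, Y⁆⁆ := by
    rw [h3]
    simp only [Ring.lie_def, mul_sub, add_mul, one_mul, mul_one, Matrix.smul_mul, Matrix.mul_smul]
    module
  rw [h1]
  exact add_mem (add_mem hY (LieSubalgebra.smul_mem _ _ (LieSubalgebra.lie_mem _ he hY)))
    (LieSubalgebra.smul_mem _ _ (LieSubalgebra.lie_mem _ he (LieSubalgebra.lie_mem _ he hY)))

theorem gensa_add {e Y : Matrix (L n) (L n) ℂ} (he : e ∈ LieAlgebra.Orthogonal.typeD (Fin n) ℂ) (a : ℂ)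
    (hY : Y ∈ LieAlgebra.Orthogonal.typeD (Fin n) ℂ) : a • e + Y ∈ LieAlgebra.Orthogonal.typeD (Fin n) ℂ := by
  rw [mem_typeD] at he hY ⊢
  intro p q
  simp only [Matrix.add_apply, Matrix.smul_apply, smul_eq_mul]
  rw [he p q, hY p q]; ring

/-- `1 + a e` preserves the form, so conjugation preserves `so`: induction on the word (`mem_typeD`, or
`(1 + a e) Y (1 - a e) = Y + a [e,Y] - a² e Y e` with `e Y e = -(1/2) [e,[e,Y]]` since `e² = 0`). -/
theorem xi_mem {σ : Type} {u : List ((L n × L n) × σ)} (hu : ∀ x ∈ u, x.1.1 ≠ x.1.2) (t c : σ → ℂ) :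
    xi (u.map lt) t c ∈ LieAlgebra.Orthogonal.typeD (Fin n) ℂ := by
  induction u with
  | nil => exact mem_typeD.2 fun p q => by simp
  | cons x u ih =>
    rw [List.map_cons, xi_cons]
    exact gensa_add (Xm_mem _ _) _
      (gensa_conj (Xm_mem _ _) (Xm_sq (hu x List.mem_cons_self)) (ih fun y hy => hu y (List.mem_cons_of_mem _ hy)) _)

/-- the entries of `xi u t c` are polynomial in `t` (induction on the word) -/
theorem xi_poly {ι σ : Type} [Fintype ι] [DecidableEq ι] (u : List (Matrix ι ι ℂ × σ)) (c : σ → ℂ) :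
    ∃ P : Matrix ι ι (MvPolynomial σ ℂ), ∀ t, xi u t c = P.map (MvPolynomial.eval t) := by
  induction u with
  | nil => exact ⟨0, fun t => by ext i j; simp⟩
  | cons x u ih =>
    obtain ⟨P, hP⟩ := ih
    refine ⟨(c x.2 • x.1).map MvPolynomial.C + (1 + (MvPolynomial.X x.2 : MvPolynomial σ ℂ) • x.1.map MvPolynomial.C) * P *
      (1 - (MvPolynomial.X x.2 : MvPolynomial σ ℂ) • x.1.map MvPolynomial.C), fun t => ?_⟩
    have h1 : ((MvPolynomial.X x.2 : MvPolynomial σ ℂ) • x.1.map MvPolynomial.C).map (MvPolynomial.eval t) = t x.2 • x.1 := by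
      ext i j; simp
    have h2 : ((c x.2 • x.1).map MvPolynomial.C).map (MvPolynomial.eval t) = c x.2 • x.1 := by
      ext i j; simp
    rw [xi_cons, hP t]
    change _ = (MvPolynomial.eval t).mapMatrix _
    rw [map_add, map_mul, map_mul, map_add, map_sub, map_one]
    simp only [RingHom.mapMatrix_apply, h1, h2]

/-- Take a basis `b` of `soD n`, `c a` with `xi u t₀ (c a) = b a`, a linear retraction `r : Matrix → soD n`
(`LinearMap.exists_leftInverse_of_injective`), the matrix `M t a a' = b.repr (r (xi u t (c a))) a'`: its entries are `eval t` of polynomials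
(`xi_poly`, expand the functional in the entries), `f = det`, `M t₀ = 1`, `RingHom.map_det`.  If `det (M t) ≠ 0` the rows span
(`Matrix.vecMul_surjective_iff_isUnit`), use `xiL`, `xi_mem`. -/
theorem exists_poly_surj {σ : Type} {u : List ((L n × L n) × σ)} (hu : ∀ x ∈ u, x.1.1 ≠ x.1.2) {t₀ : σ → ℂ}
    (h : ∀ Y : soD n, ∃ c : σ → ℂ, xi (u.map lt) t₀ c = Y) :
    ∃ f : MvPolynomial σ ℂ, f ≠ 0 ∧ ∀ t, MvPolynomial.eval t f ≠ 0 → ∀ Y : soD n, ∃ c : σ → ℂ, xi (u.map lt) t c = Y := by
  classical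
  letI : LieRing (Matrix (Fin n ⊕ Fin n) (Fin n ⊕ Fin n) ℂ) := LieRing.ofAssociativeRing
  letI : LieAlgebra ℂ (Matrix (Fin n ⊕ Fin n) (Fin n ⊕ Fin n) ℂ) := LieAlgebra.ofAssociativeAlgebra
  let S : Submodule ℂ (Matrix (L n) (L n) ℂ) := (LieAlgebra.Orthogonal.typeD (Fin n) ℂ).toSubmodule
  obtain ⟨r, hr⟩ := LinearMap.exists_leftInverse_of_injective S.subtype (Submodule.ker_subtype _)
  have hr' : ∀ y : S, r (y : Matrix (L n) (L n) ℂ) = y := fun y => LinearMap.congr_fun hr y
  let b := Module.finBasis ℂ S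
  choose c hc using fun a => h ⟨(b a : Matrix (L n) (L n) ℂ), (b a).2⟩
  choose P hP using fun a => xi_poly (u.map lt) (c a)
  let φ : Fin (Module.finrank ℂ S) → Matrix (L n) (L n) ℂ →ₗ[ℂ] ℂ := fun a' => (b.coord a') ∘ₗ r
  have hφ : ∀ a' (A : Matrix (L n) (L n) ℂ), φ a' A = ∑ p, ∑ q, A p q * φ a' (Matrix.single p q 1) := by
    intro a' A
    conv_lhs => rw [Matrix.matrix_eq_sum_single A]
    simp only [map_sum]
    refine Finset.sum_congr rfl fun p _ => Finset.sum_congr rfl fun q _ => ?_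
    rw [← smul_eq_mul, ← map_smul, Matrix.smul_single, smul_eq_mul, mul_one]
  let M : Matrix (Fin (Module.finrank ℂ S)) (Fin (Module.finrank ℂ S)) (MvPolynomial σ ℂ) :=
    Matrix.of fun a a' => ∑ p, ∑ q, P a p q * MvPolynomial.C (φ a' (Matrix.single p q 1))
  have hM : ∀ t a a', (MvPolynomial.eval t).mapMatrix M a a' = φ a' (xi (u.map lt) t (c a)) := by
    intro t a a'
    rw [hφ, hP]
    simp [M]
  refine ⟨M.det, fun h0 => ?_, fun t ht Y => ?_⟩
  · have h1 : (MvPolynomial.eval t₀).mapMatrix M = 1 := by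
      ext a a'
      rw [hM, hc]
      simp only [φ, LinearMap.comp_apply, hr', Module.Basis.coord_apply, Module.Basis.repr_self, Matrix.one_apply,
        Finsupp.single_apply]
    have h2 := RingHom.map_det (MvPolynomial.eval t₀) M
    rw [h0, h1] at h2
    simp at h2
  · rw [RingHom.map_det] at ht
    have hu' : IsUnit ((MvPolynomial.eval t).mapMatrix M) := (Matrix.isUnit_iff_isUnit_det _).2 (Ne.isUnit ht)
    obtain ⟨v, hv⟩ := Matrix.vecMul_surjective_iff_isUnit.2 hu' (fun a' => b.repr ⟨Y, Y.2⟩ a')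
    refine ⟨∑ a, v a • c a, ?_⟩
    have hm : xi (u.map lt) t (∑ a, v a • c a) ∈ S := xi_mem hu t _
    have key : (⟨_, hm⟩ : S) = ⟨Y, Y.2⟩ := by
      refine b.ext_elem fun a' => ?_
      have h1 := congrFun hv a'
      have h2 : b.repr ⟨_, hm⟩ a' = φ a' (xi (u.map lt) t (∑ a, v a • c a)) := by
        have := hr' ⟨_, hm⟩
        simp only [φ, LinearMap.comp_apply, Module.Basis.coord_apply]
        rw [this]
      have h3 : xi (u.map lt) t (∑ a, v a • c a) = ∑ a, v a • xi (u.map lt) t (c a) := by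
        have := map_sum (xiL (u.map lt) t) (fun a => v a • c a) Finset.univ
        simp only [map_smul] at this
        exact this
      rw [h2, ← h1, h3, map_sum]
      simp only [Matrix.vecMul, dotProduct, hM, map_smul, smul_eq_mul]
    exact congrArg Subtype.val key

end Crest.Agent.R172.Q
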