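import Crest.Agent.R172.Q.Defs

/-! R172/Q/Lag (owner helper16): `Gp` consists of isometries, `Lam` is Lagrangian -/

set_option autoImplicit false
set_option linter.unusedVariables false
set_option linter.unusedSectionVars false
open Matrix Sum Crest.AlgebraR.SpinSaturation

noncomputable section
namespace Crest.Agent.R172.Q
open Crest.Agent.R172.W

variable {n : ℕ} {l : Fin 3 → ℕ}

theorem rv_rv (k : K l) : rv (rv k) = k := by
  obtain ⟨i, j⟩ := k
  simp [rv]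

/-- `Submonoid.closure_induction`, `(1 + e) (1 - e) = 1` -/
theorem Gp_inv {g : Matrix (L n) (L n) ℂ} (hg : g ∈ Gp n) : ∃ g' ∈ Gp n, g * g' = 1 ∧ g' * g = 1 := by
  unfold Gp at hg ⊢
  induction hg using Submonoid.closure_induction with
  | mem x hx =>
    obtain ⟨e, he, hee, rfl⟩ := hx
    refine ⟨1 + -e, Submonoid.subset_closure ⟨-e, neg_mem he, by rw [neg_mul_neg, hee], rfl⟩, ?_, ?_⟩
    · rw [add_mul, mul_add, mul_add, one_mul, one_mul, mul_one, mul_neg, hee]; simp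
    · rw [add_mul, mul_add, mul_add, one_mul, one_mul, mul_one, neg_mul, hee]; simp
  | one => exact ⟨1, one_mem _, mul_one _, mul_one _⟩
  | mul x y hx hy ihx ihy =>
    obtain ⟨x', hx', h1, h2⟩ := ihx
    obtain ⟨y', hy', h3, h4⟩ := ihy
    refine ⟨y' * x', mul_mem hy' hx', ?_, ?_⟩
    · rw [mul_assoc, ← mul_assoc y, h3, one_mul, h1]
    · rw [mul_assoc, ← mul_assoc x', h2, one_mul, h4]

theorem Gp_bW_sw (f : L n → ℂ) : ∑ p : L n, f p.swap = ∑ p, f p :=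
  Fintype.sum_equiv (Equiv.sumComm (Fin n) (Fin n)) _ _ fun p => rfl

theorem Gp_bW_skew {e : Matrix (L n) (L n) ℂ} (he : e ∈ LieAlgebra.Orthogonal.typeD (Fin n) ℂ) (x y : L n → ℂ) :
    bW (e *ᵥ x) y = -bW x (e *ᵥ y) := by
  have h := mem_typeD.1 he
  unfold bW
  simp only [Matrix.mulVec, dotProduct, Finset.sum_mul, Finset.mul_sum]
  rw [Finset.sum_comm, ← Finset.sum_neg_distrib]
  refine Finset.sum_congr rfl fun q _ => ?_
  rw [← Finset.sum_neg_distrib, ← Gp_bW_sw (fun p => -(x q * (e q.swap p * y p)))]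
  refine Finset.sum_congr rfl fun p _ => ?_
  rw [h p q]
  ring

theorem Gp_bW_add_left (x x' y : L n → ℂ) : bW (x + x') y = bW x y + bW x' y := by
  simp only [bW, Pi.add_apply, add_mul, Finset.sum_add_distrib]

theorem Gp_bW_add_right (x y y' : L n → ℂ) : bW x (y + y') = bW x y + bW x y' := by
  simp only [bW, Pi.add_apply, mul_add, Finset.sum_add_distrib]

/-- `Submonoid.closure_induction`, `mem_typeD` -/
theorem Gp_bW {g : Matrix (L n) (L n) ℂ} (hg : g ∈ Gp n) (x y : L n → ℂ) : bW (g *ᵥ x) (g *ᵥ y) = bW x y := by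
  unfold Gp at hg
  induction hg using Submonoid.closure_induction generalizing x y with
  | mem z hz =>
    obtain ⟨e, he, hee, rfl⟩ := hz
    rw [Matrix.add_mulVec, Matrix.add_mulVec, Matrix.one_mulVec, Matrix.one_mulVec, Gp_bW_add_left, Gp_bW_add_right,
      Gp_bW_add_right, Gp_bW_skew he x y, Gp_bW_skew he x (e *ᵥ y), Matrix.mulVec_mulVec, hee, Matrix.zero_mulVec]
    have : bW x (0 : L n → ℂ) = 0 := by simp [bW]
    rw [this]; ring
  | one => rw [Matrix.one_mulVec, Matrix.one_mulVec]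
  | mul a b ha hb iha ihb => rw [← Matrix.mulVec_mulVec, ← Matrix.mulVec_mulVec, iha, ihb]

theorem bE_comm_rv (f : K l → ℂ) : ∑ k : K l, f (rv k) = ∑ k, f k :=
  Fintype.sum_equiv (Function.Involutive.toPerm rv rv_rv) _ _ fun k => rfl

theorem bE_comm (φ ψ : Matrix (L n) (K l) ℂ) : bE φ ψ = bE ψ φ := by
  unfold bE
  rw [← Gp_bW_sw (fun p => ∑ k, ψ p k * φ p.swap (rv k))]
  refine Finset.sum_congr rfl fun p _ => ?_
  rw [← bE_comm_rv (fun k => ψ p.swap k * φ p.swap.swap (rv k))]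
  refine Finset.sum_congr rfl fun k _ => ?_
  rw [Sum.swap_swap, rv_rv, mul_comm]

/-- `bE φ ψ = ∑ k, bW (column k of φ) (column (rv k) of ψ)` -/
theorem bE_mv {g : Fin 3 → Matrix (L n) (L n) ℂ} (hg : ∀ i, g i ∈ Gp n) (φ ψ : Matrix (L n) (K l) ℂ) : bE (mv g φ) (mv g ψ) = bE φ ψ := by
  have key : ∀ φ ψ : Matrix (L n) (K l) ℂ, bE φ ψ = ∑ k, bW (fun p => φ p k) (fun p => ψ p (rv k)) := by
    intro φ ψ
    unfold bE bW
    rw [Finset.sum_comm]
  rw [key, key]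
  refine Finset.sum_congr rfl fun k _ => ?_
  exact Gp_bW (hg k.1) (fun p => φ p k) (fun p => ψ p (rv k))

theorem mv_mv (g g' : Fin 3 → Matrix (L n) (L n) ℂ) (φ : Matrix (L n) (K l) ℂ) : mv g (mv g' φ) = mv (fun i => g i * g' i) φ := by
  ext p k
  simp only [mv_apply, Matrix.mul_apply, Finset.mul_sum, Finset.sum_mul, mul_assoc]
  rw [Finset.sum_comm]

theorem mv_one (φ : Matrix (L n) (K l) ℂ) : mv (fun _ => 1) φ = φ := by
  ext p k
  simp [mv_apply, Matrix.one_apply]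

/-- exactly one of the positions `(p, k)`, `(p.swap, rv k)` is allowed in `Lam0` (parity) -/
theorem Adm.xor {a : Fin 3 → Wt n} (h : Adm a l) (p : L n) (k : K l) :
    ((l k.1 : ℤ) + sc (a k.1) p ≤ 2 * ((k.2 : ℕ) : ℤ)) ↔ ¬((l (rv k).1 : ℤ) + sc (a (rv k).1) p.swap ≤ 2 * (((rv k).2 : ℕ) : ℤ)) := by
  obtain ⟨i, k⟩ := k
  have hk := k.2
  have hr : ((k.rev : Fin (l i)) : ℕ) = l i - (k + 1) := Fin.val_rev k
  rcases p with j | j
  · obtain ⟨m, hm⟩ := h.par i j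
    simp only [rv, sc, Sum.swap_inl, Sum.elim_inl, Sum.elim_inr, hr]
    omega
  · obtain ⟨m, hm⟩ := h.par i j
    simp only [rv, sc, Sum.swap_inr, Sum.elim_inl, Sum.elim_inr, hr]
    omega

/-- test against `Matrix.single` -/
theorem mem_Lam0_iff {a : Fin 3 → Wt n} (h : Adm a l) (φ : Matrix (L n) (K l) ℂ) : φ ∈ Lam0 a l ↔ ∀ ψ ∈ Lam0 a l, bE ψ φ = 0 := by
  classical
  constructor
  · intro hφ ψ hψ
    refine Finset.sum_eq_zero fun p _ => Finset.sum_eq_zero fun k _ => ?_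
    by_cases hc : (l k.1 : ℤ) + sc (a k.1) p ≤ 2 * ((k.2 : ℕ) : ℤ)
    · rw [hψ p k hc, zero_mul]
    · rw [hφ p.swap (rv k) (not_not.1 fun h' => hc ((h.xor p k).2 h')), mul_zero]
  · intro hφ p k hc
    have hm : Matrix.single p.swap (rv k) (1 : ℂ) ∈ Lam0 a l := by
      intro q j hq
      by_contra hne
      have hqj : p.swap = q ∧ rv k = j := by
        by_contra hh
        exact hne (Matrix.single_apply_of_ne _ _ _ _ _ hh)
      obtain ⟨rfl, rfl⟩ := hqj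
      exact (h.xor p k).1 hc hq
    have h1 := hφ _ hm
    unfold bE at h1
    rw [Finset.sum_eq_single p.swap, Finset.sum_eq_single (rv k)] at h1
    · simpa [rv_rv] using h1
    · intro j _ hj
      rw [Matrix.single_apply_of_ne _ _ _ _ _ fun hh => hj hh.2.symm, zero_mul]
    · simp
    · intro q _ hq
      exact Finset.sum_eq_zero fun j _ => by
        rw [Matrix.single_apply_of_ne _ _ _ _ _ fun hh => hq hh.1.symm, zero_mul]
    · simp

theorem mem_Lam_iff {a : Fin 3 → Wt n} (h : Adm a l) {g : Fin 3 → Matrix (L n) (L n) ℂ} (hg : ∀ i, g i ∈ Gp n) (φ : Matrix (L n) (K l) ℂ) :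
    φ ∈ Lam g a l ↔ ∀ ψ ∈ Lam g a l, bE ψ φ = 0 := by
  constructor
  · rintro ⟨φ0, hφ0, rfl⟩ _ ⟨ψ0, hψ0, rfl⟩
    rw [bE_mv hg]
    exact (mem_Lam0_iff h φ0).1 hφ0 ψ0 hψ0
  · intro hφ
    choose g' hg' h1 h2 using fun i => Gp_inv (hg i)
    have he : mv g (mv g' φ) = φ := by
      rw [mv_mv, show (fun i => g i * g' i) = fun _ => 1 from funext h1, mv_one]
    refine ⟨mv g' φ, (mem_Lam0_iff h _).2 fun ψ0 hψ0 => ?_, he⟩
    rw [← bE_mv hg, he]
    exact hφ _ ⟨ψ0, hψ0, rfl⟩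

/-- `bE φ ψ = ∑ p, bV (row p of φ) (row p.swap of ψ)` -/
theorem ten_iso {T : Submodule ℂ (K l → ℂ)} (hT : IsLag T) {φ ψ : Matrix (L n) (K l) ℂ} (hφ : φ ∈ ten ⊤ T) (hψ : ψ ∈ ten ⊤ T) : bE φ ψ = 0 := by
  exact Finset.sum_eq_zero fun p _ => (hT _).1 (hφ.2 p) _ (hψ.2 p.swap)

end Crest.Agent.R172.Q
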