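import Crest.Agent.R172.Q.GenA
import Crest.Agent.R172.Q.GenP
import Crest.Agent.R172.Q.GenS
import Crest.Agent.R172.Q.Lag
import Crest.Agent.R172.HM.Defs

/-! # Row 172 (Pfaffian route), block F3: generic data, Petri identities in the model (helper12) -/

set_option autoImplicit false
set_option linter.unusedSectionVars false
set_option linter.unusedVariables false

noncomputable section

namespace Crest.Agent.R172.Q

open Matrix Crest.AlgebraR.SpinSaturation Crest.Agent.R172.W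

variable {n : ℕ} {l : Fin 3 → ℕ}

theorem gw_eq {σ : Type} (w : List ((L n × L n) × σ)) (t : σ → ℂ) : HM.gw w t = gm (w.map lt) t := by
  simp [HM.gw, gm, List.map_map, Function.comp_def, lt]

theorem gw_mem {σ : Type} {w : List ((L n × L n) × σ)} (hw : HM.Roots w) (t : σ → ℂ) : HM.gw w t ∈ Gp n := by
  refine Submonoid.list_prod_mem _ fun g hg => ?_
  obtain ⟨x, hx, rfl⟩ := List.mem_map.1 hg
  refine Submonoid.subset_closure ⟨_, (t x.2 • W.X x.1.1 x.1.2 : soD n).2, ?_, rfl⟩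
  change (t x.2 • Xm x.1.1 x.1.2) * (t x.2 • Xm x.1.1 x.1.2) = 0
  rw [Matrix.smul_mul, Matrix.mul_smul, Xm_sq (hw x hx), smul_zero, smul_zero]

theorem xi_relabel {ι σ τ : Type} [Fintype ι] [DecidableEq ι] (w : List (Matrix ι ι ℂ × σ)) (φ : σ → τ) (t c : τ → ℂ) :
    xi (w.map fun x => (x.1, φ x.2)) t c = xi w (t ∘ φ) (c ∘ φ) := by
  induction w with
  | nil => rfl
  | cons x w ih => rw [List.map_cons, xi_cons, xi_cons, ih]; rfl

/-- letters labelled by their position -/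
def wd (i : Fin 3) (s : List (L n × L n)) : List ((L n × L n) × (Fin 3 × ℕ)) := s.zipIdx.map fun x => (x.1, (i, x.2))

theorem wd_fst (i : Fin 3) (s : List (L n × L n)) : (wd i s).map Prod.fst = s := by
  simp [wd, List.map_map, Function.comp_def]

theorem wd_snd (i : Fin 3) (s : List (L n × L n)) : (wd i s).map Prod.snd = (List.range' 0 s.length).map fun j => (i, j) := by
  rw [← List.zipIdx_map_snd 0 s, wd, List.map_map, List.map_map]
  rfl

theorem wd_tag {i : Fin 3} {s : List (L n × L n)} {x : (L n × L n) × (Fin 3 × ℕ)} (hx : x ∈ wd i s) : x.2.1 = i ∧ x.1 ∈ s := by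
  refine ⟨?_, ?_⟩
  · obtain ⟨y, -, rfl⟩ := List.mem_map.1 hx
    rfl
  · rw [← wd_fst i s]; exact List.mem_map_of_mem hx

theorem wd_surj (i : Fin 3) (u : List ((L n × L n) × ℕ)) (s : List (L n × L n)) (t : ℕ → ℂ) :
    ∃ t' : Fin 3 × ℕ → ℂ, ∀ c : ℕ → ℂ, ∃ c', xi ((wd i (u.map Prod.fst ++ s)).map lt) t' c' = xi (u.map lt) t c := by
  let φ : ℕ → ℕ := fun j => if h : j < u.length then u[j].2 else 0
  refine ⟨fun x => t (φ x.2), fun c => ⟨fun x => if x.2 < u.length then c (φ x.2) else 0, ?_⟩⟩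
  have e : (wd i (u.map Prod.fst ++ s)).map lt =
      ((u.map Prod.fst).zipIdx.map fun x => lt (x.1, (i, x.2))) ++ ((s.zipIdx u.length).map fun x => lt (x.1, (i, x.2))) := by
    simp [wd, List.zipIdx_append, List.map_map, Function.comp_def]
  rw [e, xi_append, xi_eq_zero (w := (s.zipIdx u.length).map _) _ fun x hx => ?_, mul_zero, zero_mul, add_zero]
  · have e2 : u.map lt = (((u.map Prod.fst).zipIdx.map fun x => lt (x.1, (i, x.2))).map fun x => (x.1, φ x.2.2)) := by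
      apply List.ext_getElem
      · simp
      · intro j h1 h2
        have hj : j < u.length := by simpa using h1
        simp [lt, φ, hj]
    rw [e2, xi_relabel _ (fun x : Fin 3 × ℕ => φ x.2)]
    refine xi_congr (fun _ _ => rfl) fun x hx => ?_
    obtain ⟨y, hy, rfl⟩ := List.mem_map.1 hx
    have := (List.mem_zipIdx hy).2.1
    simp only [List.length_map, zero_add] at this
    simp [lt, this]
  · obtain ⟨y, hy, rfl⟩ := List.mem_map.1 hx
    have := (List.mem_zipIdx hy).1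
    simp [lt, not_lt.2 this]

/-- words containing prescribed subwords whose logarithmic derivatives fill `so(2n)³` at a generic point -/
theorem gen_words (hn : 2 ≤ n) (s : Fin 3 → List (L n × L n)) (hs : ∀ i, ∀ x ∈ s i, x.1 ≠ x.2) :
    ∃ u : Fin 3 → List ((L n × L n) × (Fin 3 × ℕ)), (∀ i, HM.Roots (u i)) ∧ ((u 0 ++ u 1 ++ u 2).map Prod.snd).Nodup ∧
      (∀ i, (s i).Sublist ((u i).map Prod.fst)) ∧ ∃ f : MvPolynomial (Fin 3 × ℕ) ℂ, f ≠ 0 ∧ ∀ t, MvPolynomial.eval t f ≠ 0 →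
        ∀ X : Fin 3 → soD n, ∃ c, ∀ i, xi ((u i).map lt) t c = X i := by
  obtain ⟨u, M, t₀, -, hu, -, -, h⟩ := reach_so hn 0
  have hr : ∀ i, HM.Roots (wd i (u.map Prod.fst ++ s i)) := fun i x hx => by
    rcases List.mem_append.1 (wd_tag hx).2 with h | h
    · obtain ⟨y, hy, e⟩ := List.mem_map.1 h
      rw [← e]; exact (hu y hy).1
    · exact hs i _ h
  have key : ∀ i, ∃ f : MvPolynomial (Fin 3 × ℕ) ℂ, f ≠ 0 ∧ ∀ t, MvPolynomial.eval t f ≠ 0 →
      ∀ Y : soD n, ∃ c, xi ((wd i (u.map Prod.fst ++ s i)).map lt) t c = Y := fun i => by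
    obtain ⟨t', ht'⟩ := wd_surj i u (s i) t₀
    refine exists_poly_surj (hr i) (t₀ := t') fun Y => ?_
    obtain ⟨c, hc⟩ := h Y (Submodule.subset_span ⟨Y, rfl⟩)
    obtain ⟨c', hc'⟩ := ht' c
    exact ⟨c', hc'.trans hc⟩
  choose f hf hf' using key
  refine ⟨fun i => wd i (u.map Prod.fst ++ s i), hr, ?_, fun i => ?_, ∏ i, f i, Finset.prod_ne_zero_iff.2 fun i _ => hf i,
    fun t ht X => ?_⟩
  · have nd : ∀ (i : Fin 3) (m : ℕ), ((List.range' 0 m).map fun j => (i, j)).Nodup := fun i m =>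
      (List.nodup_range' ..).map fun a b e => (Prod.ext_iff.1 e).2
    simp only [List.map_append, wd_snd, List.nodup_append, nd, true_and, List.mem_append, List.mem_map]
    refine ⟨?_, ?_⟩
    · rintro _ ⟨a, -, rfl⟩ _ ⟨b, -, rfl⟩ e
      simp at e
    · rintro _ (⟨a, -, rfl⟩ | ⟨a, -, rfl⟩) _ ⟨b, -, rfl⟩ e <;> simp at e
  · rw [wd_fst]; exact List.sublist_append_right _ _
  · rw [map_prod, Finset.prod_ne_zero_iff] at ht
    choose c hc using fun i => hf' i t (ht i (Finset.mem_univ i)) (X i)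
    refine ⟨fun x => c x.1 x, fun i => (xi_congr (fun _ _ => rfl) fun x hx => ?_).trans (hc i)⟩
    obtain ⟨y, hy, rfl⟩ := List.mem_map.1 hx
    change c y.2.1 y.2 = c i y.2
    rw [(wd_tag hy).1]

/-- GENERIC data over the set of constants `A`: every tangent vector is realised by a derivation killing `A` -/
def Generic (A : Set ℂ) (g : Fin 3 → Matrix (L n) (L n) ℂ) (T : Submodule ℂ (K l → ℂ)) : Prop :=
  ∀ (X : Fin 3 → soD n) (Y : Matrix (K l) (K l) ℂ), IsSk rv Y → ∃ D : Der, (∀ a ∈ A, D a = 0) ∧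
    (∀ i, (g i).map D = (X i : Matrix (L n) (L n) ℂ) * g i) ∧ ((Conn.std D (K l)).tw (Matrix.toLin' Y)).Stab T

/-- `T` is generic over `A`: every derivation of `ℚ(A)` extends with any prescribed motion of `T` -/
def GenT (A : Set ℂ) (T : Submodule ℂ (K l → ℂ)) : Prop :=
  ∀ (D₀ : Der) (Y : Matrix (K l) (K l) ℂ), IsSk rv Y → ∃ D : Der, (∀ a ∈ Subfield.closure A, D a = D₀ a) ∧
    ((Conn.std D (K l)).tw (Matrix.toLin' Y)).Stab T

theorem bV_mulVec (h : Matrix (K l) (K l) ℂ) (x y : K l → ℂ) : bV (h *ᵥ x) y = bV x (adj rv h *ᵥ y) := by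
  simp only [bV, Matrix.mulVec, dotProduct, adj, Matrix.of_apply, Finset.sum_mul, Finset.mul_sum, rv_rv]
  rw [Finset.sum_comm]
  refine Finset.sum_congr rfl fun k _ => ?_
  rw [← Equiv.sum_comp (Function.Involutive.toPerm rv rv_rv)]
  exact Finset.sum_congr rfl fun j _ => by simp [rv_rv]; ring

theorem IsLag.map {T : Submodule ℂ (K l → ℂ)} (hT : IsLag T) {h : Matrix (K l) (K l) ℂ} (h1 : adj rv h * h = 1)
    (h2 : h * adj rv h = 1) : IsLag (T.map (Matrix.toLin' h)) := fun x => by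
  constructor
  · rintro ⟨v, hv, rfl⟩ _ ⟨w, hw, rfl⟩
    rw [Matrix.toLin'_apply, Matrix.toLin'_apply, bV_mulVec, Matrix.mulVec_mulVec, h1, Matrix.one_mulVec]
    exact (hT v).1 hv w hw
  · intro hx
    refine ⟨adj rv h *ᵥ x, (hT _).2 fun y hy => ?_, ?_⟩
    · have := hx _ ⟨y, hy, rfl⟩
      have e : x = h *ᵥ (adj rv h *ᵥ x) := by rw [Matrix.mulVec_mulVec, h2, Matrix.one_mulVec]
      rwa [e, Matrix.toLin'_apply, bV_mulVec, Matrix.mulVec_mulVec y, h1, Matrix.one_mulVec] at this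
    · rw [Matrix.toLin'_apply, Matrix.mulVec_mulVec, h2, Matrix.one_mulVec]

/-- a finite set of constants over which a subspace is defined -/
theorem exists_consts {ι : Type} [Fintype ι] (T : Submodule ℂ (ι → ℂ)) :
    ∃ A : Set ℂ, A.Countable ∧ ∀ D : Der, (∀ a ∈ A, D a = 0) → (Conn.std D ι).Stab T := by
  obtain ⟨s, hs⟩ : T.FG := IsNoetherian.noetherian T
  refine ⟨⋃ v ∈ s, Set.range v, s.countable_toSet.biUnion fun v _ => Set.countable_range v, fun D hD => ?_⟩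
  rw [← hs]
  refine Conn.stab_span fun v hv => ?_
  have : Conn.std D ι v = 0 := funext fun i => hD _ (Set.mem_biUnion hv ⟨i, rfl⟩)
  rw [this]; exact Submodule.zero_mem _

/-- existence of generic data: `t` avoids `f`, `T = h T₀` with `h` a Cayley transform (so `T` is in the family of `T₀`) -/
theorem exists_Generic {σ : Type} [Countable σ] {u : Fin 3 → List ((L n × L n) × σ)} (hu : ∀ i, HM.Roots (u i))
    {f₀ : MvPolynomial σ ℂ} (hf₀ : f₀ ≠ 0)
    (hs : ∀ t, MvPolynomial.eval t f₀ ≠ 0 → ∀ X : Fin 3 → soD n, ∃ c, ∀ i, xi ((u i).map lt) t c = X i)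
    {f : MvPolynomial σ ℂ} (hf : f ≠ 0) (T₀ : Submodule ℂ (K l → ℂ)) {A : Set ℂ} (hA : A.Countable) :
    ∃ (t : σ → ℂ) (h : Matrix (K l) (K l) ℂ), MvPolynomial.eval t f ≠ 0 ∧ AlgebraicIndependent (Subfield.closure A) t ∧
      adj rv h * h = 1 ∧ h * adj rv h = 1 ∧ IsUnit (1 + h) ∧ Generic A (fun i => HM.gw (u i) t) (T₀.map (Matrix.toLin' h)) := by
  obtain ⟨B, hB, hB'⟩ := exists_consts T₀
  obtain ⟨t, ht, h0⟩ := exists_generic (hA.union hB) (mul_ne_zero hf₀ hf)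
  rw [map_mul] at h0
  obtain ⟨h, h1, h2, h3, h4⟩ := exists_cayley (r := (rv : K l → K l)) rv_rv ((hA.union hB).union (Set.countable_range t))
  refine ⟨t, h, right_ne_zero_of_mul h0, ?_, h1, h2, h3, fun X Y hY => ?_⟩
  · have hle : Subfield.closure A ≤ Subfield.closure (A ∪ B) := Subfield.closure_mono Set.subset_union_left
    refine algebraicIndependent_iff.2 fun p hp => ?_
    apply MvPolynomial.map_injective (Subfield.inclusion hle) (Subfield.inclusion hle).injective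
    rw [map_zero]
    apply algebraicIndependent_iff.1 ht
    rw [MvPolynomial.aeval_def, MvPolynomial.eval₂_map]
    exact hp
  obtain ⟨c, hc⟩ := hs t (left_ne_zero_of_mul h0) X
  obtain ⟨D₀, a1, a2⟩ := exists_der_ext ht 0 c
  obtain ⟨D, b1, b2⟩ := h4 D₀ Y hY
  have z : ∀ a ∈ A ∪ B, D a = 0 := fun a ha => by
    rw [b1 a (Subfield.subset_closure (Or.inl ha)), a1 a (Subfield.subset_closure ha)]; rfl
  refine ⟨D, fun a ha => z a (Or.inl ha), fun i => ?_, stab_map b2 (hB' D fun a ha => z a (Or.inr ha))⟩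
  have e : (fun k => D (t k)) = c := funext fun k => by rw [b1 _ (Subfield.subset_closure (Or.inr ⟨k, rfl⟩)), a2]
  simp only [gw_eq]
  rw [map_gm_lt (hu i), e, hc]

/-- the standard connection on matrices -/
def mC (D : Der) (ι κ : Type) : Conn D (Matrix ι κ ℂ) where
  toFun := { toFun := fun M => M.map D, map_zero' := by ext; simp, map_add' := fun M N => by ext; simp }
  leib c M := by ext; simp [mul_comm, add_comm]

@[simp] theorem mC_apply (D : Der) {ι κ : Type} (M : Matrix ι κ ℂ) : mC D ι κ M = M.map D := rfl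

/-- the action of `End V` on `W ⊗ V` -/
def rt (Y : Matrix (K l) (K l) ℂ) : Matrix (L n) (K l) ℂ →ₗ[ℂ] Matrix (L n) (K l) ℂ where
  toFun φ := φ * Yᵀ
  map_add' φ ψ := Matrix.add_mul _ _ _
  map_smul' c φ := Matrix.smul_mul _ _ _

@[simp] theorem rt_apply (Y : Matrix (K l) (K l) ℂ) (φ : Matrix (L n) (K l) ℂ) : rt Y φ = φ * Yᵀ := rfl

theorem stab_Lam {D : Der} {g X : Fin 3 → Matrix (L n) (L n) ℂ} (h : ∀ i, (g i).map D = X i * g i) (a : Fin 3 → Wt n) :
    ((mC D (L n) (K l)).tw (mv X)).Stab (Lam g a l) := by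
  rintro _ ⟨φ, hφ, rfl⟩
  refine ⟨φ.map D, fun p k e => by rw [Matrix.map_apply, hφ p k e, map_zero], ?_⟩
  rw [Conn.tw_apply, mv_mv]
  ext p k
  simp only [mC_apply, Matrix.sub_apply, Matrix.map_apply, mv_apply, map_sum, Derivation.leibniz, smul_eq_mul, ← h,
    ← Finset.sum_sub_distrib]
  exact Finset.sum_congr rfl fun q _ => by ring

theorem stab_ten {D : Der} {Z : Matrix (L n) (L n) ℂ} {Y : Matrix (K l) (K l) ℂ} {R : Submodule ℂ (L n → ℂ)}
    {T : Submodule ℂ (K l → ℂ)} (hR : ((Conn.std D (L n)).tw (Matrix.toLin' Z)).Stab R)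
    (hT : ((Conn.std D (K l)).tw (Matrix.toLin' Y)).Stab T) :
    ((mC D (L n) (K l)).tw (mv (fun _ => Z) + rt Y)).Stab (ten R T) := fun φ hφ => by
  refine ⟨fun k => ?_, fun p => ?_⟩
  · have := R.sub_mem (hR _ (hφ.1 k)) (R.sum_mem fun j (_ : j ∈ Finset.univ) => R.smul_mem (Y k j) (hφ.1 j))
    convert this using 1
    funext p
    simp [mv_apply, Matrix.mul_apply, Matrix.mulVec, dotProduct, Finset.sum_apply, mul_comm, sub_sub]
  · have := T.sub_mem (hT _ (hφ.2 p)) (T.sum_mem fun q (_ : q ∈ Finset.univ) => T.smul_mem (Z p q) (hφ.2 q))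
    convert this using 1
    funext k
    simp [mv_apply, Matrix.mul_apply, Matrix.mulVec, dotProduct, Finset.sum_apply, mul_comm, sub_sub, add_comm]

theorem bE_sup {A B : Submodule ℂ (Matrix (L n) (K l) ℂ)} {ψ : Matrix (L n) (K l) ℂ} (hA : ∀ φ ∈ A, bE φ ψ = 0)
    (hB : ∀ φ ∈ B, bE φ ψ = 0) {φ : Matrix (L n) (K l) ℂ} (h : φ ∈ A ⊔ B) : bE φ ψ = 0 := by
  obtain ⟨x, hx, y, hy, rfl⟩ := Submodule.mem_sup.1 h
  have : bE (x + y) ψ = bE x ψ + bE y ψ := by simp [bE, add_mul, Finset.sum_add_distrib]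
  rw [this, hA x hx, hB y hy, add_zero]

/-- the tangent directions move `H` inside `Λ + W ⊗ T` -/
theorem Generic.petri_mem {A : Set ℂ} {g : Fin 3 → Matrix (L n) (L n) ℂ} {T : Submodule ℂ (K l → ℂ)} (hG : Generic A g T)
    (a : Fin 3 → Wt n) {φ : Matrix (L n) (K l) ℂ} (hφ : φ ∈ H g a T) (X : Fin 3 → soD n) {Y : Matrix (K l) (K l) ℂ}
    (hY : IsSk rv Y) : mv (fun i => (X i : Matrix (L n) (L n) ℂ)) φ - φ * Yᵀ ∈ Lam g a l ⊔ ten ⊤ T := by
  obtain ⟨D, -, h1, h2⟩ := hG X Y hY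
  have := Conn.petri_mem (stab_Lam h1 a) (stab_ten (Z := 0) (Conn.stab_top _) h2) hφ.1 hφ.2
  have e : mv (fun _ => (0 : Matrix (L n) (L n) ℂ)) φ = 0 := by
    ext p k
    simp [mv_apply]
  simpa [e] using this

/-- PETRI identities -/
theorem Generic.petri {A : Set ℂ} {g : Fin 3 → Matrix (L n) (L n) ℂ} {T : Submodule ℂ (K l → ℂ)} (hG : Generic A g T)
    {a : Fin 3 → Wt n} (ha : Adm a l) (hg : ∀ i, g i ∈ Gp n) (hT : IsLag T) {φ ψ : Matrix (L n) (K l) ℂ} (hφ : φ ∈ H g a T)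
    (hψ : ψ ∈ H g a T) (X : Fin 3 → soD n) {Y : Matrix (K l) (K l) ℂ} (hY : IsSk rv Y) :
    bE (mv (fun i => (X i : Matrix (L n) (L n) ℂ)) φ - φ * Yᵀ) ψ = 0 :=
  bE_sup (fun χ hχ => (mem_Lam_iff ha hg ψ).1 hψ.1 χ hχ) (fun χ hχ => ten_iso hT hχ hψ.2) (hG.petri_mem a hφ X hY)

end Crest.Agent.R172.Q
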