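import Crest.Agent.R172.Q.GenW
import Crest.Agent.R23.AX.Der

/-! # Row 172 (Pfaffian route), block F3: algebraically independent points, derivations with prescribed values, Cayley (helper12) -/

set_option autoImplicit false
set_option linter.unusedSectionVars false
set_option linter.unusedVariables false

noncomputable section

namespace Crest.Agent.R172.Q

open Matrix Cardinal

theorem countable_closure {A : Set ℂ} (hA : A.Countable) : Countable (Subfield.closure A) :=
  Cardinal.mk_le_aleph0_iff.1 ((Subfield.cardinalMk_closure_le_max A).trans (max_le hA.le_aleph0 le_rfl))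

theorem exists_indep (k : Subfield ℂ) [Countable k] (σ : Type) [Countable σ] : ∃ t : σ → ℂ, AlgebraicIndependent k t := by
  obtain ⟨s, hs⟩ := exists_isTranscendenceBasis k ℂ
  have h1 : #ℂ = #s := IsAlgClosed.cardinal_eq_cardinal_transcendence_basis_of_aleph0_lt' _ hs Cardinal.mk_le_aleph0
    (by rw [Cardinal.mk_complex]; exact Cardinal.aleph0_lt_continuum)
  have h2 : #σ ≤ #s := by
    rw [← h1, Cardinal.mk_complex]
    exact Cardinal.mk_le_aleph0.trans Cardinal.aleph0_le_continuum
  obtain ⟨e⟩ := (Cardinal.le_def _ _).1 h2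
  exact ⟨_, hs.1.comp e e.injective⟩

/-- a generic point over a countable set avoids a given hypersurface -/
theorem exists_generic {A : Set ℂ} (hA : A.Countable) {σ : Type} [Countable σ] {f : MvPolynomial σ ℂ} (hf : f ≠ 0) :
    ∃ t : σ → ℂ, AlgebraicIndependent (Subfield.closure A) t ∧ MvPolynomial.eval t f ≠ 0 := by
  let k : Subfield ℂ := Subfield.closure (A ∪ (f.coeffs : Set ℂ))
  have : Countable k := countable_closure (hA.union f.coeffs.countable_toSet)
  obtain ⟨t, ht⟩ := exists_indep k σ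
  have hle : Subfield.closure A ≤ k := Subfield.closure_mono Set.subset_union_left
  refine ⟨t, algebraicIndependent_iff.2 fun p hp => ?_, fun h => ?_⟩
  · apply MvPolynomial.map_injective (Subfield.inclusion hle) (Subfield.inclusion hle).injective
    rw [map_zero]
    apply algebraicIndependent_iff.1 ht
    rw [MvPolynomial.aeval_def, MvPolynomial.eval₂_map]
    exact hp
  · obtain ⟨p, hp⟩ : f ∈ (MvPolynomial.map (σ := σ) (algebraMap k ℂ)).range := by
      rw [RingHom.mem_range, ← Set.mem_range, MvPolynomial.mem_range_map_iff_coeffs_subset]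
      exact fun c hc => ⟨⟨c, Subfield.subset_closure (Or.inr hc)⟩, rfl⟩
    rw [← hp, MvPolynomial.eval_map, ← MvPolynomial.aeval_def] at h
    exact hf (by rw [← hp, algebraicIndependent_iff.1 ht p h, map_zero])

/-- extend the restriction of `D₀` to `k` by prescribed values on a family independent over `k` -/
theorem exists_der_ext {k : Subfield ℂ} {σ : Type} {t : σ → ℂ} (ht : AlgebraicIndependent k t) (D₀ : Der) (c : σ → ℂ) :
    ∃ D : Der, (∀ a ∈ k, D a = D₀ a) ∧ ∀ i, D (t i) = c i := by
  obtain ⟨D, hD⟩ := Crest.Agent.R23.AX.exists_der ht fun i => c i - D₀ (t i)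
  refine ⟨D₀ + D.restrictScalars ℚ, fun a ha => ?_, fun i => ?_⟩
  · have : D a = 0 := D.map_algebraMap ⟨a, ha⟩
    simp [this]
  · simp [hD]

section Cayley

variable {κ : Type} [Fintype κ] [DecidableEq κ]

/-- the generic skew endomorphism for the form `∑ x k * y (r k)`, `r` an involution -/
def skw [LinearOrder κ] (r : κ → κ) (s : κ × κ → ℂ) : Matrix κ κ ℂ :=
  Matrix.of fun p q => if r p < q then s (r p, q) else if q < r p then -s (q, r p) else 0

/-- skew for the form given by the involution `r` -/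
def IsSk (r : κ → κ) (Y : Matrix κ κ ℂ) : Prop := ∀ p q, Y p q = -Y (r q) (r p)

/-- the adjoint -/
def adj (r : κ → κ) (Y : Matrix κ κ ℂ) : Matrix κ κ ℂ := Matrix.of fun p q => Y (r q) (r p)

theorem adj_mul {r : κ → κ} (hr : Function.Involutive r) (A B : Matrix κ κ ℂ) : adj r (A * B) = adj r B * adj r A := by
  ext p q
  simp only [adj, Matrix.of_apply, Matrix.mul_apply]
  rw [← Equiv.sum_comp (hr.toPerm r)]
  exact Finset.sum_congr rfl fun k _ => by simp [mul_comm]

theorem adj_one {r : κ → κ} (hr : Function.Involutive r) : adj r (1 : Matrix κ κ ℂ) = 1 := by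
  ext p q
  simp [adj, Matrix.one_apply, hr.injective.eq_iff, eq_comm]

theorem adj_add (r : κ → κ) (A B : Matrix κ κ ℂ) : adj r (A + B) = adj r A + adj r B := rfl
theorem adj_sub (r : κ → κ) (A B : Matrix κ κ ℂ) : adj r (A - B) = adj r A - adj r B := rfl
theorem adj_smul (r : κ → κ) (c : ℂ) (A : Matrix κ κ ℂ) : adj r (c • A) = c • adj r A := rfl

theorem isSk_iff {r : κ → κ} {Y : Matrix κ κ ℂ} : IsSk r Y ↔ adj r Y = -Y :=
  ⟨fun h => by ext p q; simp [adj, h p q], fun h p q => by
    have := congrFun (congrFun h p) q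
    simp only [adj, Matrix.of_apply, Matrix.neg_apply] at this
    rw [this, neg_neg]⟩

theorem skw_sk [LinearOrder κ] {r : κ → κ} (hr : Function.Involutive r) (s : κ × κ → ℂ) : IsSk r (skw r s) := fun p q => by
  simp only [skw, Matrix.of_apply, hr q]
  rcases lt_trichotomy (r p) q with h | h | h
  · simp [h, h.not_gt]
  · simp [h]
  · simp [h, h.not_gt]

theorem skw_surj [LinearOrder κ] {r : κ → κ} (hr : Function.Involutive r) {Y : Matrix κ κ ℂ} (hY : IsSk r Y) :
    skw r (fun x => Y (r x.1) x.2) = Y := by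
  ext p q
  simp only [skw, Matrix.of_apply, hr p]
  rcases lt_trichotomy (r p) q with h | h | h
  · simp [h]
  · subst h
    have := hY p (r p)
    rw [hr p] at this
    simp only [lt_irrefl, if_false]
    linear_combination (-1 / 2 : ℂ) * this
  · simp [h, h.not_gt, hY p q]

theorem skw_der [LinearOrder κ] (r : κ → κ) (s : κ × κ → ℂ) (D : Der) : (skw r s).map D = skw r fun x => D (s x) := by
  ext p q
  simp only [skw, Matrix.of_apply, Matrix.map_apply]
  split_ifs <;> simp

theorem det_skw_poly [LinearOrder κ] (r : κ → κ) (ε : ℂ) :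
    ∃ f : MvPolynomial (κ × κ) ℂ, f ≠ 0 ∧ ∀ s, MvPolynomial.eval s f = (1 + ε • skw r s).det := by
  let P : Matrix κ κ (MvPolynomial (κ × κ) ℂ) := 1 + (MvPolynomial.C ε : MvPolynomial (κ × κ) ℂ) • Matrix.of fun p q =>
    if r p < q then MvPolynomial.X (r p, q) else if q < r p then -MvPolynomial.X (q, r p) else 0
  have h : ∀ s, MvPolynomial.eval s P.det = (1 + ε • skw r s).det := fun s => by
    rw [RingHom.map_det]
    congr 1
    ext p q
    simp only [P, skw, RingHom.mapMatrix_apply, Matrix.map_apply, Matrix.add_apply, Matrix.smul_apply, Matrix.of_apply,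
      Matrix.one_apply, smul_eq_mul, map_add, map_mul, MvPolynomial.eval_C]
    split_ifs <;> simp
  refine ⟨P.det, fun h0 => ?_, h⟩
  have := h 0
  have e : skw r (0 : κ × κ → ℂ) = 0 := by
    ext p q
    simp [skw]
  rw [h0, e] at this
  simp at this

/-- GENERIC ISOMETRY over a countable set `A` (Cayley): every derivation of `ℚ(A)` extends with any prescribed logarithmic derivative. -/
theorem exists_cayley {r : κ → κ} (hr : Function.Involutive r) {A : Set ℂ} (hA : A.Countable) :
    ∃ h : Matrix κ κ ℂ, adj r h * h = 1 ∧ h * adj r h = 1 ∧ IsUnit (1 + h) ∧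
      ∀ (D₀ : Der) (Y : Matrix κ κ ℂ), IsSk r Y → ∃ D : Der, (∀ a ∈ Subfield.closure A, D a = D₀ a) ∧ h.map D = Y * h := by
  let _ : LinearOrder κ := LinearOrder.lift' (Fintype.equivFin κ) (Fintype.equivFin κ).injective
  obtain ⟨f, hf, hf'⟩ := det_skw_poly r 1
  obtain ⟨g, hg, hg'⟩ := det_skw_poly r (-1)
  obtain ⟨s, hs, h0⟩ := exists_generic hA (mul_ne_zero hf hg)
  rw [map_mul, hf', hg', one_smul, neg_one_smul, ← sub_eq_add_neg] at h0
  set S := skw r s with hS
  have u1 : IsUnit (1 + S).det := (left_ne_zero_of_mul h0).isUnit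
  have u2 : IsUnit (1 - S).det := (right_ne_zero_of_mul h0).isUnit
  have a1 : adj r (1 + S) = 1 - S := by rw [adj_add, adj_one hr, isSk_iff.1 (skw_sk hr s), sub_eq_add_neg]
  have a2 : adj r (1 - S) = 1 + S := by rw [adj_sub, adj_one hr, isSk_iff.1 (skw_sk hr s), sub_neg_eq_add]
  have e0 : (1 - S) * ((1 - S)⁻¹ * (1 + S)) = 1 + S := by rw [← mul_assoc, Matrix.mul_nonsing_inv _ u2, one_mul]
  set h := (1 - S)⁻¹ * (1 + S) with hh
  have canc : ∀ P Q : Matrix κ κ ℂ, (1 - S) * P = (1 - S) * Q → P = Q := fun P Q e => by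
    rw [← one_mul P, ← one_mul Q, ← Matrix.nonsing_inv_mul _ u2, mul_assoc, mul_assoc, e]
  have cm : (1 + S) * (1 - S) = (1 - S) * (1 + S) := by noncomm_ring
  have e1 : h * (1 - S) = 1 + S := canc _ _ (by rw [← mul_assoc, e0, cm])
  have e2 : adj r h * (1 + S) = 1 - S := by rw [← a2, ← adj_mul hr, e0, a1]
  have e3 : adj r h * h = 1 := by
    have : (adj r h * h) * (1 - S) = 1 * (1 - S) := by rw [mul_assoc, e1, e2, one_mul]
    rw [← mul_one (adj r h * h), ← Matrix.mul_nonsing_inv _ u2, ← mul_assoc, this, one_mul]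
  have e4 : (1 - S) * (1 + h) = (2 : ℂ) • 1 := by rw [mul_add, e0, mul_one, two_smul]; abel
  refine ⟨h, e3, mul_eq_one_comm.1 e3, ?_, fun D₀ Y hY => ?_⟩
  · have : ((1 / 2 : ℂ) • (1 - S)) * (1 + h) = 1 := by rw [Matrix.smul_mul, e4, smul_smul]; norm_num
    exact IsUnit.of_mul_eq_one_right _ this
  · have hZ : IsSk r ((1 / 2 : ℂ) • ((1 - S) * Y * (1 + S))) := by
      rw [isSk_iff, adj_smul, adj_mul hr, adj_mul hr, a1, a2, isSk_iff.1 hY, ← smul_neg]
      congr 1
      noncomm_ring
    obtain ⟨D, hD, hD'⟩ := exists_der_ext hs D₀ fun x => ((1 / 2 : ℂ) • ((1 - S) * Y * (1 + S))) (r x.1) x.2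
    refine ⟨D, hD, canc _ _ ?_⟩
    have d1 : S.map D = (1 / 2 : ℂ) • ((1 - S) * Y * (1 + S)) := by
      rw [hS, skw_der, funext hD']; exact skw_surj hr hZ
    have d2 := congrArg (fun M : Matrix κ κ ℂ => M.map D) e0
    have d3 : (1 - S).map D = -S.map D := by
      rw [Matrix.map_sub _ (map_sub D), map_one_der, zero_sub]
    have d4 : (1 + S).map D = S.map D := by
      rw [Matrix.map_add _ (map_add D), map_one_der, zero_add]
    simp only [map_mul_der, d3, d4] at d2
    have d5 : (1 - S) * h.map D = S.map D * (1 + h) := by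
      rw [neg_mul, neg_add_eq_iff_eq_add] at d2
      rw [d2, mul_add, mul_one, add_comm]
    have e5 : (1 + S) * (1 + h) = (2 : ℂ) • h := by
      refine canc _ _ ?_
      rw [← mul_assoc, ← cm, mul_assoc, e4, Matrix.mul_smul, Matrix.mul_smul, mul_one, e0]
    rw [d5, d1, Matrix.smul_mul, mul_assoc, e5, Matrix.mul_smul, smul_smul, mul_assoc]
    norm_num

end Cayley

end Crest.Agent.R172.Q
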