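import Crest.Agent.R172.Q.Conn
import Crest.Agent.R172.W.Lie

/-! # Row 172 (Pfaffian route), block F3: words in root elements and their logarithmic derivative (helper12) -/

set_option autoImplicit false
set_option linter.unusedSectionVars false
set_option linter.unusedVariables false

noncomputable section

namespace Crest.Agent.R172.Q

open Matrix Crest.AlgebraR.SpinSaturation Crest.Agent.R172.W

variable {ι σ : Type} [Fintype ι] [DecidableEq ι]

/-- `∏ (1 + t_k e_k)` -/
def gm (w : List (Matrix ι ι ℂ × σ)) (t : σ → ℂ) : Matrix ι ι ℂ := (w.map fun x => 1 + t x.2 • x.1).prod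
/-- its inverse -/
def gi (w : List (Matrix ι ι ℂ × σ)) (t : σ → ℂ) : Matrix ι ι ℂ := (w.map fun x => 1 - t x.2 • x.1).reverse.prod
/-- the logarithmic derivative `dg g⁻¹` in the direction `c` -/
def xi : List (Matrix ι ι ℂ × σ) → (σ → ℂ) → (σ → ℂ) → Matrix ι ι ℂ
  | [], _, _ => 0
  | x :: w, t, c => c x.2 • x.1 + (1 + t x.2 • x.1) * xi w t c * (1 - t x.2 • x.1)

@[simp] theorem gm_nil (t : σ → ℂ) : gm ([] : List (Matrix ι ι ℂ × σ)) t = 1 := rfl
@[simp] theorem gi_nil (t : σ → ℂ) : gi ([] : List (Matrix ι ι ℂ × σ)) t = 1 := rfl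
@[simp] theorem xi_nil (t c : σ → ℂ) : xi ([] : List (Matrix ι ι ℂ × σ)) t c = 0 := rfl
theorem gm_cons (x : Matrix ι ι ℂ × σ) (w : List (Matrix ι ι ℂ × σ)) (t : σ → ℂ) :
    gm (x :: w) t = (1 + t x.2 • x.1) * gm w t := by simp [gm]
theorem gi_cons (x : Matrix ι ι ℂ × σ) (w : List (Matrix ι ι ℂ × σ)) (t : σ → ℂ) :
    gi (x :: w) t = gi w t * (1 - t x.2 • x.1) := by simp [gi]
theorem xi_cons (x : Matrix ι ι ℂ × σ) (w : List (Matrix ι ι ℂ × σ)) (t c : σ → ℂ) :
    xi (x :: w) t c = c x.2 • x.1 + (1 + t x.2 • x.1) * xi w t c * (1 - t x.2 • x.1) := rfl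
theorem gm_append (u w : List (Matrix ι ι ℂ × σ)) (t : σ → ℂ) : gm (u ++ w) t = gm u t * gm w t := by simp [gm]

theorem xi_append (u w : List (Matrix ι ι ℂ × σ)) (t c : σ → ℂ) :
    xi (u ++ w) t c = xi u t c + gm u t * xi w t c * gi u t := by
  induction u with
  | nil => simp
  | cons x u ih =>
    rw [List.cons_append, xi_cons, ih, xi_cons, gm_cons, gi_cons]
    generalize (1 + t x.2 • x.1) = A
    generalize (1 - t x.2 • x.1) = B
    noncomm_ring

theorem gm_congr {w : List (Matrix ι ι ℂ × σ)} {t t' : σ → ℂ} (h : ∀ x ∈ w, t x.2 = t' x.2) : gm w t = gm w t' := by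
  unfold gm; rw [List.map_congr_left fun x hx => by rw [h x hx]]
theorem gi_congr {w : List (Matrix ι ι ℂ × σ)} {t t' : σ → ℂ} (h : ∀ x ∈ w, t x.2 = t' x.2) : gi w t = gi w t' := by
  unfold gi; rw [List.map_congr_left fun x hx => by rw [h x hx]]

theorem xi_congr {w : List (Matrix ι ι ℂ × σ)} {t t' c c' : σ → ℂ} (h : ∀ x ∈ w, t x.2 = t' x.2) (hc : ∀ x ∈ w, c x.2 = c' x.2) :
    xi w t c = xi w t' c' := by
  induction w with
  | nil => rfl
  | cons x w ih =>
    rw [xi_cons, xi_cons, ih (fun y hy => h y (List.mem_cons_of_mem _ hy)) (fun y hy => hc y (List.mem_cons_of_mem _ hy)),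
      h x List.mem_cons_self, hc x List.mem_cons_self]

theorem xi_add (w : List (Matrix ι ι ℂ × σ)) (t c c' : σ → ℂ) : xi w t (c + c') = xi w t c + xi w t c' := by
  induction w with
  | nil => simp
  | cons x w ih =>
    rw [xi_cons, xi_cons, xi_cons, ih, Pi.add_apply, add_smul]
    generalize (1 + t x.2 • x.1) = A
    generalize (1 - t x.2 • x.1) = B
    noncomm_ring

theorem xi_smul (w : List (Matrix ι ι ℂ × σ)) (t c : σ → ℂ) (a : ℂ) : xi w t (a • c) = a • xi w t c := by
  induction w with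
  | nil => simp
  | cons x w ih => rw [xi_cons, xi_cons, ih, Pi.smul_apply, smul_add, smul_assoc, Matrix.mul_smul, Matrix.smul_mul]

/-- `xi` as a linear map of the direction -/
def xiL (w : List (Matrix ι ι ℂ × σ)) (t : σ → ℂ) : (σ → ℂ) →ₗ[ℂ] Matrix ι ι ℂ where
  toFun := xi w t
  map_add' := xi_add w t
  map_smul' a c := xi_smul w t c a

theorem xi_eq_zero {w : List (Matrix ι ι ℂ × σ)} (t : σ → ℂ) {c : σ → ℂ} (hc : ∀ x ∈ w, c x.2 = 0) : xi w t c = 0 :=
  (xi_congr (c' := 0) (fun _ _ => rfl) hc).trans (xiL w t).map_zero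

theorem map_mul_der {κ μ : Type} [Fintype κ] (D : Der) (A : Matrix ι κ ℂ) (B : Matrix κ μ ℂ) :
    (A * B).map D = A.map D * B + A * B.map D := by
  ext i j
  simp only [Matrix.map_apply, Matrix.mul_apply, Matrix.add_apply, map_sum, Derivation.leibniz, smul_eq_mul,
    ← Finset.sum_add_distrib]
  exact Finset.sum_congr rfl fun k _ => by ring

theorem map_one_der (D : Der) : (1 : Matrix ι ι ℂ).map D = 0 := by
  ext i j
  rw [Matrix.map_apply, Matrix.one_apply]
  split_ifs <;> simp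

theorem std_mulVec {κ : Type} [Fintype κ] (D : Der) (A : Matrix ι κ ℂ) (v : κ → ℂ) :
    Conn.std D ι (A *ᵥ v) = A.map D *ᵥ v + A *ᵥ Conn.std D κ v := by
  funext i
  simp only [Conn.std_apply, Matrix.mulVec, dotProduct, Matrix.map_apply, Pi.add_apply, map_sum, Derivation.leibniz,
    smul_eq_mul, ← Finset.sum_add_distrib]
  exact Finset.sum_congr rfl fun k _ => by ring

/-- if `D g = X g` then the translate by `g` of a constant subspace is stable for `D - X` -/
theorem stab_map {D : Der} {g X : Matrix ι ι ℂ} (h : g.map D = X * g) {S : Submodule ℂ (ι → ℂ)} (hS : (Conn.std D ι).Stab S) :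
    ((Conn.std D ι).tw (Matrix.toLin' X)).Stab (S.map (Matrix.toLin' g)) := by
  rintro _ ⟨v, hv, rfl⟩
  refine ⟨_, hS v hv, ?_⟩
  simp only [Matrix.toLin'_apply, Conn.tw_apply, std_mulVec, h, Matrix.mulVec_mulVec]
  abel

/-- coordinate subspaces are constant -/
theorem stab_coord (D : Der) (s : Set ι) :
    (Conn.std D ι).Stab (Submodule.span ℂ ((fun p => (Pi.single p 1 : ι → ℂ)) '' s)) := by
  refine Conn.stab_span ?_
  rintro _ ⟨p, hp, rfl⟩
  have : Conn.std D ι (Pi.single p 1) = 0 := by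
    funext i
    rw [Conn.std_apply, Pi.single_apply]
    split_ifs <;> simp
  rw [this]; exact Submodule.zero_mem _

theorem letter_inv {e : Matrix ι ι ℂ} (he : e * e = 0) (a : ℂ) : (1 - a • e) * (1 + a • e) = 1 := by
  simp [sub_mul, mul_add, he]
theorem letter_inv' {e : Matrix ι ι ℂ} (he : e * e = 0) (a : ℂ) : (1 + a • e) * (1 - a • e) = 1 := by
  simp [mul_sub, add_mul, he]

theorem gi_mul_gm {w : List (Matrix ι ι ℂ × σ)} (hw : ∀ x ∈ w, x.1 * x.1 = 0) (t : σ → ℂ) : gi w t * gm w t = 1 := by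
  induction w with
  | nil => simp
  | cons x w ih =>
    rw [gi_cons, gm_cons, mul_assoc, ← mul_assoc (1 - _), letter_inv (hw x List.mem_cons_self), one_mul,
      ih fun y hy => hw y (List.mem_cons_of_mem _ hy)]

theorem map_gm {w : List (Matrix ι ι ℂ × σ)} (D : Der) (hw : ∀ x ∈ w, x.1 * x.1 = 0 ∧ x.1.map D = 0) (t : σ → ℂ) :
    (gm w t).map D = xi w t (fun k => D (t k)) * gm w t := by
  induction w with
  | nil => simp [map_one_der]
  | cons x w ih =>
    obtain ⟨h1, h2⟩ := hw x List.mem_cons_self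
    have h3 : (1 + t x.2 • x.1).map D = D (t x.2) • x.1 := by
      ext i j
      have a := congrFun (congrFun (map_one_der (ι := ι) D) i) j
      have b := congrFun (congrFun h2 i) j
      simp only [Matrix.map_apply, Matrix.zero_apply] at a b
      simp [Matrix.map_apply, a, b, mul_comm]
    have h4 : D (t x.2) • x.1 * (1 + t x.2 • x.1) = D (t x.2) • x.1 := by
      rw [Matrix.mul_add, Matrix.mul_one, Matrix.smul_mul, Matrix.mul_smul, h1, smul_zero, smul_zero, add_zero]
    have h5 := letter_inv h1 (t x.2)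
    rw [gm_cons, map_mul_der, ih fun y hy => hw y (List.mem_cons_of_mem _ hy), h3, xi_cons]
    generalize (1 + t x.2 • x.1) = A at *
    generalize (1 - t x.2 • x.1) = B at *
    generalize D (t x.2) • x.1 = E at *
    rw [add_mul E, ← mul_assoc E, h4, mul_assoc (A * _) B, ← mul_assoc B, h5, one_mul, mul_assoc]

variable {n : ℕ}

/-- a root letter -/
def lt (x : (L n × L n) × σ) : Matrix (L n) (L n) ℂ × σ := (Xm x.1.1 x.1.2, x.2)

theorem Xm_sq {p q : L n} (h : p ≠ q) : Xm p q * Xm p q = 0 := by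
  have a : ∀ r : L n, r ≠ r.swap := fun r => by cases r <;> simp
  have b : p.swap ≠ q.swap := fun e => h (liea_swap_inj.1 e)
  simp only [Xm, mul_sub, sub_mul, liea_mul, if_neg h.symm, if_neg (a q), if_neg (a p).symm, if_neg b, sub_zero]

theorem Xm_der (D : Der) (p q : L n) : (Xm p q).map D = 0 := by
  ext r s
  rw [Matrix.map_apply, liea_Xm]
  split_ifs <;> simp

theorem map_gm_lt {w : List ((L n × L n) × σ)} (hw : ∀ x ∈ w, x.1.1 ≠ x.1.2) (D : Der) (t : σ → ℂ) :
    (gm (w.map lt) t).map D = xi (w.map lt) t (fun k => D (t k)) * gm (w.map lt) t :=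
  map_gm D (fun x hx => by
    obtain ⟨y, hy, rfl⟩ := List.mem_map.1 hx
    exact ⟨Xm_sq (hw y hy), Xm_der D _ _⟩) t

end Crest.Agent.R172.Q
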