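import Crest.Agent.R172.Q.Chi
import Crest.Agent.R172.HM.Main
import Crest.Agent.R172.LR

/-! # R172/Q: assembly of the Pfaffian route (owner helper1) -/

set_option autoImplicit false
set_option linter.unusedVariables false
open Crest.AlgebraR.SpinSaturation

noncomputable section
namespace Crest.Agent.R172.Q

theorem main_Q (hPF : S_PF) (hCORE : S_CORE) (n : ℕ) (hn : 2 ≤ n) (a b c : Fin n → ℤ)
    (ha : IsDominantIntegral n a) (hb : IsDominantIntegral n b) (hc : IsDominantIntegral n c)
    (habc : InRootLattice n (a + b + c)) (N : ℕ) (hN : 1 ≤ N)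
    (U : Irrep n a) (V : Irrep n b) (W : Irrep n c)
    (U' : Irrep n (N • a)) (V' : Irrep n (N • b)) (W' : Irrep n (N • c)) :
    HasInvariant U V W ↔ HasInvariant U' V' W' := by
  constructor
  · obtain ⟨m, rfl⟩ : ∃ m, n = m + 1 := ⟨n - 1, by omega⟩
    have hm : 1 ≤ m := by omega
    rw [s_LR m hm a b c ha hb hc habc U V W,
      s_LR m hm _ _ _ (dom_nsmul ha N) (dom_nsmul hb N) (dom_nsmul hc N) (root_nsmul habc N) U' V' W',
      dual_nsmul, wt_nsmul, wt_nsmul, wt_nsmul]
    rintro ⟨h, H, L⟩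
    exact ⟨h.smul N, H.smul (by positivity), L.smul N⟩
  · intro h
    obtain ⟨l, hl, g, hg, T, hT, h0⟩ := hCORE n hn ![a, b, c] (fun i => by fin_cases i <;> assumption) habc
      (HM.s_hm0 hn ha hb hc hN U' V' W' h)
    exact hPF n ![a, b, c] l hl g hg T hT h0 U V W

end Crest.Agent.R172.Q
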