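import Crest.Agent.R172.Q.PfDefs

/-! R172/Q/PfCar (owner helper16): existence of a Clifford module, vacuum, covacuum -/

set_option autoImplicit false
set_option linter.unusedVariables false
set_option linter.unusedSectionVars false
open Matrix Sum Crest.AlgebraR.SpinSaturation

noncomputable section
namespace Crest.Agent.R172.Q
open Crest.Agent.R172.W

theorem exists_car_fin (m : ℕ) : ∃ (S : Type) (_ : AddCommGroup S) (_ : Module ℂ S) (_ : FiniteDimensional ℂ S) (_ : Nontrivial S)
    (a b : Fin m → Module.End ℂ S), (∀ i j, a i * a j + a j * a i = 0) ∧ (∀ i j, b i * b j + b j * b i = 0) ∧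
      ∀ i j, a i * b j + b j * a i = if i = j then 1 else 0 := by
  induction m with
  | zero => exact ⟨ℂ, inferInstance, inferInstance, inferInstance, inferInstance, fun i => i.elim0, fun i => i.elim0,
      fun i => i.elim0, fun i => i.elim0, fun i => i.elim0⟩
  | succ m ih =>
    obtain ⟨S, _, _, _, _, a, b, haa, hbb, hab⟩ := ih
    let D : Module.End ℂ S → Module.End ℂ (S × S) := fun c => LinearMap.prodMap c (-c)
    let A : Module.End ℂ (S × S) := LinearMap.inl ℂ S S ∘ₗ LinearMap.snd ℂ S S
    let B : Module.End ℂ (S × S) := LinearMap.inr ℂ S S ∘ₗ LinearMap.fst ℂ S S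
    have hAA : A * A + A * A = 0 := by
      refine LinearMap.ext fun x => ?_
      simp [A]
    have hBB : B * B + B * B = 0 := by
      refine LinearMap.ext fun x => ?_
      simp [B]
    have hAB : A * B + B * A = 1 := by
      refine LinearMap.ext fun x => ?_
      simp [A, B]
    have hAD : ∀ c, A * D c + D c * A = 0 := fun c => by
      refine LinearMap.ext fun x => ?_
      simp [A, D]
    have hBD : ∀ c, B * D c + D c * B = 0 := fun c => by
      refine LinearMap.ext fun x => ?_
      simp [B, D]
    have hDD : ∀ c d, D c * D d + D d * D c = LinearMap.prodMap (c * d + d * c) (c * d + d * c) := fun c d => by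
      refine LinearMap.ext fun x => ?_
      simp [D]
    have h0 : LinearMap.prodMap (0 : Module.End ℂ S) (0 : Module.End ℂ S) = 0 := by
      refine LinearMap.ext fun x => ?_
      simp
    have h1 : LinearMap.prodMap (1 : Module.End ℂ S) (1 : Module.End ℂ S) = 1 := by
      refine LinearMap.ext fun x => ?_
      simp
    refine ⟨S × S, inferInstance, inferInstance, inferInstance, inferInstance,
      Fin.cons A fun i => D (a i), Fin.cons B fun i => D (b i), ?_, ?_, ?_⟩
    · intro i j
      refine Fin.cases ?_ (fun i => ?_) i <;> refine Fin.cases ?_ (fun j => ?_) j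
      · simpa using hAA
      · simpa using hAD _
      · simpa [add_comm] using hAD _
      · simp only [Fin.cons_succ]; rw [hDD, haa, h0]
    · intro i j
      refine Fin.cases ?_ (fun i => ?_) i <;> refine Fin.cases ?_ (fun j => ?_) j
      · simpa using hBB
      · simpa using hBD _
      · simpa [add_comm] using hBD _
      · simp only [Fin.cons_succ]; rw [hDD, hbb, h0]
    · intro i j
      refine Fin.cases ?_ (fun i => ?_) i <;> refine Fin.cases ?_ (fun j => ?_) j
      · simpa using hAB
      · simp only [Fin.cons_succ, Fin.cons_zero]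
        rw [hAD, if_neg (Fin.succ_ne_zero j).symm]
      · simp only [Fin.cons_succ, Fin.cons_zero]
        rw [add_comm, hBD, if_neg (Fin.succ_ne_zero i)]
      · simp only [Fin.cons_succ]
        rw [hDD, hab]
        by_cases h : i = j
        · rw [if_pos h, if_pos (by rw [h]), h1]
        · rw [if_neg h, if_neg (fun e => h (Fin.succ_injective _ e)), h0]

/-- first `a, a' : Fin m → End S` with `{a,a} = {a',a'} = 0`, `{a i, a' j} = δ` by induction on `m` (`S × S`: old ones `diag (c, -c)`, new `a (s,t) = (t,0)`,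
`a' (s,t) = (0,s)`), transport along `Fintype.equivFin`, then `γ p = a' p + (1/2) • a (σ p)` -/
theorem exists_car {ι : Type} [Fintype ι] [DecidableEq ι] (σ : ι → ι) (hσ : ∀ p, σ (σ p) = p) :
    ∃ (S : Type) (_ : AddCommGroup S) (_ : Module ℂ S) (_ : FiniteDimensional ℂ S) (_ : Nontrivial S) (γ : ι → Module.End ℂ S), Car σ γ := by
  obtain ⟨S, _, _, _, _, a, b, haa, hbb, hab⟩ := exists_car_fin (Fintype.card ι)
  let e := Fintype.equivFin ι
  refine ⟨S, inferInstance, inferInstance, inferInstance, inferInstance,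
    fun p => b (e p) + (1 / 2 : ℂ) • a (e (σ p)), hσ, fun p q => ?_⟩
  have h1 := hbb (e p) (e q)
  have h2 := haa (e (σ p)) (e (σ q))
  have h3 := hab (e (σ p)) (e q)
  have h4 := hab (e (σ q)) (e p)
  have key : (b (e p) + (1 / 2 : ℂ) • a (e (σ p))) * (b (e q) + (1 / 2 : ℂ) • a (e (σ q))) +
      (b (e q) + (1 / 2 : ℂ) • a (e (σ q))) * (b (e p) + (1 / 2 : ℂ) • a (e (σ p))) =
      (b (e p) * b (e q) + b (e q) * b (e p)) +
      ((1 / 2 : ℂ) * (1 / 2 : ℂ)) • (a (e (σ p)) * a (e (σ q)) + a (e (σ q)) * a (e (σ p))) +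
      (1 / 2 : ℂ) • (a (e (σ p)) * b (e q) + b (e q) * a (e (σ p))) +
      (1 / 2 : ℂ) • (a (e (σ q)) * b (e p) + b (e p) * a (e (σ q))) := by
    simp only [mul_add, add_mul, smul_add, smul_mul_assoc, mul_smul_comm, smul_smul]
    abel
  rw [key, h1, h2, h3, h4]
  by_cases h : q = σ p
  · have h' : σ q = p := by rw [h, hσ]
    rw [if_pos h, if_pos (by rw [h]), if_pos (by rw [h']), smul_zero, add_zero, zero_add, ← add_smul]
    norm_num
  · have h' : σ q ≠ p := fun e' => h (by rw [← e', hσ])
    rw [if_neg h, if_neg (fun e' => h (e.injective e').symm), if_neg (fun e' => h' (e.injective e'))]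
    simp

variable {S : Type} [AddCommGroup S] [Module ℂ S]

/-- induction over a finset `t` of indices: if `v ≠ 0` is killed by the `c j`, `j ∈ t`, then `c k v = 0` or replace `v` by `c k v` -/
theorem exists_vac {κ : Type} [Finite κ] [Nontrivial S] (c : κ → Module.End ℂ S) (h : ∀ i j, c i * c j + c j * c i = 0) :
    ∃ v : S, v ≠ 0 ∧ ∀ i, c i v = 0 := by
  classical
  haveI := Fintype.ofFinite κ
  have key : ∀ t : Finset κ, ∃ v : S, v ≠ 0 ∧ ∀ i ∈ t, c i v = 0 := by
    intro t
    induction t using Finset.induction_on with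
    | empty => obtain ⟨v, hv⟩ := exists_ne (0 : S); exact ⟨v, hv, by simp⟩
    | insert k t hk ih =>
      obtain ⟨v, hv, hv'⟩ := ih
      by_cases h0 : c k v = 0
      · refine ⟨v, hv, fun i hi => ?_⟩
        rcases Finset.mem_insert.1 hi with rfl | hi
        · exact h0
        · exact hv' i hi
      · refine ⟨c k v, h0, fun i hi => ?_⟩
        have e := LinearMap.congr_fun (h i k) v
        simp only [LinearMap.add_apply, Module.End.mul_apply, LinearMap.zero_apply] at e
        rcases Finset.mem_insert.1 hi with rfl | hi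
        · have e2 : (2 : ℂ) • c i (c i v) = 0 := by rw [two_smul]; exact e
          exact (smul_eq_zero.1 e2).resolve_left two_ne_zero
        · rw [hv' i hi, map_zero, add_zero] at e; exact e
  obtain ⟨v, hv, hv'⟩ := key Finset.univ
  exact ⟨v, hv, fun i => hv' i (Finset.mem_univ _)⟩

/-- induction over a finset `t`: `∃ Y ε, Y s ≠ 0 ∧ (∀ j ∈ t, Y * c j = 0) ∧ (∀ j, c j * Y = ε • (Y * c j) ∧ Y * c j = ε • (c j * Y)) ∧ ∀ j ∉ t, d j * Y = ε • (Y * d j)`;
step `Y' = c k * Y`, `d k (Y' s) = Y s` -/
theorem exists_Y {κ : Type} [Finite κ] [DecidableEq κ] (c d : κ → Module.End ℂ S) (hc : ∀ i j, c i * c j + c j * c i = 0)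
    (hd : ∀ i j, d i * c j + c j * d i = if i = j then 1 else 0) {s : S} (hs : s ≠ 0) (h : ∀ i, d i s = 0) :
    ∃ Y : Module.End ℂ S, Y s ≠ 0 ∧ ∀ j, Y * c j = 0 := by
  haveI := Fintype.ofFinite κ
  have hcc : ∀ k, c k * c k = 0 := fun k => by
    have e2 : (2 : ℂ) • (c k * c k) = 0 := by rw [two_smul]; exact hc k k
    exact (smul_eq_zero.1 e2).resolve_left two_ne_zero
  have key : ∀ t : Finset κ, ∃ (Y : Module.End ℂ S) (ε : ℂ), Y s ≠ 0 ∧ (∀ j ∈ t, Y * c j = 0) ∧
      (∀ j, c j * Y = ε • (Y * c j)) ∧ ∀ j, j ∉ t → d j * Y = ε • (Y * d j) := by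
    intro t
    induction t using Finset.induction_on with
    | empty => exact ⟨1, 1, by simpa using hs, by simp, by simp, by simp⟩
    | insert k t hk ih =>
      obtain ⟨Y, ε, h1, h2, h3, h4⟩ := ih
      refine ⟨c k * Y, -ε, ?_, ?_, ?_, ?_⟩
      · intro h0
        apply h1
        have e := LinearMap.congr_fun (hd k k) (Y s)
        have e4 := LinearMap.congr_fun (h4 k hk) s
        simp only [Module.End.mul_apply, LinearMap.smul_apply, h k, map_zero, smul_zero] at e4
        simp only [Module.End.mul_apply] at h0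
        simp only [LinearMap.add_apply, Module.End.mul_apply, if_true, Module.End.one_apply, h0, e4,
          map_zero, add_zero] at e
        exact e.symm
      · intro j hj
        rcases Finset.mem_insert.1 hj with rfl | hj
        · rw [h3 j, smul_mul_assoc, mul_assoc, hcc j, mul_zero, smul_zero]
        · rw [mul_assoc, h2 j hj, mul_zero]
      · intro j
        have e : c j * c k = -(c k * c j) := eq_neg_of_add_eq_zero_left (hc j k)
        rw [← mul_assoc, e, neg_mul, mul_assoc, h3 j, mul_smul_comm, neg_smul, mul_assoc]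
      · intro j hj
        have hjk : j ≠ k := fun e => hj (e ▸ Finset.mem_insert_self _ _)
        have hjt : j ∉ t := fun e => hj (Finset.mem_insert_of_mem e)
        have e0 := hd j k
        rw [if_neg hjk] at e0
        have e : d j * c k = -(c k * d j) := eq_neg_of_add_eq_zero_left e0
        rw [← mul_assoc, e, neg_mul, mul_assoc, h4 j hjt, mul_smul_comm, neg_smul, mul_assoc]
  obtain ⟨Y, ε, h1, h2, -⟩ := key Finset.univ
  exact ⟨Y, h1, fun j => h2 j (Finset.mem_univ _)⟩

end Crest.Agent.R172.Q
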