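import Crest.Agent.R172.Q.PfRho
import Crest.Agent.R172.Q.PfCar

/-! R172/Q/PfCov (owner helper16): the covacuum -/

set_option autoImplicit false
set_option linter.unusedVariables false
set_option linter.unusedSectionVars false
open Matrix Sum Crest.AlgebraR.SpinSaturation

noncomputable section
namespace Crest.Agent.R172.Q
open Crest.Agent.R172.W

variable {ι : Type} [Fintype ι] [DecidableEq ι] {σ : ι → ι} {S : Type} [AddCommGroup S] [Module ℂ S] {γ : ι → Module.End ℂ S}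

theorem exists_cov_dual (σ : ι → ι) (Λ Λ' : Submodule ℂ (ι → ℂ))
    (hnd : ∀ y ∈ Λ', (∀ x ∈ Λ, bs σ x y = 0) → y = 0) {m : ℕ} (b : Module.Basis (Fin m) ℂ Λ') (i : Fin m) :
    ∃ x ∈ Λ, ∀ j, bs σ x (b j) = if i = j then 1 else 0 := by
  let f : Λ →ₗ[ℂ] (Fin m → ℂ) :=
    { toFun := fun x j => bs σ x (b j)
      map_add' := fun x y => by
        funext j; simp [bs, add_mul, Finset.sum_add_distrib]
      map_smul' := fun c x => by
        funext j; simp [bs, Finset.mul_sum, mul_assoc] }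
  have hf : LinearMap.range f = ⊤ := by
    by_contra hne
    obtain ⟨g, hg0, hg⟩ := Submodule.exists_le_ker_of_lt_top _ (lt_top_iff_ne_top.2 hne)
    let c : Fin m → ℂ := fun j => g (Pi.single j 1)
    have hgc : ∀ v : Fin m → ℂ, g v = ∑ j, v j * c j := fun v => by
      conv_lhs => rw [← Finset.univ_sum_single v]
      rw [map_sum]
      refine Finset.sum_congr rfl fun j _ => ?_
      have : (Pi.single j (v j) : Fin m → ℂ) = v j • (Pi.single j 1 : Fin m → ℂ) := by
        rw [← Pi.single_smul]; simp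
      rw [this, map_smul]; rfl
    have hy : ((∑ j, c j • b j : Λ') : ι → ℂ) = 0 := by
      refine hnd _ (Subtype.property _) fun x hx => ?_
      have h1 : g (f ⟨x, hx⟩) = 0 := hg ⟨_, rfl⟩
      rw [hgc] at h1
      rw [← h1]
      show bs σ x _ = ∑ j, bs σ x (b j) * c j
      simp only [bs, Submodule.coe_sum, Submodule.coe_smul, Finset.sum_apply, Pi.smul_apply, smul_eq_mul,
        Finset.mul_sum, Finset.sum_mul]
      rw [Finset.sum_comm]
      refine Finset.sum_congr rfl fun j _ => Finset.sum_congr rfl fun p _ => by ring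
    have hy' : (∑ j, c j • b j : Λ') = 0 := Subtype.ext hy
    have hc : ∀ j, c j = 0 := Fintype.linearIndependent_iff.1 b.linearIndependent c hy'
    exact hg0 (LinearMap.ext fun v => by rw [hgc]; simp [hc])
  obtain ⟨x, hx⟩ := LinearMap.range_eq_top.1 hf (fun j => if i = j then 1 else 0)
  exact ⟨x, x.2, fun j => congrFun hx j⟩

/-- basis `y` of `Λ'` (`Module.finBasis`); the map `Λ → (Fin m → ℂ)`, `x ↦ (bs x (y j))_j` is onto (a functional killing the range is `c ⬝ᵥ ·`, then `∑ c j • y j = 0` by `hnd`;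
`Submodule.exists_le_ker_of_lt_top` or `LinearMap.range_eq_top_of_cancel`); dual family `x i`; `exists_Y` with `c j = gam (y j)`, `d i = gam (x i)` (`gam_anti`);
`Φ = ℓ ∘ Y` with `ℓ (Y s) ≠ 0` (`Module.forall_dual_apply_eq_zero_iff`) -/
theorem exists_cov (h : Car σ γ) (Λ Λ' : Submodule ℂ (ι → ℂ)) (hiso : ∀ x ∈ Λ', ∀ y ∈ Λ', bs σ x y = 0)
    (hnd : ∀ y ∈ Λ', (∀ x ∈ Λ, bs σ x y = 0) → y = 0) {s : S} (hs : s ≠ 0) (hΛ : ∀ x ∈ Λ, gam γ x s = 0) :
    ∃ Φ : S →ₗ[ℂ] ℂ, Φ s ≠ 0 ∧ ∀ y ∈ Λ', ∀ u, Φ (gam γ y u) = 0 := by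
  classical
  let b := Module.finBasis ℂ Λ'
  choose x hxΛ hx using exists_cov_dual σ Λ Λ' hnd b
  obtain ⟨Y, hY, hYc⟩ := exists_Y (S := S) (fun j => gam γ (b j : ι → ℂ)) (fun i => gam γ (x i))
    (fun i j => by rw [h.gam_anti, hiso _ (b i).2 _ (b j).2, zero_smul])
    (fun i j => by rw [h.gam_anti, hx]; split_ifs <;> simp) hs (fun i => hΛ _ (hxΛ i))
  obtain ⟨ℓ, hℓ⟩ : ∃ ℓ : Module.Dual ℂ S, ℓ (Y s) ≠ 0 := by
    by_contra hn
    push Not at hn
    exact hY ((Module.forall_dual_apply_eq_zero_iff ℂ (Y s)).1 hn)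
  refine ⟨ℓ ∘ₗ Y, hℓ, fun y hy u => ?_⟩
  have hy' : y = ∑ j, b.repr ⟨y, hy⟩ j • (b j : ι → ℂ) := by
    have := congrArg Subtype.val (b.sum_repr ⟨y, hy⟩)
    rw [Submodule.coe_sum] at this
    exact this.symm
  have h0 : Y * gam γ y = 0 := by
    rw [hy', map_sum, Finset.mul_sum]
    refine Finset.sum_eq_zero fun j _ => ?_
    rw [map_smul, mul_smul_comm, hYc j, smul_zero]
  have h1 : Y (gam γ y u) = 0 := by
    have := congrArg (fun T : Module.End ℂ S => T u) h0
    simpa using this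
  simp [h1]

end Crest.Agent.R172.Q
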