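import Crest.Agent.R172.Q.PfRho

/-! R172/Q/PfExp (owner helper16): lifting `1 + A` -/

set_option autoImplicit false
set_option linter.unusedVariables false
set_option linter.unusedSectionVars false
open Matrix Sum Crest.AlgebraR.SpinSaturation

noncomputable section
namespace Crest.Agent.R172.Q
open Crest.Agent.R172.W

variable {ι : Type} [Fintype ι] [DecidableEq ι] {R : Type} [Ring R] [Algebra ℂ R] {σ : ι → ι} {γ : ι → R}

/-- `c p` anticommute, square to zero and commute with `r = ∑ p, c p * d p`.  Induction on a finset `t`: every element of the form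
`∑ p ∈ t, c p * d p`... simplest: let `P k` = span of `{(w.map c).prod * z | w : List ι, w.length = k}`; `r ^ k ∈ P k` (`r ^ (k+1) = ∑ p, c p * (r ^ k * d p)`);
a list longer than `card ι` is not `Nodup`, and `(w.map c).prod = 0` unless `w.Nodup` (`c p * (w.map c).prod = 0` for `p ∈ w`) -/
theorem pf_nil (c d : ι → R) (hc : ∀ p q, c p * c q + c q * c p = 0) (h : ∀ p, (∑ q, c q * d q) * c p = c p * ∑ q, c q * d q) :
    IsNilpotent (∑ q, c q * d q) := by
  have h0 : ∀ p, c p * c p = 0 := fun p => by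
    have e : (2 : ℂ) • (c p * c p) = 0 := by rw [two_smul]; exact hc p p
    exact (smul_eq_zero.1 e).resolve_left two_ne_zero
  have h1 : ∀ (w : List ι) p, p ∈ w → c p * (w.map c).prod = 0 := by
    intro w p
    induction w with
    | nil => simp
    | cons q w ih =>
      intro hp
      rw [List.map_cons, List.prod_cons, ← mul_assoc]
      rcases List.mem_cons.1 hp with rfl | hp
      · rw [h0, zero_mul]
      · rw [eq_neg_of_add_eq_zero_left (hc p q), neg_mul, mul_assoc, ih hp, mul_zero, neg_zero]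
  have h2 : ∀ w : List ι, ¬w.Nodup → (w.map c).prod = 0 := by
    intro w
    induction w with
    | nil => simp
    | cons q w ih =>
      intro hw
      rw [List.map_cons, List.prod_cons]
      by_cases hq : q ∈ w
      · exact h1 w q hq
      · rw [ih fun hn => hw (List.nodup_cons.2 ⟨hq, hn⟩), mul_zero]
  have h3 : ∀ (k : ℕ) (w : List ι), Fintype.card ι < w.length + k → (w.map c).prod * (∑ q, c q * d q) ^ k = 0 := by
    intro k
    induction k with
    | zero =>
      intro w hw
      rw [h2 w fun hn => absurd hn.length_le_card (not_le.2 hw), zero_mul]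
    | succ k ih =>
      intro w hw
      rw [pow_succ, ← mul_assoc, Finset.mul_sum]
      refine Finset.sum_eq_zero fun q _ => ?_
      have e := ih (w ++ [q]) (by rw [List.length_append, List.length_singleton]; omega)
      rw [List.map_append, List.prod_append, List.map_singleton, List.prod_singleton, mul_assoc,
        ← (Commute.pow_left (h q) k).eq] at e
      rw [← mul_assoc, mul_assoc (w.map c).prod, e, zero_mul]
  exact ⟨Fintype.card ι + 1, by simpa using h3 (Fintype.card ι + 1) [] (by simp)⟩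

theorem pf_exp_pow {r g g' : R} (h1 : r * g - g * r = g') (h2 : r * g' = g' * r) (k : ℕ) :
    r ^ (k + 1) * g = g * r ^ (k + 1) + ((k : ℂ) + 1) • (g' * r ^ k) := by
  have e : r * g = g * r + g' := by rw [← h1]; abel
  induction k with
  | zero => simp [e]
  | succ k ih =>
    rw [pow_succ' r (k + 1), mul_assoc, ih, mul_add, ← mul_assoc, e, mul_smul_comm, ← mul_assoc r g', h2, mul_assoc g' r,
      ← pow_succ' r k, add_mul, mul_assoc g r, ← pow_succ' r (k + 1)]
    push_cast
    rw [add_smul ((k : ℂ) + 1) 1, one_smul]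
    abel

/-- `r ^ k * g = g * r ^ k + k • g' * r ^ (k-1)`; `E = IsNilpotent.exp r` (`IsNilpotent.exp_eq_sum`, `IsNilpotent.isUnit_exp`; `Module ℚ R` from `Module.compHom`, or write
the finite sum by hand: `E = 1 + nilpotent`) -/
theorem pf_exp {r : R} (hr : IsNilpotent r) :
    ∃ E ∈ Algebra.adjoin ℂ {r}, IsUnit E ∧ ∀ g g' : R, r * g - g * r = g' → r * g' = g' * r → E * g = (g + g') * E := by
  obtain ⟨N, hN⟩ := hr
  have hsplit : ∑ k ∈ Finset.range (N + 1), ((k.factorial : ℂ))⁻¹ • r ^ k
      = 1 + ∑ k ∈ Finset.range N, (((k + 1).factorial : ℂ))⁻¹ • r ^ (k + 1) := by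
    rw [Finset.sum_range_succ', add_comm]; simp
  have hlast : ∑ k ∈ Finset.range (N + 1), ((k.factorial : ℂ))⁻¹ • r ^ k
      = ∑ k ∈ Finset.range N, ((k.factorial : ℂ))⁻¹ • r ^ k := by
    rw [Finset.sum_range_succ, hN, smul_zero, add_zero]
  refine ⟨∑ k ∈ Finset.range (N + 1), ((k.factorial : ℂ))⁻¹ • r ^ k, ?_, ?_, ?_⟩
  · refine Subalgebra.sum_mem _ fun k _ => Subalgebra.smul_mem _ (Subalgebra.pow_mem _ ?_ k) _
    exact Algebra.subset_adjoin (Set.mem_singleton r)
  · rw [hsplit]
    apply IsNilpotent.isUnit_one_add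
    have e : ∑ k ∈ Finset.range N, (((k + 1).factorial : ℂ))⁻¹ • r ^ (k + 1)
        = r * ∑ k ∈ Finset.range N, (((k + 1).factorial : ℂ))⁻¹ • r ^ k := by
      rw [Finset.mul_sum]
      exact Finset.sum_congr rfl fun k _ => by rw [mul_smul_comm, pow_succ']
    have hc : Commute r (∑ k ∈ Finset.range N, (((k + 1).factorial : ℂ))⁻¹ • r ^ k) :=
      Commute.sum_right _ _ _ fun k _ => ((Commute.refl r).pow_right k).smul_right _
    refine ⟨N, ?_⟩
    rw [e, hc.mul_pow, hN, zero_mul]
  · intro g g' h1 h2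
    rw [add_mul]
    nth_rewrite 3 [hlast]
    rw [hsplit, add_mul, mul_add, one_mul, mul_one, Finset.sum_mul, Finset.mul_sum, Finset.mul_sum, add_assoc,
      ← Finset.sum_add_distrib]
    congr 1
    refine Finset.sum_congr rfl fun k _ => ?_
    rw [smul_mul_assoc, pf_exp_pow h1 h2, smul_add, mul_smul_comm, mul_smul_comm, smul_smul]
    congr 2
    have h3 : (k.factorial : ℂ) ≠ 0 := by exact_mod_cast k.factorial_ne_zero
    have h4 : ((k : ℂ) + 1) ≠ 0 := by exact_mod_cast k.succ_ne_zero
    rw [Nat.factorial_succ]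
    push_cast
    field_simp

theorem Car.exp_gam_srho (γ : ι → R) (A : Matrix ι ι ℂ) :
    srho σ γ A = ∑ p, gam γ (fun q => A q p) * ((1 / 2 : ℂ) • γ (σ p)) := by
  rw [srho_apply, Finset.smul_sum]
  refine Finset.sum_congr rfl fun p _ => ?_
  rw [gam_apply, mul_smul_comm, Finset.sum_mul]
  congr 1
  exact Finset.sum_congr rfl fun q _ => by rw [smul_mul_assoc]

/-- `pf_nil` with `c p = gam (A e_p)` (`gam_anti`: `bs (A x) (A y) = - bs x (A A y) = 0`), `d p = 1/2 • γ (σ p)`, `rho_gam`; then `pf_exp` -/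
theorem Car.exp_gam (h : Car σ γ) {A : Matrix ι ι ℂ} (hA : Skew σ A) (h2 : A * A = 0) :
    ∃ E ∈ Algebra.adjoin ℂ {srho σ γ A}, IsUnit E ∧ ∀ x, E * gam γ x = gam γ ((1 + A) *ᵥ x) * E := by
  have hcol : ∀ p, A *ᵥ (fun q => A q p) = 0 := by
    intro p
    funext s
    have := congrFun (congrFun h2 s) p
    simpa [Matrix.mul_apply, Matrix.mulVec, dotProduct] using this
  have hbs : ∀ p q, bs σ (fun s => A s p) (fun s => A s q) = 0 := by
    intro p q
    have e := congrFun (congrFun h2 (σ p)) q
    simp only [Matrix.mul_apply, Matrix.zero_apply] at e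
    have e2 : ∑ s, A (σ p) (σ s) * A (σ s) q = ∑ s, A (σ p) s * A s q :=
      Equiv.sum_comp (Function.Involutive.toPerm σ h.inv) (fun s => A (σ p) s * A s q)
    unfold bs
    have e3 : ∀ s, A s p * A (σ s) q = -(A (σ p) (σ s) * A (σ s) q) := fun s => by rw [hA s p]; ring
    simp only [e3, Finset.sum_neg_distrib, e2, e, neg_zero]
  have hnil : IsNilpotent (srho σ γ A) := by
    rw [Car.exp_gam_srho]
    refine pf_nil _ _ (fun p q => ?_) (fun p => ?_)
    · rw [h.gam_anti, hbs, zero_smul]
    · rw [← Car.exp_gam_srho]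
      have := h.rho_gam hA (fun q => A q p)
      rw [hcol, map_zero] at this
      exact sub_eq_zero.mp this
  obtain ⟨E, hE, hu, hc⟩ := pf_exp hnil
  refine ⟨E, hE, hu, fun x => ?_⟩
  have h3 := h.rho_gam hA (A *ᵥ x)
  rw [Matrix.mulVec_mulVec, h2, Matrix.zero_mulVec, map_zero] at h3
  rw [hc _ _ (h.rho_gam hA x) (sub_eq_zero.mp h3), Matrix.add_mulVec, Matrix.one_mulVec, map_add]

end Crest.Agent.R172.Q
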