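import Crest.Agent.R172.Q.PfOt

/-! R172/Q/PfHW (owner helper16): the vacuum is a highest weight vector; the covacuum is invariant -/

set_option autoImplicit false
set_option linter.unusedVariables false
set_option linter.unusedSectionVars false
open Matrix Sum Crest.AlgebraR.SpinSaturation

noncomputable section
namespace Crest.Agent.R172.Q
open Crest.Agent.R172.W

variable {n : ℕ} {l : Fin 3 → ℕ} {S : Type} [AddCommGroup S] [Module ℂ S] {γ : L n × K l → Module.End ℂ S}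

theorem vac_H_count (N m : ℕ) (hm : m ≤ N) :
    ∑ k : Fin N, (if (k : ℕ) < m then (1 / 2 : ℂ) else -(1 / 2)) = (m : ℂ) - (N : ℂ) / 2 := by
  rw [Fin.sum_univ_eq_sum_range (fun k => if k < m then (1 / 2 : ℂ) else -(1 / 2)) N]
  induction N, hm using Nat.le_induction with
  | base =>
    rw [Finset.sum_congr rfl (g := fun _ => (1 / 2 : ℂ)) (fun k hk => if_pos (Finset.mem_range.1 hk))]
    simp only [Finset.sum_const, Finset.card_range, nsmul_eq_mul]
    ring
  | succ N hN ih =>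
    rw [Finset.sum_range_succ, ih, if_neg (by omega)]
    push_cast
    ring

/-- `srho_ot`; the term `k` is `+1/2` if `2 k < l i + a i j` (anticommute, `Car.anti`), else `-1/2` (`Adm.xor`); the number of `k : Fin (l i)` with `2 k < l i + a i j`
is `(l i + a i j) / 2` (`Adm.par`, `Adm.le`) -/
theorem vac_H (h : Car sg2 γ) {a : Fin 3 → Wt n} (ha : Adm a l) {v : S}
    (hv : ∀ p (k : K l), 2 * ((k.2 : ℕ) : ℤ) < (l k.1 : ℤ) + sc (a k.1) p → γ (p, k) v = 0) (i : Fin 3) (j : Fin n) :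
    srho sg2 γ (ot l i (Xm (inl j) (inl j))) v = ((a i j : ℂ) / 2) • v := by
  obtain ⟨r, hr⟩ := ha.par i j
  have hle := abs_le.1 (ha.le i j)
  obtain ⟨m, hm⟩ : ∃ m : ℕ, (l i : ℤ) + a i j = 2 * (m : ℤ) := ⟨((l i : ℤ) - r).toNat, by omega⟩
  have hmN : m ≤ l i := by omega
  rw [srho_ot h, LinearMap.sum_apply]
  have key : ∀ k : Fin (l i),
      (γ (inl j, ⟨i, k⟩) * γ ((inl j : L n).swap, ⟨i, k.rev⟩) -
        if (inl j : L n) = inl j then (1 / 2 : ℂ) • (1 : Module.End ℂ S) else 0) v =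
      (if (k : ℕ) < m then (1 / 2 : ℂ) else -(1 / 2)) • v := by
    intro k
    rw [if_pos rfl, LinearMap.sub_apply, LinearMap.smul_apply, Module.End.one_apply, Module.End.mul_apply]
    by_cases hk : (k : ℕ) < m
    · have h0 : γ (inl j, ⟨i, k⟩) v = 0 := hv (inl j) ⟨i, k⟩ (by
        show 2 * ((k : ℕ) : ℤ) < (l i : ℤ) + a i j
        omega)
      have h1 := h.anti (inl j, ⟨i, k⟩) ((inl j : L n).swap, ⟨i, k.rev⟩)
      rw [if_pos (by rfl)] at h1
      have h2 := congrArg (fun f : Module.End ℂ S => f v) h1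
      simp only [LinearMap.add_apply, Module.End.mul_apply, h0, map_zero, add_zero, Module.End.one_apply] at h2
      rw [h2, if_pos hk]
      module
    · have h0 : γ ((inl j : L n).swap, ⟨i, k.rev⟩) v = 0 := hv _ ⟨i, k.rev⟩ (by
        show 2 * (((k.rev : Fin (l i)) : ℕ) : ℤ) < (l i : ℤ) + -a i j
        have := k.2
        rw [Fin.val_rev]
        omega)
      rw [h0, map_zero, if_neg hk]
      module
  rw [Finset.sum_congr rfl (fun k _ => key k), ← Finset.sum_smul, vac_H_count _ _ hmN]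
  congr 1
  have hc : ((l i : ℕ) : ℂ) + (a i j : ℂ) = 2 * (m : ℂ) := by exact_mod_cast hm
  linear_combination (-1 / 2 : ℂ) * hc

/-- `srho_ot`; `p = inl t.1 ≠ q = l2 t`, so the two factors anticommute; one of them kills `v` because `sc a p + sc a q.swap ≥ 0` (`Dom`) -/
theorem vac_E (h : Car sg2 γ) {a : Fin 3 → Wt n} (ha : Adm a l) {v : S}
    (hv : ∀ p (k : K l), 2 * ((k.2 : ℕ) : ℤ) < (l k.1 : ℤ) + sc (a k.1) p → γ (p, k) v = 0) (i : Fin 3) {t : Rt n} (ht : t ∈ pr n) :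
    srho sg2 γ (ot l i (Xm (inl t.1) (l2 t))) v = 0 := by
  have ht' : t.1 < t.2.1 := (Finset.mem_filter.1 ht).2
  have hne : (inl t.1 : L n) ≠ l2 t := by
    unfold l2
    split_ifs
    · intro e
      exact absurd (Sum.inl_injective e) ht'.ne
    · exact Sum.inl_ne_inr
  have hd := ha.dom i t.1 t.2.1 ht'
  have hsum : 0 ≤ sc (a i) (inl t.1) + sc (a i) (l2 t).swap := by
    have h1 := abs_le.1 hd
    unfold l2
    split_ifs
    · simp only [sc, Sum.swap_inl, Sum.elim_inl, Sum.elim_inr]; linarith [h1.2]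
    · simp only [sc, Sum.swap_inr, Sum.elim_inl]; linarith [h1.1]
  rw [srho_ot h, LinearMap.sum_apply]
  refine Finset.sum_eq_zero fun k _ => ?_
  rw [if_neg hne, sub_zero]
  by_cases hk : 2 * (((k.rev : Fin (l i)) : ℕ) : ℤ) < (l i : ℤ) + sc (a i) (l2 t).swap
  · rw [Module.End.mul_apply, hv _ ⟨i, k.rev⟩ hk, map_zero]
  · have h0 : γ (inl t.1, ⟨i, k⟩) v = 0 := by
      refine hv _ ⟨i, k⟩ ?_
      have e : ((k.rev : Fin (l i)) : ℕ) + k + 1 = l i := by
        rw [Fin.val_rev]; have := k.2; omega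
      show 2 * ((k : ℕ) : ℤ) < (l i : ℤ) + sc (a i) (inl t.1)
      omega
    have h1 := h.anti (inl t.1, ⟨i, k⟩) ((l2 t).swap, ⟨i, k.rev⟩)
    rw [if_neg] at h1
    · rw [eq_neg_of_add_eq_zero_left h1, LinearMap.neg_apply, Module.End.mul_apply, h0, map_zero, neg_zero]
    · intro e
      have e1 : (l2 t).swap = (inl t.1 : L n).swap := congrArg Prod.fst e
      exact hne (Sum.swap_leftInverse.injective e1).symm

/-- `P` = matrix of a projection onto `T` (`Submodule.exists_isCompl`, or `LinearMap.exists_extend T.subtype`-type lemma, `LinearMap.toMatrix'`);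
`bV (row) y = ((1 - P) *ᵥ y) k = 0` for `y ∈ T` -/
theorem lag_proj {T : Submodule ℂ (K l → ℂ)} (hT : IsLag T) :
    ∃ P : Matrix (K l) (K l) ℂ, (∀ j, (fun k => P k j) ∈ T) ∧ ∀ k, (fun k' => (1 - P) k (rv k')) ∈ T := by
  obtain ⟨f, hf⟩ := LinearMap.exists_extend (p := T) (LinearMap.id : T →ₗ[ℂ] T)
  have hf' : ∀ y ∈ T, (f y : K l → ℂ) = y := fun y hy => by
    have := LinearMap.congr_fun hf ⟨y, hy⟩
    exact congrArg Subtype.val this
  refine ⟨LinearMap.toMatrix' (T.subtype ∘ₗ f), fun j => ?_, fun k => ?_⟩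
  · have : (fun k => LinearMap.toMatrix' (T.subtype ∘ₗ f) k j) = (f (Pi.single j 1) : K l → ℂ) := by
      funext k
      rw [LinearMap.toMatrix'_apply]
      rfl
    rw [this]
    exact (f _).2
  · refine (hT _).2 fun y hy => ?_
    have e : bV (fun k' => (1 - LinearMap.toMatrix' (T.subtype ∘ₗ f)) k (rv k')) y =
        ((1 - LinearMap.toMatrix' (T.subtype ∘ₗ f)) *ᵥ y) k := by
      unfold bV
      exact Fintype.sum_equiv (Function.Involutive.toPerm rv rv_rv) _ _ fun _ => rfl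
    rw [e, Matrix.sub_mulVec, Matrix.one_mulVec, LinearMap.toMatrix'_mulVec, LinearMap.comp_apply, Submodule.subtype_apply, hf' y hy, sub_self]
    rfl

theorem cov_inv_rv (k : K l) : rv (rv k) = k := by
  rcases k with ⟨i, k⟩
  simp [rv]

theorem cov_inv_row {T : Submodule ℂ (K l → ℂ)} (Φ : S →ₗ[ℂ] ℂ)
    (hΦ : ∀ φ ∈ ten (⊤ : Submodule ℂ (L n → ℂ)) T, ∀ u, Φ (gam γ (unc φ) u) = 0) (r : L n) {y : K l → ℂ} (hy : y ∈ T) (u : S) :
    ∑ k, y k * Φ (γ (r, k) u) = 0 := by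
  have h1 := hΦ (Matrix.of fun p k => if p = r then y k else 0) ⟨fun k => Submodule.mem_top, fun p => by
    by_cases e : p = r
    · simpa [e] using hy
    · simp only [Matrix.of_apply, e, if_false]
      exact T.zero_mem⟩ u
  rw [gam_apply, Fintype.sum_prod_type, Finset.sum_eq_single r] at h1
  · simpa [unc, LinearMap.sum_apply, map_sum] using h1
  · intro p _ hp
    simp [unc, hp]
  · simp

theorem cov_inv_pair (h : Car sg2 γ) {T : Submodule ℂ (K l → ℂ)} (hT : IsLag T) (Φ : S →ₗ[ℂ] ℂ)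
    (hΦ : ∀ φ ∈ ten (⊤ : Submodule ℂ (L n → ℂ)) T, ∀ u, Φ (gam γ (unc φ) u) = 0) (u : S) :
    ∃ τ : ℂ, ∀ q p : L n, ∑ k : K l, Φ (γ (q, k) (γ (p.swap, rv k) u)) = if p = q then τ else 0 := by
  obtain ⟨P, hP1, hP2⟩ := lag_proj hT
  refine ⟨(∑ k, (1 - P) k k) * Φ u, fun q p => ?_⟩
  have e1 : ∀ k : K l, Φ (γ (q, k) (γ (p.swap, rv k) u)) =
      ∑ j, P k j * Φ (γ (q, k) (γ (p.swap, rv j) u)) + ∑ j, (1 - P) k j * Φ (γ (q, k) (γ (p.swap, rv j) u)) := by
    intro k
    rw [← Finset.sum_add_distrib, Finset.sum_eq_single k]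
    · simp only [Matrix.sub_apply, Matrix.one_apply_eq]; ring
    · intro j _ hj
      simp only [Matrix.sub_apply, Matrix.one_apply_ne hj.symm]; ring
    · simp
  have e2 : ∑ k, ∑ j, P k j * Φ (γ (q, k) (γ (p.swap, rv j) u)) = 0 := by
    rw [Finset.sum_comm]
    exact Finset.sum_eq_zero fun j _ => cov_inv_row Φ hΦ q (hP1 j) _
  have e3 : ∀ k : K l, ∑ j, (1 - P) k j * Φ (γ (q, k) (γ (p.swap, rv j) u)) = if p = q then (1 - P) k k * Φ u else 0 := by
    intro k
    have a1 : ∀ j : K l, Φ (γ (q, k) (γ (p.swap, rv j) u)) =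
        (if p = q ∧ j = k then Φ u else 0) - Φ (γ (p.swap, rv j) (γ (q, k) u)) := by
      intro j
      have a := congrArg (fun f : Module.End ℂ S => Φ (f u)) (h.anti (q, k) (p.swap, rv j))
      simp only [LinearMap.add_apply, Module.End.mul_apply, map_add] at a
      have c : ((p.swap, rv j) = sg2 (q, k)) ↔ (p = q ∧ j = k) := by
        simp only [sg2, Prod.mk.injEq]
        constructor
        · rintro ⟨c1, c2⟩
          refine ⟨by simpa using congrArg Sum.swap c1, ?_⟩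
          have := congrArg rv c2
          rwa [cov_inv_rv, cov_inv_rv] at this
        · rintro ⟨rfl, rfl⟩
          exact ⟨rfl, rfl⟩
      rw [eq_sub_iff_add_eq, a]
      by_cases c' : p = q ∧ j = k
      · rw [if_pos (c.2 c'), if_pos c']; rfl
      · rw [if_neg (fun z => c' (c.1 z)), if_neg c']; simp
    have a2 : ∑ j, (1 - P) k j * Φ (γ (p.swap, rv j) (γ (q, k) u)) = 0 := by
      have := cov_inv_row Φ hΦ p.swap (hP2 k) (γ (q, k) u)
      rw [← this]
      refine Fintype.sum_bijective rv (Function.Involutive.bijective cov_inv_rv) _ _ fun j => ?_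
      rw [cov_inv_rv]
    simp only [a1, mul_sub, Finset.sum_sub_distrib, a2, sub_zero]
    by_cases e : p = q
    · simp [e]
    · simp [e]
  rw [Finset.sum_congr rfl fun k _ => e1 k, Finset.sum_add_distrib, e2, zero_add, Finset.sum_congr rfl fun k _ => e3 k]
  by_cases e : p = q
  · simp only [e, if_true, Finset.sum_mul]
  · simp [e]

theorem cov_inv_tr (Y : soD n) : ∑ p, (Y : Matrix (L n) (L n) ℂ) p p = 0 := by
  have h1 : ∑ p, (Y : Matrix (L n) (L n) ℂ) p p = ∑ p : L n, -(Y : Matrix (L n) (L n) ℂ) p p :=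
    Fintype.sum_bijective Sum.swap (Function.Involutive.bijective Sum.swap_swap) _ _ fun p => mem_typeD.1 Y.2 p p
  rw [Finset.sum_neg_distrib] at h1
  linear_combination (1 / 2 : ℂ) * h1

/-- the operator is `1/2 ∑ p q, Y q p • ∑ k, γ (q,k) * γ (p.swap, rv k)` and `∑ k, γ (q,k) * γ (p', rv k) = ∑ j, gam (e_q ⊗ P_j) * γ (p', rv j) + ∑ k, γ (q,k) * gam (e_p' ⊗ w_k)`,
`w_k k' = (1 - P) k (rv k')` (`lag_proj`); anticommute the second sum (`Car.anti`): the scalar is `[p = q] * trace (1 - P)`, and `∑ p, Y p p = 0` (`mem_typeD`) -/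
theorem cov_inv (h : Car sg2 γ) {T : Submodule ℂ (K l → ℂ)} (hT : IsLag T) (Φ : S →ₗ[ℂ] ℂ)
    (hΦ : ∀ φ ∈ ten (⊤ : Submodule ℂ (L n → ℂ)) T, ∀ u, Φ (gam γ (unc φ) u) = 0) (Y : soD n) (u : S) :
    Φ ((srho sg2 γ (ot l 0 (Y : Matrix (L n) (L n) ℂ)) + srho sg2 γ (ot l 1 (Y : Matrix (L n) (L n) ℂ)) +
      srho sg2 γ (ot l 2 (Y : Matrix (L n) (L n) ℂ))) u) = 0 := by
  obtain ⟨τ, hτ⟩ := cov_inv_pair h hT Φ hΦ u
  have hA : ∀ x y : L n × K l, (ot l 0 (Y : Matrix (L n) (L n) ℂ) + ot l 1 (Y : Matrix (L n) (L n) ℂ) +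
      ot l 2 (Y : Matrix (L n) (L n) ℂ)) x y = if x.2 = y.2 then (Y : Matrix (L n) (L n) ℂ) x.1 y.1 else 0 := by
    intro x y
    simp only [Matrix.add_apply, ot_apply]
    by_cases e : x.2 = y.2
    · obtain ⟨a, ⟨i, k⟩⟩ := x
      fin_cases i <;> simp [← e]
    · simp [e]
  rw [← map_add, ← map_add, srho_apply]
  simp only [hA, LinearMap.smul_apply, LinearMap.sum_apply, map_smul, map_sum, Module.End.mul_apply, smul_eq_mul]
  refine mul_eq_zero_of_right _ ?_
  have e1 : ∀ (p : L n) (k : K l), ∑ y : L n × K l, (if y.2 = (p, k).2 then (Y : Matrix (L n) (L n) ℂ) y.1 (p, k).1 else 0) *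
      Φ (γ y (γ (sg2 (p, k)) u)) = ∑ q, (Y : Matrix (L n) (L n) ℂ) q p * Φ (γ (q, k) (γ (p.swap, rv k) u)) := by
    intro p k
    rw [Fintype.sum_prod_type]
    refine Finset.sum_congr rfl fun q _ => ?_
    rw [Finset.sum_eq_single k]
    · simp [sg2]
    · intro j _ hj
      simp [hj]
    · simp
  rw [Fintype.sum_prod_type]
  simp only [e1]
  have e2 : ∀ p : L n, ∑ k : K l, ∑ q, (Y : Matrix (L n) (L n) ℂ) q p * Φ (γ (q, k) (γ (p.swap, rv k) u)) =
      (Y : Matrix (L n) (L n) ℂ) p p * τ := by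
    intro p
    rw [Finset.sum_comm]
    simp only [← Finset.mul_sum, hτ]
    rw [Finset.sum_eq_single p]
    · simp
    · intro q _ hq
      simp [hq.symm]
    · simp
  simp only [e2, ← Finset.sum_mul, cov_inv_tr, zero_mul]

end Crest.Agent.R172.Q
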