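import Crest.Agent.R172.Q.PfComm
import Crest.Agent.R172.Q.PfExp
import Crest.Agent.R172.Q.PfHW
import Crest.Agent.R172.Q.PfCov

/-! R172/Q/PF (owner helper16): `S_PF` -/

set_option autoImplicit false
set_option linter.unusedVariables false
set_option linter.unusedSectionVars false
open Matrix Sum Crest.AlgebraR.SpinSaturation

noncomputable section
namespace Crest.Agent.R172.Q
open Crest.Agent.R172.W
variable {n : ℕ} {l : Fin 3 → ℕ} {S : Type} [AddCommGroup S] [Module ℂ S] {γ : L n × K l → Module.End ℂ S}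

/-- the action of the block `i` -/
def pfρ (γ : L n × K l → Module.End ℂ S) (i : Fin 3) : soD n →ₗ[ℂ] Module.End ℂ S :=
  (srho sg2 γ) ∘ₗ (ot l i) ∘ₗ (⟨⟨fun Y => (Y : Matrix (L n) (L n) ℂ), fun _ _ => rfl⟩, fun _ _ => rfl⟩ : soD n →ₗ[ℂ] Matrix (L n) (L n) ℂ)

theorem pfρ_apply (i : Fin 3) (Y : soD n) : pfρ γ i Y = srho sg2 γ (ot l i (Y : Matrix (L n) (L n) ℂ)) := rfl

theorem pf_lift (h : Car sg2 γ) (i : Fin 3) {g : Matrix (L n) (L n) ℂ} (hg : g ∈ Gp n) :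
    ∃ E ∈ Algebra.adjoin ℂ (Set.range (pfρ γ i)), IsUnit E ∧ ∀ x, E * gam γ x = gam γ ((1 + ot l i (g - 1)) *ᵥ x) * E := by
  induction hg using Submonoid.closure_induction with
  | mem g hg =>
    obtain ⟨e, he, h2, rfl⟩ := hg
    obtain ⟨E, hE, hu, hx⟩ := h.exp_gam (ot_skew (l := l) i ⟨e, he⟩) (by rw [ot_mul]; simp [h2])
    refine ⟨E, Algebra.adjoin_mono ?_ hE, hu, fun x => ?_⟩
    · rintro _ rfl
      exact ⟨⟨e, he⟩, rfl⟩
    · rw [add_sub_cancel_left]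
      exact hx x
  | one => exact ⟨1, Subalgebra.one_mem _, isUnit_one, fun x => by simp⟩
  | mul g g' _ _ ih ih' =>
    obtain ⟨E, hE, hu, hx⟩ := ih
    obtain ⟨E', hE', hu', hx'⟩ := ih'
    refine ⟨E * E', Subalgebra.mul_mem _ hE hE', hu.mul hu', fun x => ?_⟩
    rw [mul_assoc, hx', ← mul_assoc, hx, mul_assoc, mulVec_mulVec]
    congr 3
    rw [add_mul, mul_add, mul_add, one_mul, one_mul, mul_one, ot_mul, add_assoc, ← map_add, ← map_add]
    congr 2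
    noncomm_ring

set_option maxHeartbeats 400000 in
theorem s_PF : S_PF := by
  intro n a l ha g hg T hT hH U V W
  classical
  obtain ⟨S, _, _, _, _, γ, h⟩ := exists_car (ι := L n × K l) sg2 sg2_sg2
  obtain ⟨v, hv0, hv⟩ := exists_vac
    (κ := {x : L n × K l // 2 * ((x.2.2 : ℕ) : ℤ) < (l x.2.1 : ℤ) + sc (a x.2.1) x.1}) (fun x => γ x.1) fun x y => by
      rw [h.anti, if_neg]
      intro e
      have h1 := (ha.xor x.1.1 x.1.2).2
      have h2 := y.2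
      rw [e] at h2
      exact absurd (h1 (not_le.2 h2)) (not_le.2 x.2)
  have hv' : ∀ p (k : K l), 2 * ((k.2 : ℕ) : ℤ) < (l k.1 : ℤ) + sc (a k.1) p → γ (p, k) v = 0 := fun p k e => hv ⟨(p, k), e⟩
  have hv2 : ∀ φ ∈ Lam0 a l, gam γ (unc φ) v = 0 := fun φ hφ => by
    rw [gam_apply, LinearMap.sum_apply]
    refine Finset.sum_eq_zero fun x _ => ?_
    rw [LinearMap.smul_apply]
    rcases le_or_gt ((l x.2.1 : ℤ) + sc (a x.2.1) x.1) (2 * ((x.2.2 : ℕ) : ℤ)) with e | e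
    · rw [show unc φ x = 0 from hφ x.1 x.2 e, zero_smul]
    · rw [hv' x.1 x.2 e, smul_zero]
  choose E hE hu hx using fun i => pf_lift h i (hg i)
  let un : Matrix (L n) (K l) ℂ →ₗ[ℂ] (L n × K l → ℂ) := ⟨⟨unc, fun _ _ => rfl⟩, fun _ _ => rfl⟩
  have hs : (E 0 * E 1 * E 2) v ≠ 0 := fun e => hv0 (by
    obtain ⟨u, hu⟩ := ((hu 0).mul (hu 1)).mul (hu 2)
    have : ((↑u⁻¹ : Module.End ℂ S) * ↑u) v = 0 := by rw [Module.End.mul_apply, hu, e, map_zero]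
    simpa using this)
  obtain ⟨Φ, hΦ, hΦ'⟩ := exists_cov h ((Lam g a l).map un) ((ten ⊤ T).map un) (s := (E 0 * E 1 * E 2) v) (by
      rintro _ ⟨φ, hφ, rfl⟩ _ ⟨ψ, hψ, rfl⟩
      exact (bs_unc φ ψ).trans (ten_iso hT hφ hψ)) (by
      rintro _ ⟨φ, hφ, rfl⟩ e
      have h1 : φ ∈ H g a T := ⟨(mem_Lam_iff ha hg φ).2 fun ψ hψ => (bs_unc ψ φ).symm.trans (e _ ⟨ψ, hψ, rfl⟩), hφ⟩
      rw [hH, Submodule.mem_bot] at h1
      rw [h1, map_zero]) hs (by
      rintro _ ⟨_, ⟨φ, hφ, rfl⟩, rfl⟩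
      have e : gam γ (unc (mv g φ)) * (E 0 * E 1 * E 2) = E 0 * E 1 * E 2 * gam γ (unc φ) := by
        symm
        rw [mul_assoc (E 0 * E 1), hx 2, ← mul_assoc (E 0 * E 1), mul_assoc (E 0) (E 1), hx 1, ← mul_assoc (E 0), hx 0, ot_mv]
        simp only [mul_assoc]
      change (gam γ (unc (mv g φ)) * (E 0 * E 1 * E 2)) v = 0
      rw [e, Module.End.mul_apply, hv2 φ hφ, map_zero])
  refine hasInvariant_of_comm (pfρ γ) (fun i Y Z => ?_) (fun i j hij Y Z => ?_) a ha.dom v (fun i j => by rw [pfρ_apply]; exact vac_H h ha hv' i j)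
    (fun i t ht => by rw [pfρ_apply]; exact vac_E h ha hv' i ht) Φ (fun Y s => by
      simp only [pfρ_apply]; exact cov_inv h hT Φ (fun φ hφ u => hΦ' _ ⟨φ, hφ, rfl⟩ u) Y s) E hE hΦ U V W
  · rw [pfρ_apply, pfρ_apply, pfρ_apply, h.rho_lie (ot_skew i Y), ot_mul, ot_mul, ← map_sub]
    rfl
  · rw [← sub_eq_zero, pfρ_apply, pfρ_apply, h.rho_lie (ot_skew i Y), ot_mul_ne hij, ot_mul_ne hij.symm, sub_zero, map_zero]

end Crest.Agent.R172.Q
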