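import Crest.Agent.R172.Q.PfCyc

/-! R172/Q/PfComm (owner helper16): three commuting actions -/

set_option autoImplicit false
set_option linter.unusedVariables false
set_option linter.unusedSectionVars false
open Matrix Sum Crest.AlgebraR.SpinSaturation

noncomputable section
namespace Crest.Agent.R172.Q
open Crest.Agent.R172.W

open TensorProduct
variable {n : ℕ}

section hoc
variable {S : Type} [AddCommGroup S] [Module ℂ S]

/-- the cyclic submodule -/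
def hocSub (ρ : soD n →ₗ[ℂ] Module.End ℂ S) (v : S) : Submodule ℂ S where
  carrier := {u | ∃ B ∈ Algebra.adjoin ℂ (Set.range ρ), B v = u}
  add_mem' := by
    rintro _ _ ⟨B, hB, rfl⟩ ⟨C, hC, rfl⟩
    exact ⟨B + C, add_mem hB hC, rfl⟩
  zero_mem' := ⟨0, zero_mem _, rfl⟩
  smul_mem' := by
    rintro c _ ⟨B, hB, rfl⟩
    exact ⟨c • B, Subalgebra.smul_mem _ hB c, rfl⟩

theorem hoc_gen (ρ : soD n →ₗ[ℂ] Module.End ℂ S) (Y : soD n) : ρ Y ∈ Algebra.adjoin ℂ (Set.range ρ) :=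
  Algebra.subset_adjoin ⟨Y, rfl⟩

theorem hocSub_stab (ρ : soD n →ₗ[ℂ] Module.End ℂ S) (v : S) (Y : soD n) {u : S} (hu : u ∈ hocSub ρ v) :
    ρ Y u ∈ hocSub ρ v := by
  obtain ⟨B, hB, rfl⟩ := hu
  exact ⟨ρ Y * B, mul_mem (hoc_gen ρ Y) hB, rfl⟩

/-- the cyclic module -/
def HocCy (ρ : soD n →ₗ[ℂ] Module.End ℂ S) (hlie : ∀ Y Z, ρ ⁅Y, Z⁆ = ρ Y * ρ Z - ρ Z * ρ Y) (v : S) : Type :=
  ↥(hocSub ρ v)

variable (ρ : soD n →ₗ[ℂ] Module.End ℂ S) (hlie : ∀ Y Z, ρ ⁅Y, Z⁆ = ρ Y * ρ Z - ρ Z * ρ Y) (v : S)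

instance : AddCommGroup (HocCy ρ hlie v) := inferInstanceAs (AddCommGroup ↥(hocSub ρ v))
instance : Module ℂ (HocCy ρ hlie v) := inferInstanceAs (Module ℂ ↥(hocSub ρ v))
instance [FiniteDimensional ℂ S] : FiniteDimensional ℂ (HocCy ρ hlie v) :=
  inferInstanceAs (FiniteDimensional ℂ ↥(hocSub ρ v))

/-- the inclusion -/
def hocVal : HocCy ρ hlie v →ₗ[ℂ] S := (hocSub ρ v).subtype

theorem hocVal_inj : Function.Injective (hocVal ρ hlie v) := Subtype.val_injective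

theorem hocVal_mem (u : HocCy ρ hlie v) : ∃ B ∈ Algebra.adjoin ℂ (Set.range ρ), B v = hocVal ρ hlie v u :=
  (show ↥(hocSub ρ v) from u).2

/-- constructor -/
def hocMk (B : Module.End ℂ S) (hB : B ∈ Algebra.adjoin ℂ (Set.range ρ)) : HocCy ρ hlie v :=
  (⟨B v, B, hB, rfl⟩ : ↥(hocSub ρ v))

theorem hocVal_mk (B : Module.End ℂ S) (hB : B ∈ Algebra.adjoin ℂ (Set.range ρ)) :
    hocVal ρ hlie v (hocMk ρ hlie v B hB) = B v := rfl

instance : Bracket (soD n) (HocCy ρ hlie v) where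
  bracket Y u := (⟨ρ Y (hocVal ρ hlie v u), hocSub_stab ρ v Y (hocVal_mem ρ hlie v u)⟩ : ↥(hocSub ρ v))

theorem hocVal_lie (Y : soD n) (u : HocCy ρ hlie v) : hocVal ρ hlie v ⁅Y, u⁆ = ρ Y (hocVal ρ hlie v u) := rfl

instance : LieRingModule (soD n) (HocCy ρ hlie v) where
  add_lie Y Z u := hocVal_inj ρ hlie v (by
    rw [map_add, hocVal_lie, hocVal_lie, hocVal_lie, map_add, LinearMap.add_apply])
  lie_add Y u w := hocVal_inj ρ hlie v (by
    rw [map_add, hocVal_lie, hocVal_lie, hocVal_lie, map_add, map_add])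
  leibniz_lie Y Z u := hocVal_inj ρ hlie v (by
    rw [map_add, hocVal_lie, hocVal_lie, hocVal_lie, hocVal_lie, hocVal_lie, hlie, LinearMap.sub_apply,
      Module.End.mul_apply, Module.End.mul_apply, sub_add_cancel])

instance : LieModule ℂ (soD n) (HocCy ρ hlie v) where
  smul_lie c Y u := hocVal_inj ρ hlie v (by
    rw [map_smul, hocVal_lie, hocVal_lie, map_smul, LinearMap.smul_apply])
  lie_smul c Y u := hocVal_inj ρ hlie v (by
    rw [map_smul, hocVal_lie, hocVal_lie, map_smul, map_smul])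

theorem hoc_cyc (a : Wt n) (hv : v ≠ 0) (hH : ∀ j, ρ (X (inl j) (inl j)) v = ((a j : ℂ) / 2) • v)
    (hE : ∀ t ∈ pr n, ρ (X (inl t.1) (l2 t)) v = 0) : CycHW a (hocMk ρ hlie v 1 (one_mem _)) where
  ne h := hv (by simpa [hocVal_mk] using congrArg (hocVal ρ hlie v) h)
  wv j := hocVal_inj ρ hlie v (by
    rw [hocVal_lie, map_smul, hocVal_mk, Module.End.one_apply, hH])
  pos t ht := hocVal_inj ρ hlie v (by
    rw [hocVal_lie, hocVal_mk, Module.End.one_apply, hE t ht, map_zero])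
  cyc N hN := by
    have key : ∀ B ∈ Algebra.adjoin ℂ (Set.range ρ), ∀ w ∈ N, ∃ w' ∈ N, hocVal ρ hlie v w' = B (hocVal ρ hlie v w) := by
      intro B hB
      induction hB using Algebra.adjoin_induction with
      | mem x hx =>
        obtain ⟨Y, rfl⟩ := hx
        intro w hw
        exact ⟨⁅Y, w⁆, N.lie_mem hw, rfl⟩
      | algebraMap c =>
        intro w hw
        exact ⟨c • w, N.smul_mem c hw, by rw [map_smul]; rfl⟩
      | add x y _ _ hx hy =>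
        intro w hw
        obtain ⟨w1, h1, e1⟩ := hx w hw
        obtain ⟨w2, h2, e2⟩ := hy w hw
        exact ⟨w1 + w2, N.add_mem h1 h2, by rw [map_add, e1, e2, LinearMap.add_apply]⟩
      | mul x y _ _ hx hy =>
        intro w hw
        obtain ⟨w2, h2, e2⟩ := hy w hw
        obtain ⟨w1, h1, e1⟩ := hx w2 h2
        exact ⟨w1, h1, by rw [e1, e2, Module.End.mul_apply]⟩
    rw [eq_top_iff]
    intro u _
    obtain ⟨B, hB, e⟩ := hocVal_mem ρ hlie v u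
    obtain ⟨w', h', e'⟩ := key B hB _ hN
    rw [hocVal_mk, Module.End.one_apply, e] at e'
    rwa [← hocVal_inj ρ hlie v e']

theorem hoc_sec : ∃ s : HocCy ρ hlie v →ₗ[ℂ] Module.End ℂ S,
    ∀ x, s x ∈ Algebra.adjoin ℂ (Set.range ρ) ∧ s x v = hocVal ρ hlie v x := by
  let P : Submodule ℂ (Module.End ℂ S) := Subalgebra.toSubmodule (Algebra.adjoin ℂ (Set.range ρ))
  let f : ↥P →ₗ[ℂ] HocCy ρ hlie v :=
    { toFun := fun B => hocMk ρ hlie v B.1 B.2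
      map_add' := fun B C => hocVal_inj ρ hlie v (by rw [map_add]; rfl)
      map_smul' := fun c B => hocVal_inj ρ hlie v (by rw [map_smul]; rfl) }
  have hf : LinearMap.range f = ⊤ := by
    rw [eq_top_iff]
    intro u _
    obtain ⟨B, hB, e⟩ := hocVal_mem ρ hlie v u
    exact ⟨⟨B, hB⟩, hocVal_inj ρ hlie v e⟩
  obtain ⟨g, hg⟩ := f.exists_rightInverse_of_surjective hf
  refine ⟨P.subtype ∘ₗ g, fun x => ⟨(g x).2, ?_⟩⟩
  have := congrArg (hocVal ρ hlie v) (LinearMap.congr_fun hg x)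
  exact this

end hoc

/-- `𝒜 i = Algebra.adjoin ℂ (range (ρ i))`, `N i` = the submodule `{B v | B ∈ 𝒜 i}` of `S`, made a Lie module through a type synonym / structure wrapper
(directly `⁅Y, u⁆ = ⟨ρ i Y u, _⟩`; do it ONCE for a general linear `ρ` with `hlie` and a vector `v`: `def Cy ρ v : Type := ↥(submodule)`); it is `CycHW`. Choose linear sections `s i : N i →ₗ 𝒜 i` with `(s i x) v = x`
(`LinearMap.exists_rightInverse_of_surjective`), `Ψ (x ⊗ y ⊗ z) = Φ (s 0 x * s 1 y * s 2 z) v`. KEY: for `B i ∈ 𝒜 i` the vector `(B 0 * B 1 * B 2) v` depends only on the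
`B i v` (the `𝒜 i` commute). So `Ψ` is invariant and `Ψ (A 0 v ⊗ A 1 v ⊗ A 2 v) ≠ 0`; `hasInvariant_of_cyc`. -/
theorem hasInvariant_of_comm {S : Type} [AddCommGroup S] [Module ℂ S] [FiniteDimensional ℂ S]
    (ρ : Fin 3 → (soD n →ₗ[ℂ] Module.End ℂ S)) (hlie : ∀ i Y Z, ρ i ⁅Y, Z⁆ = ρ i Y * ρ i Z - ρ i Z * ρ i Y)
    (hcomm : ∀ i j, i ≠ j → ∀ Y Z, ρ i Y * ρ j Z = ρ j Z * ρ i Y)
    (a : Fin 3 → Wt n) (ha : ∀ i, Dom (a i)) (v : S)
    (hH : ∀ i j, ρ i (X (inl j) (inl j)) v = ((a i j : ℂ) / 2) • v)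
    (hE : ∀ i, ∀ t ∈ pr n, ρ i (X (inl t.1) (l2 t)) v = 0)
    (Φ : S →ₗ[ℂ] ℂ) (hΦ : ∀ Y s, Φ ((ρ 0 Y + ρ 1 Y + ρ 2 Y) s) = 0)
    (A : Fin 3 → Module.End ℂ S) (hA : ∀ i, A i ∈ Algebra.adjoin ℂ (Set.range (ρ i))) (hne : Φ ((A 0 * A 1 * A 2) v) ≠ 0)
    (U : Irrep n (a 0)) (V : Irrep n (a 1)) (W : Irrep n (a 2)) : HasInvariant U V W := by
  have hv : v ≠ 0 := by
    rintro rfl
    exact hne (by simp)
  have cm : ∀ i j, i ≠ j → ∀ B ∈ Algebra.adjoin ℂ (Set.range (ρ i)), ∀ C ∈ Algebra.adjoin ℂ (Set.range (ρ j)),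
      ∀ u : S, B (C u) = C (B u) := by
    intro i j hij B hB C hC u
    have : Commute B C := by
      refine Algebra.commute_of_mem_adjoin_of_forall_mem_commute hC ?_
      rintro _ ⟨Z, rfl⟩
      refine (Algebra.commute_of_mem_adjoin_of_forall_mem_commute hB ?_).symm
      rintro _ ⟨Y, rfl⟩
      exact (hcomm i j hij Y Z).symm
    exact LinearMap.congr_fun this.eq u
  obtain ⟨s0, hs0⟩ := hoc_sec (ρ 0) (hlie 0) v
  obtain ⟨s1, hs1⟩ := hoc_sec (ρ 1) (hlie 1) v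
  let ev : Module.End ℂ S ⊗[ℂ] S →ₗ[ℂ] S := TensorProduct.lift LinearMap.id
  let Ψ : HocCy (ρ 0) (hlie 0) v ⊗[ℂ] (HocCy (ρ 1) (hlie 1) v ⊗[ℂ] HocCy (ρ 2) (hlie 2) v) →ₗ[ℂ] ℂ :=
    Φ ∘ₗ ev ∘ₗ TensorProduct.map s0 (ev ∘ₗ TensorProduct.map s1 (hocVal (ρ 2) (hlie 2) v))
  have key : ∀ x y z, ∀ B0 ∈ Algebra.adjoin ℂ (Set.range (ρ 0)), ∀ B1 ∈ Algebra.adjoin ℂ (Set.range (ρ 1)),
      ∀ B2 ∈ Algebra.adjoin ℂ (Set.range (ρ 2)), B0 v = hocVal _ _ _ x → B1 v = hocVal _ _ _ y → B2 v = hocVal _ _ _ z →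
      Ψ (x ⊗ₜ (y ⊗ₜ z)) = Φ (B0 (B1 (B2 v))) := by
    intro x y z B0 h0 B1 h1 B2 h2 e0 e1 e2
    have : Ψ (x ⊗ₜ (y ⊗ₜ z)) = Φ (s0 x (s1 y (hocVal _ _ _ z))) := rfl
    rw [this, ← e2, cm 1 2 (by decide) _ (hs1 y).1 _ h2, (hs1 y).2, ← e1,
      cm 0 2 (by decide) _ (hs0 x).1 _ h2, cm 0 1 (by decide) _ (hs0 x).1 _ h1, (hs0 x).2, ← e0,
      cm 0 1 (by decide) _ h0 _ h1, cm 0 2 (by decide) _ h0 _ h2, cm 1 2 (by decide) _ h1 _ h2]
  refine hasInvariant_of_cyc (ha 0) (ha 1) (ha 2)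
    (hoc_cyc (ρ 0) (hlie 0) v (a 0) hv (hH 0) (hE 0)) (hoc_cyc (ρ 1) (hlie 1) v (a 1) hv (hH 1) (hE 1))
    (hoc_cyc (ρ 2) (hlie 2) v (a 2) hv (hH 2) (hE 2)) Ψ ?_ ?_ U V W
  · intro h0
    apply hne
    have := key (hocMk _ (hlie 0) v _ (hA 0)) (hocMk _ (hlie 1) v _ (hA 1)) (hocMk _ (hlie 2) v _ (hA 2))
      _ (hA 0) _ (hA 1) _ (hA 2) rfl rfl rfl
    rw [h0, LinearMap.zero_apply] at this
    exact this.symm
  · intro Y u
    induction u using TensorProduct.induction_on with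
    | zero => rw [lie_zero, map_zero]
    | add u u' h h' => rw [lie_add, map_add, h, h', add_zero]
    | tmul x w =>
      induction w using TensorProduct.induction_on with
      | zero => rw [tmul_zero, lie_zero, map_zero]
      | add w w' h h' => rw [tmul_add, lie_add, map_add, h, h', add_zero]
      | tmul y z =>
        obtain ⟨B0, h0, e0⟩ := hocVal_mem _ _ _ x
        obtain ⟨B1, h1, e1⟩ := hocVal_mem _ _ _ y
        obtain ⟨B2, h2, e2⟩ := hocVal_mem _ _ _ z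
        rw [TensorProduct.LieModule.lie_tmul_right, TensorProduct.LieModule.lie_tmul_right, tmul_add, map_add, map_add,
          key _ _ _ _ (mul_mem (hoc_gen (ρ 0) Y) h0) _ h1 _ h2 (by rw [hocVal_lie, ← e0]; rfl) e1 e2,
          key _ _ _ _ h0 _ (mul_mem (hoc_gen (ρ 1) Y) h1) _ h2 e0 (by rw [hocVal_lie, ← e1]; rfl) e2,
          key _ _ _ _ h0 _ h1 _ (mul_mem (hoc_gen (ρ 2) Y) h2) e0 e1 (by rw [hocVal_lie, ← e2]; rfl),
          ← hΦ Y (B0 (B1 (B2 v)))]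
        simp only [Module.End.mul_apply, LinearMap.add_apply, map_add]
        rw [cm 0 1 (by decide) _ h0 _ (hoc_gen (ρ 1) Y), cm 1 2 (by decide) _ h1 _ (hoc_gen (ρ 2) Y),
          cm 0 2 (by decide) _ h0 _ (hoc_gen (ρ 2) Y), add_assoc]

end Crest.Agent.R172.Q
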