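import Crest.Agent.R172.W.Main

/-! R172/Q/PfCyc (owner helper16): cyclic highest weight modules -/

set_option autoImplicit false
set_option linter.unusedVariables false
set_option linter.unusedSectionVars false
open Matrix Sum Crest.AlgebraR.SpinSaturation

noncomputable section
namespace Crest.Agent.R172.Q
open Crest.Agent.R172.W

open TensorProduct
variable {n : ℕ}

section
variable {M : Type} [AddCommGroup M] [Module ℂ M] [LieRingModule (soD n) M] [LieModule ℂ (soD n) M]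

/-- cyclic highest weight vector -/
structure CycHW (a : Wt n) (v : M) : Prop where
  ne : v ≠ 0
  wv : IsWV a v
  pos : ∀ t ∈ pr n, ⁅X (inl t.1) (l2 t), v⁆ = 0
  cyc : ∀ N : LieSubmodule ℂ (soD n) M, v ∈ N → N = ⊤

theorem pfc_span_wv {a : Wt n} {v : M} (h : CycHW a v) :
    Submodule.span ℂ {u : M | ∃ μ, Le μ a ∧ IsWV μ u} = ⊤ := by

  obtain ⟨hv0, hwv, hpos, hcyc⟩ := h
  let P : Submodule ℂ M → Prop := fun W => v ∈ W ∧ ∀ t ∈ pr n, ∀ u ∈ W, ⁅X (l2 t) (inl t.1), u⁆ ∈ W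
  let N : Submodule ℂ M := sInf {W | P W}
  have hN : P N := ⟨Submodule.mem_sInf.2 fun W hW => hW.1,
    fun t ht u hu => Submodule.mem_sInf.2 fun W hW => hW.2 t ht u (Submodule.mem_sInf.1 hu W hW)⟩
  have hx : ∀ p q : L n, ⁅X p q, v⁆ ∈ N := by
    intro p q
    rcases pair_cases p q with rfl | rfl | ⟨t, ht, ⟨rfl, rfl⟩ | ⟨h1, h2⟩ | ⟨rfl, rfl⟩ | ⟨h1, h2⟩⟩
    · rcases p with i | i
      · rw [hwv i]; exact N.smul_mem _ hN.1
      · rw [X_skew, neg_lie, Sum.swap_inr, hwv i]; exact N.neg_mem (N.smul_mem _ hN.1)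
    · have e := X_skew q.swap q
      rw [Sum.swap_swap] at e
      have e2 : (2 : ℂ) • X q.swap q = 0 := by rw [two_smul]; exact eq_neg_iff_add_eq_zero.1 e
      rw [(smul_eq_zero.1 e2).resolve_left two_ne_zero, zero_lie]
      exact N.zero_mem
    · rw [hpos t ht]; exact N.zero_mem
    · rw [X_skew, h1, h2, neg_lie, hpos t ht, neg_zero]; exact N.zero_mem
    · exact hN.2 t ht v hN.1
    · rw [X_skew, h1, h2, neg_lie]; exact N.neg_mem (hN.2 t ht v hN.1)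
  have hb : ∀ Y : soD n, ⁅Y, v⁆ ∈ N := fun Y => by
    rw [X_span Y, sum_lie]
    refine N.sum_mem fun p _ => ?_
    rw [sum_lie]
    exact N.sum_mem fun q _ => by rw [smul_lie]; exact N.smul_mem _ (hx p q)
  let N' : Submodule ℂ M :=
    { carrier := {u | u ∈ N ∧ ∀ Y : soD n, ⁅Y, u⁆ ∈ N}
      add_mem' := fun a b => ⟨N.add_mem a.1 b.1, fun Y => by rw [lie_add]; exact N.add_mem (a.2 Y) (b.2 Y)⟩
      zero_mem' := ⟨N.zero_mem, fun Y => by rw [lie_zero]; exact N.zero_mem⟩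
      smul_mem' := fun c u a => ⟨N.smul_mem c a.1, fun Y => by rw [lie_smul]; exact N.smul_mem c (a.2 Y)⟩ }
  have h1 : N ≤ N' := sInf_le ⟨⟨hN.1, hb⟩, fun t ht u hu => ⟨hN.2 t ht u hu.1, fun Y => by
    rw [leibniz_lie]; exact N.add_mem (hu.2 _) (hN.2 t ht _ (hu.2 Y))⟩⟩
  let N'' : LieSubmodule ℂ (soD n) M := { N with lie_mem := fun {Y u} hu => (h1 hu).2 Y }
  have h2 : N'' = ⊤ := hcyc N'' hN.1
  refine top_le_iff.1 (le_trans (fun u _ => show u ∈ N'' from h2 ▸ LieSubmodule.mem_top u) (sInf_le ⟨?_, fun t ht u hu => ?_⟩ : N ≤ _))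
  · exact Submodule.subset_span ⟨a, fun _ _ => le_rfl, hwv⟩
  · induction hu using Submodule.span_induction with
    | mem u hu =>
      obtain ⟨μ, hle, hμ⟩ := hu
      refine Submodule.subset_span ⟨_, fun κ hκ => ?_, hμ.lie _ _⟩
      have e := dom_iff.1 hκ t ht
      rw [bt_eq, dotProduct_comm] at e
      rw [dotProduct_add, two_nsmul, dotProduct_add, ← neg_sub, dotProduct_neg]
      linarith [hle κ hκ]
    | zero => rw [lie_zero]; exact Submodule.zero_mem _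
    | add x y _ _ hx hy => rw [lie_add]; exact Submodule.add_mem _ hx hy
    | smul c x _ hx => rw [lie_smul]; exact Submodule.smul_mem _ c hx

theorem pfc_exists_wb [FiniteDimensional ℂ M] {a : Wt n} {v : M} (hv : CycHW a v) :
    ∃ (d : ℕ) (b : Module.Basis (Fin (d + 1)) ℂ M) (wt : Fin (d + 1) → Wt n),
    (∀ k, IsWV (wt k) (b k)) ∧ ∀ k, Le (wt k) a := by
  have hsp := pfc_span_wv hv
  obtain ⟨s, hs, hspan, hli⟩ := exists_linearIndependent ℂ {u : M | ∃ μ, Le μ a ∧ IsWV μ u}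
  rw [hsp] at hspan
  let b0 : Module.Basis s ℂ M := Module.Basis.mk hli (by rw [Subtype.range_coe, hspan])
  have : Nontrivial M := ⟨⟨v, 0, hv.ne⟩⟩
  have : Finite s := Module.Finite.finite_basis b0
  have : Nonempty s := b0.index_nonempty
  obtain ⟨d, hd⟩ : ∃ d, Nat.card s = d + 1 := ⟨Nat.card s - 1, by have := Nat.card_pos (α := s); omega⟩
  let e : s ≃ Fin (d + 1) := Finite.equivFinOfCardEq hd
  have hw : ∀ x : s, ∃ μ, Le μ a ∧ IsWV μ (x : M) := fun x => hs x.2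
  choose μ hμ1 hμ2 using hw
  refine ⟨d, b0.reindex e, fun k => μ (e.symm k), fun k => ?_, fun k => hμ1 _⟩
  rw [Module.Basis.reindex_apply, Module.Basis.mk_apply]
  exact hμ2 _

theorem pfc_hw {ι : Type} [Fintype ι] [DecidableEq ι] (b : Module.Basis ι ℂ M) (wt : ι → Wt n) (h : ∀ k, IsWV (wt k) (b k))
    {a : Wt n} {v : M} (hv : CycHW a v) : (toMRep b wt h).HW a (b.equivFun v) := by
  refine ⟨fun h' => hv.ne (b.equivFun.map_eq_zero_iff.1 h'), fun i => ?_, fun t ht => ?_⟩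
  · rw [toMRep_mulVec, hv.wv i, map_smul]
  · rw [MRep.E, toMRep_mulVec, hv.pos t ht, map_zero]

theorem pfc_schur {ι : Type} [Fintype ι] [DecidableEq ι] (b : Module.Basis ι ℂ M) (wt : ι → Wt n) (h : ∀ k, IsWV (wt k) (b k))
    {φ : Matrix ι ι ℂ} (hφ : (toMRep b wt h).Cm φ) {c : ℂ} {a : Wt n} {u : M} (hu : CycHW a u)
    (hc : φ *ᵥ b.equivFun u = c • b.equivFun u) : φ = c • (1 : Matrix ι ι ℂ) := by
  let N : LieSubmodule ℂ (soD n) M :=
    { carrier := {u | φ *ᵥ b.equivFun u = c • b.equivFun u}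
      add_mem' := fun {u u'} hu hu' => by
        simp only [Set.mem_ofPred_eq] at hu hu' ⊢
        rw [map_add, mulVec_add, hu, hu', smul_add]
      zero_mem' := by
        simp only [Set.mem_ofPred_eq]
        rw [map_zero, mulVec_zero, smul_zero]
      smul_mem' := fun r u hu => by
        simp only [Set.mem_ofPred_eq] at hu ⊢
        rw [map_smul, mulVec_smul, hu, smul_comm]
      lie_mem := fun {Y u} hu => by
        simp only [Set.mem_ofPred_eq] at hu ⊢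
        rw [lc_lie_span, map_sum, mulVec_sum, Finset.smul_sum]
        refine Finset.sum_congr rfl fun p _ => ?_
        rw [map_sum, mulVec_sum, Finset.smul_sum]
        refine Finset.sum_congr rfl fun q _ => ?_
        rw [map_smul, mulVec_smul, smul_comm c, ← toMRep_mulVec b wt h, mulVec_mulVec, ← hφ p q, ← mulVec_mulVec, hu,
          mulVec_smul] }
  have hN : ∀ u, u ∈ N ↔ φ *ᵥ b.equivFun u = c • b.equivFun u := fun u => Iff.rfl
  have htop : N = ⊤ := hu.cyc N ((hN u).2 hc)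
  have hall : ∀ w : ι → ℂ, φ *ᵥ w = c • w := fun w => by
    obtain ⟨u', rfl⟩ := b.equivFun.surjective w
    exact (hN u').1 (htop ▸ LieSubmodule.mem_top u')
  ext k l
  have := congrFun (hall (Pi.single l 1)) k
  rw [mulVec_single_one] at this
  simp only [Matrix.col_apply, Pi.smul_apply, Pi.single_apply, smul_eq_mul] at this
  rw [this, Matrix.smul_apply, Matrix.one_apply, smul_eq_mul]

/-- COPY `span_wv`, `exists_wb`, `hw_toMRep`, `schur_toMRep`, `irrep_wcf` of R172/W/Lie.lean, W/Main.lean (new names, prefix `pfc_`), replacing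
`eq_bot_or_eq_top N` by `h.cyc N` -/
theorem cyc_wcf [FiniteDimensional ℂ M] {a : Wt n} (ha : Dom a) {v : M} (h : CycHW a v) :
    ∃ (d : ℕ) (b : Module.Basis (Fin (d + 1)) ℂ M) (wt : Fin (d + 1) → Wt n) (m : ℂ),
      (∀ k, IsWV (wt k) (b k)) ∧ m ≠ 0 ∧ dl n * chw wt = m • A (a + rho n) := by
  obtain ⟨d, b, wt, hw, hle⟩ := pfc_exists_wb h
  have h1 := pfc_hw b wt hw h
  have h2 := pfc_schur b wt hw (toMRep b wt hw).cm_Cas h h1.Cas
  obtain ⟨m, hm, hm'⟩ := (toMRep b wt hw).wcf ha h2 hle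
  exact ⟨d, b, wt, m, hw, hm, hm'⟩

/-- `φ k = Ψ (b k)` is a non-zero row vector with `φ ᵥ* F p q = 0`, so `φ ᵥ* Cas = 0` (`two_Cas`); `fitting Cas`: `φ = φ ᵥ* π`, so `π` has a non-zero column,
which is invariant by `MRep.col_zero`; conclude by `MRep.inv_iff` -/
theorem coeff_of_functional {ι : Type} [Fintype ι] [DecidableEq ι] (b : Module.Basis ι ℂ M) (wt : ι → Wt n) (h : ∀ k, IsWV (wt k) (b k))
    (Ψ : M →ₗ[ℂ] ℂ) (h0 : Ψ ≠ 0) (hΨ : ∀ (Y : soD n) (u : M), Ψ ⁅Y, u⁆ = 0) : (dl n * chw wt).coeff (rho n) ≠ 0 := by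
  set R := toMRep b wt h with hR
  let φ : ι → ℂ := fun k => Ψ (b k)
  have hφ : φ ≠ 0 := fun e => h0 (b.ext fun k => congrFun e k)
  have h1 : ∀ p q, φ ᵥ* R.F p q = 0 := fun p q => funext fun l => by
    have e := hΨ (X p q) (b l)
    rw [← b.sum_repr ⁅X p q, b l⁆, map_sum] at e
    rw [Pi.zero_apply, ← e]
    refine Finset.sum_congr rfl fun k _ => ?_
    simp only [φ, hR, toMRep, LinearMap.toMatrix_apply, LieModule.toEnd_apply_apply, map_smul, smul_eq_mul, mul_comm]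
  have h6 : φ ᵥ* R.Cas = 0 := by
    have h7 : φ ᵥ* ((2 : ℂ) • R.Cas) = 0 := by
      simp only [MRep.two_Cas, Matrix.vecMul_sum, ← vecMul_vecMul, h1, zero_vecMul, Finset.sum_const_zero]
    rw [vecMul_smul] at h7
    exact (smul_eq_zero.1 h7).resolve_left two_ne_zero
  obtain ⟨π, ψ, N, -, h2, h3, -, h5⟩ := fitting R.Cas
  have hπ : R.Cm π := fun p q => (h5 _ (R.cm_Cas p q)).1
  have hne : π ≠ 0 := fun e => hφ (by
    rw [← vecMul_one φ, h2, e, zero_add, ← vecMul_vecMul, h6, zero_vecMul])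
  obtain ⟨l, hl⟩ : ∃ l, (fun k => π k l) ≠ 0 := by
    by_contra hc
    push Not at hc
    exact hne (Matrix.ext fun k l => congrFun (hc l) k)
  exact R.inv_iff.1 ⟨_, hl, (R.col_zero hπ h3 hl).2⟩
end

/-- `cyc_wcf` for the `M_i`, `irrep_wcf` for `U V W`: the characters are proportional (cancel `dl`, `dl_ne_zero`); tensor bases and `chw_prod` as in
`hasInvariant_iff`; `coeff_of_functional`, then `inv_toMRep`, `MRep.inv_iff` for `U ⊗ V ⊗ W` -/
theorem hasInvariant_of_cyc {a b c : Wt n} (ha : Dom a) (hb : Dom b) (hc : Dom c)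
    {M₁ : Type} [AddCommGroup M₁] [Module ℂ M₁] [LieRingModule (soD n) M₁] [LieModule ℂ (soD n) M₁] [FiniteDimensional ℂ M₁]
    {M₂ : Type} [AddCommGroup M₂] [Module ℂ M₂] [LieRingModule (soD n) M₂] [LieModule ℂ (soD n) M₂] [FiniteDimensional ℂ M₂]
    {M₃ : Type} [AddCommGroup M₃] [Module ℂ M₃] [LieRingModule (soD n) M₃] [LieModule ℂ (soD n) M₃] [FiniteDimensional ℂ M₃]
    {v₁ : M₁} {v₂ : M₂} {v₃ : M₃} (h₁ : CycHW a v₁) (h₂ : CycHW b v₂) (h₃ : CycHW c v₃)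
    (Ψ : M₁ ⊗[ℂ] (M₂ ⊗[ℂ] M₃) →ₗ[ℂ] ℂ) (h0 : Ψ ≠ 0) (hΨ : ∀ (Y : soD n) u, Ψ ⁅Y, u⁆ = 0)
    (U : Irrep n a) (V : Irrep n b) (W : Irrep n c) : HasInvariant U V W := by
  obtain ⟨d₁, b₁, w₁, m₁, g₁, s₁, hm₁, e₁⟩ := irrep_wcf ha U
  obtain ⟨d₂, b₂, w₂, m₂, g₂, s₂, hm₂, e₂⟩ := irrep_wcf hb V
  obtain ⟨d₃, b₃, w₃, m₃, g₃, s₃, hm₃, e₃⟩ := irrep_wcf hc W
  obtain ⟨d₁', b₁', w₁', m₁', g₁', hm₁', e₁'⟩ := cyc_wcf ha h₁
  obtain ⟨d₂', b₂', w₂', m₂', g₂', hm₂', e₂'⟩ := cyc_wcf hb h₂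
  obtain ⟨d₃', b₃', w₃', m₃', g₃', hm₃', e₃'⟩ := cyc_wcf hc h₃
  have hb' : ∀ k : Fin (d₁ + 1) × Fin (d₂ + 1) × Fin (d₃ + 1), IsWV (w₁ k.1 + (w₂ k.2.1 + w₃ k.2.2))
      ((b₁.tensorProduct (b₂.tensorProduct b₃)) k) := by
    rintro ⟨i, j, k⟩
    rw [Module.Basis.tensorProduct_apply, Module.Basis.tensorProduct_apply]
    exact (g₁ i).tmul ((g₂ j).tmul (g₃ k))
  have hch : chw (fun k : Fin (d₁ + 1) × Fin (d₂ + 1) × Fin (d₃ + 1) => w₁ k.1 + (w₂ k.2.1 + w₃ k.2.2)) =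
      chw w₁ * (chw w₂ * chw w₃) := by
    rw [← chw_prod w₂ w₃]
    exact chw_prod w₁ fun k : Fin (d₂ + 1) × Fin (d₃ + 1) => w₂ k.1 + w₃ k.2
  have hb'' : ∀ k : Fin (d₁' + 1) × Fin (d₂' + 1) × Fin (d₃' + 1), IsWV (w₁' k.1 + (w₂' k.2.1 + w₃' k.2.2))
      ((b₁'.tensorProduct (b₂'.tensorProduct b₃')) k) := by
    rintro ⟨i, j, k⟩
    rw [Module.Basis.tensorProduct_apply, Module.Basis.tensorProduct_apply]
    exact (g₁' i).tmul ((g₂' j).tmul (g₃' k))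
  have hch' : chw (fun k : Fin (d₁' + 1) × Fin (d₂' + 1) × Fin (d₃' + 1) => w₁' k.1 + (w₂' k.2.1 + w₃' k.2.2)) =
      chw w₁' * (chw w₂' * chw w₃') := by
    rw [← chw_prod w₂' w₃']
    exact chw_prod w₁' fun k : Fin (d₂' + 1) × Fin (d₃' + 1) => w₂' k.1 + w₃' k.2
  have key := (inv_toMRep _ _ hb').trans (toMRep _ _ hb').inv_iff
  change HasInvariant U V W ↔ (dl n * chw fun k : Fin (d₁ + 1) × Fin (d₂ + 1) × Fin (d₃ + 1) =>
    w₁ k.1 + (w₂ k.2.1 + w₃ k.2.2)).coeff (rho n) ≠ 0 at key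
  rw [key, hch]
  have k0 := coeff_of_functional _ _ hb'' Ψ h0 hΨ
  rw [hch'] at k0
  have pr₁ : m₁ • chw w₁' = m₁' • chw w₁ := by
    apply mul_left_cancel₀ (dl_ne_zero (n := n))
    rw [mul_smul_comm, mul_smul_comm, e₁, e₁', smul_comm]
  have pr₂ : m₂ • chw w₂' = m₂' • chw w₂ := by
    apply mul_left_cancel₀ (dl_ne_zero (n := n))
    rw [mul_smul_comm, mul_smul_comm, e₂, e₂', smul_comm]
  have pr₃ : m₃ • chw w₃' = m₃' • chw w₃ := by
    apply mul_left_cancel₀ (dl_ne_zero (n := n))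
    rw [mul_smul_comm, mul_smul_comm, e₃, e₃', smul_comm]
  have c3 : (m₁ * (m₂ * m₃)) • (dl n * (chw w₁' * (chw w₂' * chw w₃'))) =
      (m₁' * (m₂' * m₃')) • (dl n * (chw w₁ * (chw w₂ * chw w₃))) := by
    have q : dl n * ((m₁ • chw w₁') * ((m₂ • chw w₂') * (m₃ • chw w₃'))) =
        dl n * ((m₁' • chw w₁) * ((m₂' • chw w₂) * (m₃' • chw w₃))) := by rw [pr₁, pr₂, pr₃]
    rw [smul_mul_smul_comm, smul_mul_smul_comm, smul_mul_smul_comm, smul_mul_smul_comm, mul_smul_comm, mul_smul_comm] at q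
    exact q
  have c4 := congrArg (fun f : GR n => f.coeff (rho n)) c3
  simp only [AddMonoidAlgebra.coeff_smul_apply, smul_eq_mul] at c4
  intro h
  rw [h, mul_zero] at c4
  exact k0 ((mul_eq_zero.1 c4).resolve_left (mul_ne_zero hm₁ (mul_ne_zero hm₂ hm₃)))

end Crest.Agent.R172.Q
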