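import Crest.Agent.R172.Q.Defs

/-! R172/Q/PfDefs (owner helper16): Clifford generators, definitions only (FROZEN) -/

set_option autoImplicit false
set_option linter.unusedVariables false
set_option linter.unusedSectionVars false
open Matrix Sum Crest.AlgebraR.SpinSaturation

noncomputable section
namespace Crest.Agent.R172.Q
open Crest.Agent.R172.W

section
variable {ι : Type} [Fintype ι] [DecidableEq ι] {R : Type} [Ring R] [Algebra ℂ R]

/-- Clifford relations for the form `bs σ` -/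
structure Car (σ : ι → ι) (γ : ι → R) : Prop where
  inv : ∀ p, σ (σ p) = p
  anti : ∀ p q, γ p * γ q + γ q * γ p = if q = σ p then 1 else 0
/-- the form -/
def bs (σ : ι → ι) (x y : ι → ℂ) : ℂ := ∑ p, x p * y (σ p)
/-- Clifford multiplication -/
def gam (γ : ι → R) : (ι → ℂ) →ₗ[ℂ] R := Fintype.linearCombination ℂ γ
theorem gam_apply (γ : ι → R) (x : ι → ℂ) : gam γ x = ∑ p, x p • γ p := rfl
/-- the spin representation -/
def srho (σ : ι → ι) (γ : ι → R) : Matrix ι ι ℂ →ₗ[ℂ] R where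
  toFun A := (1 / 2 : ℂ) • ∑ p, ∑ q, A q p • (γ q * γ (σ p))
  map_add' A B := by simp only [Matrix.add_apply, add_smul, Finset.sum_add_distrib, smul_add]
  map_smul' c A := by
    simp only [Matrix.smul_apply, smul_eq_mul, RingHom.id_apply, Finset.smul_sum, smul_smul, mul_left_comm]
theorem srho_apply (σ : ι → ι) (γ : ι → R) (A : Matrix ι ι ℂ) :
    srho σ γ A = (1 / 2 : ℂ) • ∑ p, ∑ q, A q p • (γ q * γ (σ p)) := rfl
/-- skew-adjoint matrices -/
def Skew (σ : ι → ι) (A : Matrix ι ι ℂ) : Prop := ∀ p q, A p q = -A (σ q) (σ p)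
end

variable {n : ℕ} {l : Fin 3 → ℕ}
/-- the involution of `W ⊗ V` -/
def sg2 (x : L n × K l) : L n × K l := (x.1.swap, rv x.2)
/-- `Y ⊗ π_i` -/
def ot (l : Fin 3 → ℕ) (i : Fin 3) : Matrix (L n) (L n) ℂ →ₗ[ℂ] Matrix (L n × K l) (L n × K l) ℂ where
  toFun Y := Matrix.of fun x y => if x.2 = y.2 ∧ x.2.1 = i then Y x.1 y.1 else 0
  map_add' Y Z := by ext x y; simp only [Matrix.of_apply, Matrix.add_apply]; split_ifs <;> simp
  map_smul' c Y := by ext x y; simp only [Matrix.of_apply, Matrix.smul_apply, RingHom.id_apply]; split_ifs <;> simp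
theorem ot_apply (i : Fin 3) (Y : Matrix (L n) (L n) ℂ) (x y : L n × K l) :
    ot l i Y x y = if x.2 = y.2 ∧ x.2.1 = i then Y x.1 y.1 else 0 := rfl
/-- a matrix as a vector -/
def unc (φ : Matrix (L n) (K l) ℂ) : L n × K l → ℂ := fun x => φ x.1 x.2

end Crest.Agent.R172.Q
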