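import Crest.Agent.R172.Q.PfRho
import Crest.Agent.R172.Q.Lag

/-! R172/Q/PfOt (owner helper16): the three actions on the spinor module -/

set_option autoImplicit false
set_option linter.unusedVariables false
set_option linter.unusedSectionVars false
open Matrix Sum Crest.AlgebraR.SpinSaturation

noncomputable section
namespace Crest.Agent.R172.Q
open Crest.Agent.R172.W

variable {n : ℕ} {l : Fin 3 → ℕ}

theorem sg2_sg2_rv (k : K l) : rv (rv k) = k := by
  obtain ⟨i, k⟩ := k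
  simp [rv]
theorem sg2_sg2_rv_inj {k k' : K l} : rv k = rv k' ↔ k = k' :=
  ⟨fun h => by rw [← sg2_sg2_rv k, h, sg2_sg2_rv], fun h => by rw [h]⟩
theorem sg2_sg2 (x : L n × K l) : sg2 (sg2 x) = x := by
  obtain ⟨p, k⟩ := x
  simp [sg2, sg2_sg2_rv]
theorem ot_mul (i : Fin 3) (Y Z : Matrix (L n) (L n) ℂ) : ot l i Y * ot l i Z = ot l i (Y * Z) := by
  ext x y
  rw [Matrix.mul_apply, Fintype.sum_prod_type_right, Finset.sum_eq_single x.2]
  · simp only [ot_apply, true_and, Matrix.mul_apply]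
    by_cases h1 : x.2.1 = i
    · by_cases h2 : x.2 = y.2
      · simp [h1, h2, h2 ▸ h1]
      · simp [h2]
    · simp [h1]
  · intro k _ hk
    refine Finset.sum_eq_zero fun p _ => ?_
    rw [ot_apply, if_neg, zero_mul]
    exact fun h => hk h.1.symm
  · simp
theorem ot_mul_ne {i j : Fin 3} (h : i ≠ j) (Y Z : Matrix (L n) (L n) ℂ) : ot l i Y * ot l j Z = 0 := by
  ext x y
  rw [Matrix.mul_apply, Matrix.zero_apply]
  refine Finset.sum_eq_zero fun z _ => ?_
  rw [ot_apply, ot_apply]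
  by_cases h1 : x.2 = z.2 ∧ x.2.1 = i
  · rw [if_neg (c := z.2 = y.2 ∧ z.2.1 = j), mul_zero]
    rintro ⟨-, h2⟩
    exact h (by rw [← h1.2, h1.1, h2])
  · rw [if_neg h1, zero_mul]
/-- `mem_typeD` -/
theorem ot_skew (i : Fin 3) (Y : soD n) : Skew sg2 (ot l i (Y : Matrix (L n) (L n) ℂ)) := by
  intro x y
  rw [ot_apply, ot_apply]
  by_cases h1 : x.2 = y.2 ∧ x.2.1 = i
  · rw [if_pos h1, if_pos]
    · exact mem_typeD.1 Y.2 _ _
    · refine ⟨?_, ?_⟩
      · show rv y.2 = rv x.2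
        rw [h1.1]
      · show y.2.1 = i
        rw [← h1.1]; exact h1.2
  · rw [if_neg h1, if_neg, neg_zero]
    rintro ⟨h2, h3⟩
    have h4 : y.2 = x.2 := sg2_sg2_rv_inj.1 h2
    have h5 : y.2.1 = i := h3
    exact h1 ⟨h4.symm, by rw [← h4]; exact h5⟩
theorem bs_unc (φ ψ : Matrix (L n) (K l) ℂ) : bs sg2 (unc φ) (unc ψ) = bE φ ψ := by
  rw [bs, bE, Fintype.sum_prod_type]
  rfl
theorem ot_mv_aux (i : Fin 3) (Y : Matrix (L n) (L n) ℂ) (v : L n × K l → ℂ) (x : L n × K l) :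
    ((1 + ot l i (Y - 1)) *ᵥ v) x = if x.2.1 = i then ∑ q, Y x.1 q * v (q, x.2) else v x := by
  rw [Matrix.add_mulVec, Matrix.one_mulVec, Pi.add_apply, Matrix.mulVec, dotProduct,
    Fintype.sum_prod_type_right, Finset.sum_eq_single x.2]
  · simp only [ot_apply, true_and]
    by_cases h1 : x.2.1 = i
    · simp only [h1, if_true, Matrix.sub_apply, sub_mul, Finset.sum_sub_distrib, Matrix.one_apply, ite_mul,
        one_mul, zero_mul, Finset.sum_ite_eq, Finset.mem_univ]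
      simp
    · simp [h1]
  · intro k _ hk
    refine Finset.sum_eq_zero fun p _ => ?_
    rw [ot_apply, if_neg, zero_mul]
    exact fun h => hk h.1.symm
  · simp
theorem ot_mv (g : Fin 3 → Matrix (L n) (L n) ℂ) (φ : Matrix (L n) (K l) ℂ) :
    (1 + ot l 0 (g 0 - 1)) *ᵥ ((1 + ot l 1 (g 1 - 1)) *ᵥ ((1 + ot l 2 (g 2 - 1)) *ᵥ unc φ)) = unc (mv g φ) := by
  funext x
  obtain ⟨p, i, k⟩ := x
  simp only [ot_mv_aux, unc, mv_apply]
  fin_cases i <;> simp

variable {R : Type} [Ring R] [Algebra ℂ R] {γ : L n × K l → R}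

theorem srho_ot_single (i : Fin 3) (p q : L n) : srho sg2 γ (ot l i (Matrix.single p q 1)) =
    (1 / 2 : ℂ) • ∑ k : Fin (l i), γ (p, ⟨i, k⟩) * γ (q.swap, ⟨i, k.rev⟩) := by
  rw [srho_apply]
  congr 1
  rw [Fintype.sum_prod_type, Finset.sum_eq_single q, Fintype.sum_sigma, Finset.sum_eq_single i]
  · refine Finset.sum_congr rfl fun k _ => ?_
    rw [Finset.sum_eq_single (p, (⟨i, k⟩ : K l))]
    · simp [ot_apply, sg2, rv]
    · rintro ⟨r, k'⟩ _ hne
      rw [ot_apply]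
      by_cases h1 : k' = ⟨i, k⟩
      · subst h1
        have : r ≠ p := fun e => hne (by rw [e])
        simp [Matrix.single_apply, this.symm]
      · simp [h1]
    · simp
  · intro j _ hj
    refine Finset.sum_eq_zero fun k _ => Finset.sum_eq_zero fun y _ => ?_
    rw [ot_apply, if_neg, zero_smul]
    rintro ⟨h1, h2⟩
    exact hj (by rw [← h2, h1])
  · simp
  · intro r _ hr
    refine Finset.sum_eq_zero fun k _ => Finset.sum_eq_zero fun y _ => ?_
    rw [ot_apply]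
    simp [Matrix.single_apply, hr.symm]
  · simp

/-- unfold `srho`, `ot`, `liea_Xm`; reindex the second sum by `Fin.rev`, `Car.anti` -/
theorem srho_ot (h : Car sg2 γ) (i : Fin 3) (p q : L n) : srho sg2 γ (ot l i (Xm p q)) =
    ∑ k : Fin (l i), (γ (p, ⟨i, k⟩) * γ (q.swap, ⟨i, k.rev⟩) - if p = q then (1 / 2 : ℂ) • (1 : R) else 0) := by
  rw [Xm, map_sub, map_sub, srho_ot_single, srho_ot_single, Sum.swap_swap, ← smul_sub,
    ← Equiv.sum_comp Fin.revPerm (fun k : Fin (l i) => γ (q.swap, ⟨i, k⟩) * γ (p, ⟨i, k.rev⟩)),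
    ← Finset.sum_sub_distrib, Finset.smul_sum]
  refine Finset.sum_congr rfl fun k _ => ?_
  simp only [Fin.revPerm_apply, Fin.rev_rev]
  have h1 := h.anti (p, ⟨i, k⟩) (q.swap, ⟨i, k.rev⟩)
  have h2 : ((q.swap, (⟨i, k.rev⟩ : K l)) = sg2 (p, (⟨i, k⟩ : K l))) ↔ p = q := by
    simp only [sg2, rv, Prod.mk.injEq, and_true]
    exact ⟨fun e => by rw [← Sum.swap_swap p, ← e, Sum.swap_swap], fun e => by rw [e]⟩
  simp only [h2] at h1
  rw [eq_sub_of_add_eq' h1]
  by_cases e : p = q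
  · simp only [e, if_true]
    module
  · simp only [e, if_false]
    module

end Crest.Agent.R172.Q
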