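import Crest.Agent.R172.Q.PfDefs

/-! R172/Q/PfRho (owner helper16): the spin representation -/

set_option autoImplicit false
set_option linter.unusedVariables false
set_option linter.unusedSectionVars false
open Matrix Sum Crest.AlgebraR.SpinSaturation

noncomputable section
namespace Crest.Agent.R172.Q
open Crest.Agent.R172.W

variable {ι : Type} [Fintype ι] [DecidableEq ι] {R : Type} [Ring R] [Algebra ℂ R] {σ : ι → ι} {γ : ι → R}

theorem Car.gam_anti_one (h : Car σ γ) (s : ι) (y : ι → ℂ) : γ s * gam γ y + gam γ y * γ s = y (σ s) • (1 : R) := by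
  rw [gam_apply, Finset.mul_sum, Finset.sum_mul, ← Finset.sum_add_distrib]
  have e : ∀ q, γ s * y q • γ q + y q • γ q * γ s = if q = σ s then y q • (1 : R) else 0 := by
    intro q
    rw [mul_smul_comm, smul_mul_assoc, ← smul_add, h.anti]
    split_ifs <;> simp
  rw [Finset.sum_congr rfl fun q _ => e q, Finset.sum_ite_eq' Finset.univ (σ s) fun q => y q • (1 : R)]
  simp

theorem Car.gam_anti (h : Car σ γ) (x y : ι → ℂ) : gam γ x * gam γ y + gam γ y * gam γ x = bs σ x y • (1 : R) := by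
  rw [gam_apply γ x, Finset.mul_sum, Finset.sum_mul, ← Finset.sum_add_distrib, bs, Finset.sum_smul]
  refine Finset.sum_congr rfl fun p _ => ?_
  rw [mul_smul_comm, smul_mul_assoc, ← smul_add, h.gam_anti_one, smul_smul]

theorem Car.rho_gam_two (h : Car σ γ) (q p : ι) (x : ι → ℂ) :
    γ q * γ (σ p) * gam γ x - gam γ x * (γ q * γ (σ p)) = x p • γ q - x (σ q) • γ (σ p) := by
  have e1 := h.gam_anti_one (σ p) x
  have e2 := h.gam_anti_one q x
  rw [h.inv] at e1
  have e : γ q * γ (σ p) * gam γ x - gam γ x * (γ q * γ (σ p)) =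
      γ q * (γ (σ p) * gam γ x + gam γ x * γ (σ p)) - (γ q * gam γ x + gam γ x * γ q) * γ (σ p) := by
    noncomm_ring
  rw [e, e1, e2, mul_smul_comm, smul_mul_assoc, mul_one, one_mul]

theorem Car.rho_gam_mulVec (A : Matrix ι ι ℂ) (x : ι → ℂ) :
    gam γ (A *ᵥ x) = ∑ q, ∑ p, (A q p * x p) • γ q := by
  rw [gam_apply]
  refine Finset.sum_congr rfl fun q _ => ?_
  rw [← Finset.sum_smul]
  rfl

/-- `[γ_q γ_(σ p), γ_r] = γ_q δ_(r,p) - δ_(r,σ q) γ_(σ p)`, then `Skew` and reindex by `σ` -/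
theorem Car.rho_gam (h : Car σ γ) {A : Matrix ι ι ℂ} (hA : Skew σ A) (x : ι → ℂ) :
    srho σ γ A * gam γ x - gam γ x * srho σ γ A = gam γ (A *ᵥ x) := by
  have hb : Function.Bijective σ := Function.Involutive.bijective h.inv
  have e0 : srho σ γ A * gam γ x - gam γ x * srho σ γ A =
      (1 / 2 : ℂ) • (∑ p, ∑ q, (A q p * x p) • γ q - ∑ p, ∑ q, (A q p * x (σ q)) • γ (σ p)) := by
    rw [srho_apply, smul_mul_assoc, mul_smul_comm, ← smul_sub, Finset.sum_mul, Finset.mul_sum,
      ← Finset.sum_sub_distrib, ← Finset.sum_sub_distrib]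
    congr 1
    refine Finset.sum_congr rfl fun p _ => ?_
    rw [Finset.sum_mul, Finset.mul_sum, ← Finset.sum_sub_distrib, ← Finset.sum_sub_distrib]
    refine Finset.sum_congr rfl fun q _ => ?_
    rw [smul_mul_assoc, mul_smul_comm, ← smul_sub, h.rho_gam_two, smul_sub, smul_smul, smul_smul]
  have e1 : ∑ p, ∑ q, (A q p * x p) • γ q = gam γ (A *ᵥ x) := by
    rw [Car.rho_gam_mulVec, Finset.sum_comm]
  have e2 : ∑ p, ∑ q, (A q p * x (σ q)) • γ (σ p) = -gam γ (A *ᵥ x) := by
    rw [Car.rho_gam_mulVec, ← Finset.sum_neg_distrib]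
    refine Fintype.sum_bijective σ hb _ _ fun p => ?_
    rw [← Finset.sum_neg_distrib]
    refine Fintype.sum_bijective σ hb _ _ fun q => ?_
    rw [hA q p, neg_mul, neg_smul]
  rw [e0, e1, e2, sub_neg_eq_add, ← two_smul ℂ, smul_smul]
  norm_num

/-- `srho B = 1/2 ∑ p, gam (B e_p) * γ (σ p)`; `ad (srho A)` is a derivation, `rho_gam`; `∑ p, gam (B e_p) * gam (A e_(σ p)) = -∑ p, gam (B A e_p) * γ (σ p)` by `Skew A` -/
theorem Car.rho_lie (h : Car σ γ) {A B : Matrix ι ι ℂ} (hA : Skew σ A) :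
    srho σ γ A * srho σ γ B - srho σ γ B * srho σ γ A = srho σ γ (A * B - B * A) := by
  have hg : ∀ r, srho σ γ A * γ r - γ r * srho σ γ A = ∑ s, A s r • γ s := by
    intro r
    have h1 := h.rho_gam hA (Pi.single r 1)
    have h2 : gam γ (Pi.single r (1 : ℂ)) = γ r := by
      rw [gam_apply, Finset.sum_eq_single r]
      · simp
      · intro b _ hb; simp [Pi.single_eq_of_ne hb]
      · simp
    rw [h2, gam_apply] at h1
    rw [h1]
    refine Finset.sum_congr rfl fun s _ => ?_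
    simp
  have hd : ∀ q r, srho σ γ A * (γ q * γ r) - (γ q * γ r) * srho σ γ A
      = ∑ s, A s q • (γ s * γ r) + ∑ s, A s r • (γ q * γ s) := by
    intro q r
    have e : srho σ γ A * (γ q * γ r) - (γ q * γ r) * srho σ γ A
        = (srho σ γ A * γ q - γ q * srho σ γ A) * γ r + γ q * (srho σ γ A * γ r - γ r * srho σ γ A) := by
      noncomm_ring
    rw [e, hg, hg, Finset.sum_mul, Finset.mul_sum]
    simp only [smul_mul_assoc, mul_smul_comm]
  generalize hS : srho σ γ A = S at hd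
  have e1 : S * srho σ γ B - srho σ γ B * S
      = (1 / 2 : ℂ) • ∑ p, ∑ q, B q p • (S * (γ q * γ (σ p)) - (γ q * γ (σ p)) * S) := by
    rw [srho_apply]
    simp only [mul_smul_comm, smul_mul_assoc, Finset.mul_sum, Finset.sum_mul, smul_sub,
      Finset.sum_sub_distrib]
  have e2 : ∑ p, ∑ q, B q p • ∑ s, A s q • (γ s * γ (σ p)) = ∑ p, ∑ s, (A * B) s p • (γ s * γ (σ p)) := by
    refine Finset.sum_congr rfl fun p _ => ?_
    simp only [Finset.smul_sum, smul_smul, Matrix.mul_apply, Finset.sum_smul]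
    rw [Finset.sum_comm]
    refine Finset.sum_congr rfl fun s _ => Finset.sum_congr rfl fun q _ => ?_
    rw [mul_comm]
  have e3 : ∑ p, ∑ q, B q p • ∑ s, A s (σ p) • (γ q * γ s) = -∑ t, ∑ q, (B * A) q t • (γ q * γ (σ t)) := by
    let e : ι ≃ ι := ⟨σ, σ, h.inv, h.inv⟩
    have e4 : ∀ p q, ∑ s, A s (σ p) • (γ q * γ s) = -∑ t, A p t • (γ q * γ (σ t)) := by
      intro p q
      rw [← Finset.sum_neg_distrib, ← Equiv.sum_comp e]
      refine Finset.sum_congr rfl fun t _ => ?_
      have : A p t = -A (σ t) (σ p) := hA p t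
      rw [this, neg_smul, neg_neg]
      rfl
    simp only [e4, smul_neg, Finset.sum_neg_distrib, Finset.smul_sum, smul_smul, Matrix.mul_apply,
      Finset.sum_smul]
    congr 1
    calc ∑ p, ∑ q, ∑ t, (B q p * A p t) • (γ q * γ (σ t))
        = ∑ q, ∑ p, ∑ t, (B q p * A p t) • (γ q * γ (σ t)) := Finset.sum_comm
      _ = ∑ q, ∑ t, ∑ p, (B q p * A p t) • (γ q * γ (σ t)) :=
        Finset.sum_congr rfl fun q _ => Finset.sum_comm
      _ = ∑ t, ∑ q, ∑ p, (B q p * A p t) • (γ q * γ (σ t)) := Finset.sum_comm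
  rw [e1, srho_apply]
  congr 1
  simp only [hd, smul_add, Finset.sum_add_distrib, Matrix.sub_apply, sub_smul, Finset.sum_sub_distrib]
  rw [e2, e3, sub_eq_add_neg]

end Crest.Agent.R172.Q
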