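import Mathlib

/-! # R172/Q/Place: a specialisation `z ↦ x₀` of a generic point extends to a place of `ℂ` -/

set_option autoImplicit false
set_option linter.unusedSectionVars false
set_option linter.style.haveILetI false

open Cardinal

namespace Crest.Agent.R172.Q

theorem exists_ext_inj {D κ : Type} [CommRing D] [IsDomain D] [Countable D] [Field κ] (hκ : #κ ≤ #ℂ)
    (i : D →+* κ) (j : D →+* ℂ) (hi : Function.Injective i) (hj : Function.Injective j) :
    ∃ ψ : κ →+* ℂ, ∀ d, ψ (i d) = j d := by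
  classical
  letI : Algebra D κ := i.toAlgebra
  letI : Algebra D ℂ := j.toAlgebra
  haveI : FaithfulSMul D κ := (faithfulSMul_iff_algebraMap_injective _ _).mpr hi
  haveI : FaithfulSMul D ℂ := (faithfulSMul_iff_algebraMap_injective _ _).mpr hj
  obtain ⟨B, hB⟩ := exists_isTranscendenceBasis D κ
  obtain ⟨B', hB'⟩ := exists_isTranscendenceBasis D ℂ
  have hc : #ℂ = #B' := IsAlgClosed.cardinal_eq_cardinal_transcendence_basis_of_aleph0_lt' _ hB'
    (Cardinal.mk_le_aleph0) (by rw [Cardinal.mk_complex]; exact Cardinal.aleph0_lt_continuum)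
  have hle : #B ≤ #B' := (Cardinal.mk_set_le B).trans (hκ.trans hc.le)
  obtain ⟨e⟩ := (Cardinal.le_def _ _).1 hle
  have hind : AlgebraicIndependent D (fun b : B => ((e b : B') : ℂ)) := hB'.1.comp e e.injective
  letI : Algebra (MvPolynomial B D) κ := (MvPolynomial.aeval (R := D) (fun b : B => (b : κ))).toRingHom.toAlgebra
  letI : Algebra (MvPolynomial B D) ℂ :=
    (MvPolynomial.aeval (R := D) (fun b : B => ((e b : B') : ℂ))).toRingHom.toAlgebra
  haveI : FaithfulSMul (MvPolynomial B D) κ := (faithfulSMul_iff_algebraMap_injective _ _).mpr hB.1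
  haveI : FaithfulSMul (MvPolynomial B D) ℂ := (faithfulSMul_iff_algebraMap_injective _ _).mpr hind
  haveI : Algebra.IsAlgebraic (MvPolynomial B D) κ := by
    have h1 := hB.isAlgebraic
    refine Algebra.IsAlgebraic.of_ringHom_of_comp_eq (R := MvPolynomial B D) (S := Algebra.adjoin D (Set.range (fun b : B => (b : κ))))
      (A := κ) (B := κ) hB.1.aevalEquiv.toRingEquiv.toRingHom (RingHom.id κ) hB.1.aevalEquiv.surjective
      Function.injective_id ?_
    ext x
    all_goals simp [RingHom.algebraMap_toAlgebra]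
  let ψ : κ →ₐ[MvPolynomial B D] ℂ := IsAlgClosed.lift
  refine ⟨ψ.toRingHom, fun d => ?_⟩
  have h1 := ψ.commutes (MvPolynomial.C d)
  simpa [RingHom.algebraMap_toAlgebra] using h1

theorem exists_ext_ker {D κ : Type} [CommRing D] [Countable D] [Field κ] (hκ : #κ ≤ #ℂ)
    (i : D →+* κ) (j : D →+* ℂ) (h : RingHom.ker j = RingHom.ker i) :
    ∃ ψ : κ →+* ℂ, ∀ d, ψ (i d) = j d := by
  haveI : (RingHom.ker j).IsPrime := RingHom.ker_isPrime j
  haveI : Countable (D ⧸ RingHom.ker j) := Function.Surjective.countable Ideal.Quotient.mk_surjective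
  obtain ⟨ψ, hψ⟩ := exists_ext_inj hκ (Ideal.Quotient.lift (RingHom.ker j) i fun a ha => by rwa [h] at ha)
    (RingHom.kerLift j) (by
      rw [injective_iff_map_eq_zero]
      intro a ha
      obtain ⟨a, rfl⟩ := Ideal.Quotient.mk_surjective a
      rw [Ideal.Quotient.lift_mk] at ha
      rw [Ideal.Quotient.eq_zero_iff_mem, h]
      exact ha) (RingHom.kerLift_injective j)
  exact ⟨ψ, fun d => by simpa using hψ (Ideal.Quotient.mk _ d)⟩

/-- Chevalley extension: a ring map from a countable subring of `ℂ` to `ℂ` extends to a place -/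
theorem exists_place_subring (A : Subring ℂ) [Countable A] (s : A →+* ℂ) :
    ∃ (O : ValuationSubring ℂ) (π : O →+* ℂ), ∀ a : A, ∃ h : (a : ℂ) ∈ O, π ⟨a, h⟩ = s a := by
  haveI : (RingHom.ker s).IsPrime := RingHom.ker_isPrime s
  obtain ⟨O, hO⟩ := (LocalSubring.ofPrime A (RingHom.ker s)).exists_le_valuationSubring
  have hle : A ≤ O.toSubring := (LocalSubring.le_ofPrime ..).trans hO.1
  let inc : A →+* O := Subring.inclusion hle
  let i : A →+* IsLocalRing.ResidueField O := (IsLocalRing.residue O).comp inc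
  have hκ : #(IsLocalRing.ResidueField O) ≤ #ℂ :=
    (Cardinal.mk_le_of_surjective IsLocalRing.residue_surjective).trans (Cardinal.mk_set_le (O : Set ℂ))
  have hker : RingHom.ker s = RingHom.ker i := by
    ext a
    have h1 := IsLocalization.AtPrime.isUnit_to_map_iff (LocalSubring.ofPrime A (RingHom.ker s)).toSubring
      (RingHom.ker s) a
    have h2 : IsUnit (inc a) ↔ IsUnit (algebraMap A (LocalSubring.ofPrime A (RingHom.ker s)).toSubring a) := by
      haveI := hO.2
      exact isUnit_map_iff (Subring.inclusion hO.1)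
        (algebraMap A (LocalSubring.ofPrime A (RingHom.ker s)).toSubring a)
    have h3 : a ∈ RingHom.ker i ↔ ¬ IsUnit (inc a) := by
      rw [RingHom.mem_ker, RingHom.comp_apply, IsLocalRing.residue_eq_zero_iff, IsLocalRing.mem_maximalIdeal,
        mem_nonunits_iff]
    rw [h3, h2, h1]
    simp [Ideal.primeCompl]
  obtain ⟨ψ, hψ⟩ := exists_ext_ker hκ i s hker
  exact ⟨O, ψ.comp (IsLocalRing.residue O), fun a => ⟨hle a.2, hψ a⟩⟩

/-- the specialisation `z ↦ x₀` of a generic point extends to a place -/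
theorem exists_place {K : Type} [Field K] [Countable K] [Algebra K ℂ] {σ : Type} [Countable σ] {z : σ → ℂ}
    (hz : AlgebraicIndependent K z) (x₀ : σ → ℂ) :
    ∃ (O : ValuationSubring ℂ) (π : O →+* ℂ), ∀ P : MvPolynomial σ K,
      ∃ h : MvPolynomial.aeval z P ∈ O, π ⟨MvPolynomial.aeval z P, h⟩ = MvPolynomial.aeval x₀ P := by
  let φ : MvPolynomial σ K →+* ℂ := (MvPolynomial.aeval (R := K) z).toRingHom
  have hφ : Function.Injective φ := hz
  let e : MvPolynomial σ K ≃+* φ.range :=
    RingEquiv.ofBijective φ.rangeRestrict ⟨fun a b h => hφ (congrArg Subtype.val h), φ.rangeRestrict_surjective⟩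
  haveI : Countable (MvPolynomial σ K) := by
    rw [← Cardinal.mk_le_aleph0_iff]
    refine MvPolynomial.cardinalMk_le_max.trans ?_
    simp
  haveI : Countable φ.range := e.symm.injective.countable
  obtain ⟨O, π, h⟩ := exists_place_subring φ.range
    ((MvPolynomial.aeval (R := K) x₀).toRingHom.comp e.symm.toRingHom)
  refine ⟨O, π, fun P => ?_⟩
  obtain ⟨h1, h2⟩ := h (e P)
  refine ⟨h1, h2.trans ?_⟩
  simp

end Crest.Agent.R172.Q
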