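import Mathlib

/-! # R172/Q/Scott: additive Scott lemma, intertwiner bound -/

set_option autoImplicit false
set_option linter.unusedSectionVars false

open Module LinearMap

namespace Crest.Agent.R172.Q

section
variable {K W : Type} [Field K] [AddCommGroup W] [Module K W] [FiniteDimensional K W]

/-- additive Scott lemma -/
theorem scott {ι : Type} [Fintype ι] (θ : ι → W →ₗ[K] W) (h : ∑ i, θ i = 0) :
    finrank K W + finrank K ↥(⨆ i, range (θ i)) ≤
      ∑ i, finrank K ↥(range (θ i)) + finrank K ↥(⨅ i, ker (θ i)) := by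
  classical
  let a : W →ₗ[K] (∀ i, ↥(range (θ i))) := LinearMap.pi fun i => (θ i).rangeRestrict
  let b : (∀ i, ↥(range (θ i))) →ₗ[K] W := ∑ i, (range (θ i)).subtype ∘ₗ LinearMap.proj i
  have hb : ∀ x, b x = ∑ i, (x i : W) := fun x => by simp [b, LinearMap.sum_apply]
  have hka : ker a = ⨅ i, ker (θ i) := by
    ext w
    simp only [a, mem_ker, Submodule.mem_iInf]
    constructor
    · intro hw i
      have := congrArg (fun x => ((x i : ↥(range (θ i))) : W)) hw
      simpa using this
    · intro hw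
      funext i
      apply Subtype.ext
      simpa using hw i
  have hrb : range b = ⨆ i, range (θ i) := by
    apply le_antisymm
    · rintro _ ⟨x, rfl⟩
      rw [hb]
      exact Submodule.sum_mem _ fun i _ => Submodule.mem_iSup_of_mem i (x i).2
    · refine iSup_le fun i w hw => ⟨Pi.single i ⟨w, hw⟩, ?_⟩
      rw [hb, Finset.sum_eq_single i]
      · simp
      · intro j _ hj
        simp [Pi.single_eq_of_ne hj]
      · simp
  have hab : range a ≤ ker b := by
    rintro _ ⟨w, rfl⟩
    rw [mem_ker, hb]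
    have := LinearMap.congr_fun h w
    simpa [a, LinearMap.sum_apply] using this
  have h1 := finrank_range_add_finrank_ker a
  have h2 := finrank_range_add_finrank_ker b
  have h3 := Submodule.finrank_mono hab
  rw [hka] at h1
  rw [hrb, Module.finrank_pi_fintype] at h2
  omega

/-- for self-adjoint maps the images span the orthogonal of the common kernel -/
theorem finrank_iSup_range_sym {ι : Type} (B : LinearMap.BilinForm K W) (hB : B.Nondegenerate) (hs : B.IsSymm)
    (θ : ι → W →ₗ[K] W) (hθ : ∀ i x y, B (θ i x) y = B x (θ i y)) :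
    finrank K ↥(⨆ i, range (θ i)) + finrank K ↥(⨅ i, ker (θ i)) = finrank K W := by
  have h : B.orthogonal (⨆ i, range (θ i)) = ⨅ i, ker (θ i) := by
    ext w
    simp only [BilinForm.mem_orthogonal_iff, Submodule.mem_iInf, mem_ker]
    constructor
    · intro hw i
      refine hB.2 _ fun x => ?_
      rw [← hθ]
      exact hw _ (Submodule.mem_iSup_of_mem i ⟨x, rfl⟩)
    · intro hw n hn
      refine Submodule.iSup_induction (fun i => range (θ i)) (motive := fun n => B n w = 0) hn ?_ (by simp) ?_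
      · rintro i _ ⟨x, rfl⟩
        rw [hθ, hw, map_zero]
      · intro x y hx hy
        rw [map_add, LinearMap.add_apply, hx, hy, add_zero]
  have h2 := BilinForm.finrank_orthogonal hB (⨆ i, range (θ i))
  have h3 := Submodule.finrank_le (⨆ i, range (θ i))
  rw [h] at h2
  omega

/-- Scott lemma for self-adjoint maps with sum zero:
`∑ dim ker θ i + 2 dim W ≤ #ι dim W + 2 dim ⋂ ker` -/
theorem scott_sym {ι : Type} [Fintype ι] (B : LinearMap.BilinForm K W) (hB : B.Nondegenerate) (hs : B.IsSymm)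
    (θ : ι → W →ₗ[K] W) (hθ : ∀ i x y, B (θ i x) y = B x (θ i y)) (h : ∑ i, θ i = 0) :
    ∑ i, finrank K ↥(ker (θ i)) + 2 * finrank K W ≤
      Fintype.card ι * finrank K W + 2 * finrank K ↥(⨅ i, ker (θ i)) := by
  have h1 := scott θ h
  have h2 := finrank_iSup_range_sym B hB hs θ hθ
  have h3 : ∑ i, finrank K ↥(range (θ i)) + ∑ i, finrank K ↥(ker (θ i)) = Fintype.card ι * finrank K W := by
    rw [← Finset.sum_add_distrib]
    simp [finrank_range_add_finrank_ker]
  omega

/-- three points, no common kernel: `∑ dim ker θ i ≤ dim W` -/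
theorem scott_three (B : LinearMap.BilinForm K W) (hB : B.Nondegenerate) (hs : B.IsSymm)
    (θ : Fin 3 → W →ₗ[K] W) (hθ : ∀ i x y, B (θ i x) y = B x (θ i y)) (h : ∑ i, θ i = 0)
    (h0 : ⨅ i, ker (θ i) = ⊥) : ∑ i, finrank K ↥(ker (θ i)) ≤ finrank K W := by
  have h1 := scott_sym B hB hs θ hθ h
  rw [h0, finrank_bot, Fintype.card_fin] at h1
  omega

end

section
variable {K W₁ W₂ : Type} [Field K] [AddCommGroup W₁] [Module K W₁] [FiniteDimensional K W₁]
  [AddCommGroup W₂] [Module K W₂] [FiniteDimensional K W₂]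

/-- the space of maps `g` with `a g = g b` -/
def intw (a : W₁ →ₗ[K] W₁) (b : W₂ →ₗ[K] W₂) : Submodule K (W₂ →ₗ[K] W₁) where
  carrier := {g | a ∘ₗ g = g ∘ₗ b}
  zero_mem' := by simp
  add_mem' := fun {x y} hx hy => by
    simp only [Set.mem_setOf_eq] at *
    rw [comp_add, add_comp, hx, hy]
  smul_mem' := fun c x hx => by
    simp only [Set.mem_setOf_eq] at *
    rw [comp_smul, smul_comp, hx]

theorem mem_intw {a : W₁ →ₗ[K] W₁} {b : W₂ →ₗ[K] W₂} {g : W₂ →ₗ[K] W₁} : g ∈ intw a b ↔ a ∘ₗ g = g ∘ₗ b := Iff.rfl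

/-- a nonzero subspace stable under a nilpotent map meets its kernel -/
theorem exists_ker_of_nilp (a : W₁ →ₗ[K] W₁) (ha : IsNilpotent a) (S : Submodule K W₁) (hS : ∀ v ∈ S, a v ∈ S)
    {v : W₁} (hv : v ∈ S) (hv0 : v ≠ 0) : ∃ w ∈ S, w ≠ 0 ∧ a w = 0 := by
  obtain ⟨N, hN⟩ := ha
  induction N generalizing v with
  | zero =>
    exfalso
    apply hv0
    have := LinearMap.congr_fun hN v
    simpa using this
  | succ N _ =>
    by_contra hcon
    push Not at hcon
    have key : ∀ k : ℕ, (a ^ k) v ∈ S ∧ (a ^ k) v ≠ 0 := by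
      intro k
      induction k with
      | zero => exact ⟨by simpa using hv, by simpa using hv0⟩
      | succ k ih =>
        rw [pow_succ', Module.End.mul_apply]
        exact ⟨hS _ ih.1, hcon _ ih.1 ih.2⟩
    exact (key (N + 1)).2 (by rw [hN]; rfl)

/-- intertwiner bound: `dim {g | a g = g b} ≤ dim ker a * dim W₂` for nilpotent `a` -/
theorem finrank_intw_le (a : W₁ →ₗ[K] W₁) (ha : IsNilpotent a) (b : W₂ →ₗ[K] W₂) :
    finrank K ↥(intw a b) ≤ finrank K ↥(ker a) * finrank K W₂ := by
  obtain ⟨p, hp⟩ := LinearMap.exists_leftInverse_of_injective (ker a).subtype (Submodule.ker_subtype _)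
  let Φ : ↥(intw a b) →ₗ[K] (W₂ →ₗ[K] ↥(ker a)) := (LinearMap.llcomp K W₂ W₁ ↥(ker a) p) ∘ₗ (intw a b).subtype
  have hΦ : Function.Injective Φ := by
    rw [← LinearMap.ker_eq_bot, eq_bot_iff]
    rintro ⟨g, hg⟩ h0
    have h0' : p ∘ₗ g = 0 := h0
    by_contra hne
    have hg0 : g ≠ 0 := fun h => hne (by simp [h])
    obtain ⟨x, hx⟩ : ∃ x, g x ≠ 0 := by
      by_contra hc
      push Not at hc
      exact hg0 (LinearMap.ext hc)
    obtain ⟨w, ⟨y, rfl⟩, hw0, hw⟩ := exists_ker_of_nilp a ha (range g) (by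
      rintro _ ⟨y, rfl⟩
      exact ⟨b y, (LinearMap.congr_fun (mem_intw.1 hg) y).symm⟩) ⟨x, rfl⟩ hx
    have h1 : p (g y) = ⟨g y, hw⟩ := LinearMap.congr_fun hp ⟨g y, hw⟩
    have h2 : p (g y) = 0 := LinearMap.congr_fun h0' y
    rw [h2] at h1
    exact hw0 (congrArg Subtype.val h1).symm
  have := LinearMap.finrank_le_finrank_of_injective hΦ
  rwa [Module.finrank_linearMap, mul_comm] at this

end

end Crest.Agent.R172.Q
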