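import Crest.Agent.R172.Q.Conn

/-! # R172/Q/Skew: skew extension; every subspace moves along a skew endomorphism; `H¹(T_S) = 0` -/

set_option autoImplicit false
set_option linter.unusedSectionVars false
set_option linter.unusedVariables false

noncomputable section

namespace Crest.Agent.R172.Q

open Module

variable {E : Type} [AddCommGroup E] [Module ℂ E] [FiniteDimensional ℂ E]

/-- a map on `S` that is skew on `S` extends to a skew endomorphism -/
theorem exists_skew_ext {B : LinearMap.BilinForm ℂ E} (hB : B.Nondegenerate) (hs : ∀ x y, B x y = B y x)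
    (S : Submodule ℂ E) (σ : S →ₗ[ℂ] E) (h : ∀ u v : S, B (σ u) v + B u (σ v) = 0) :
    ∃ X : E →ₗ[ℂ] E, (∀ u v, B (X u) v + B u (X v) = 0) ∧ ∀ u : S, X u = σ u := by
  obtain ⟨p, hp⟩ := LinearMap.exists_leftInverse_of_injective S.subtype (Submodule.ker_subtype _)
  have hp' : ∀ u : S, p u = u := fun u => LinearMap.congr_fun hp u
  let ω : LinearMap.BilinForm ℂ E := B.compl₁₂ (σ ∘ₗ p) LinearMap.id - (B.compl₁₂ (σ ∘ₗ p) LinearMap.id).flip -
    B.compl₁₂ (σ ∘ₗ p) (S.subtype ∘ₗ p)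
  have hω : ∀ x y, ω x y = B (σ (p x)) y - B (σ (p y)) x - B (σ (p x)) (p y) := fun x y => rfl
  let X : E →ₗ[ℂ] E := (B.toDual hB).symm.toLinearMap ∘ₗ ω
  have hX : ∀ x y, B (X x) y = ω x y := fun x y => LinearMap.BilinForm.apply_toDual_symm_apply (hB := hB) (ω x) y
  refine ⟨X, fun u v => ?_, fun u => ?_⟩
  · rw [hs u, hX, hX, hω, hω]
    have := h (p u) (p v)
    rw [hs (p u : E)] at this
    linear_combination -this
  · rw [← sub_eq_zero]
    refine hB.1 _ fun y => ?_
    rw [map_sub, LinearMap.sub_apply, hX, hω, hp']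
    have := h (p y) u
    rw [hs (p y : E)] at this
    linear_combination -this

/-- a linear lift of the drift -/
theorem exists_lift_drift {D : Der} (N : Conn D E) (S : Submodule ℂ E) :
    ∃ σ : S →ₗ[ℂ] E, ∀ v : S, N v - σ v ∈ S := by
  obtain ⟨s, hs⟩ := LinearMap.exists_rightInverse_of_surjective S.mkQ (Submodule.range_mkQ S)
  refine ⟨s ∘ₗ N.drift S, fun v => ?_⟩
  rw [← Submodule.Quotient.eq, LinearMap.comp_apply]
  exact (LinearMap.congr_fun hs (N.drift S v)).symm

/-- every subspace is stable for some twist -/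
theorem exists_stab {D : Der} (N : Conn D E) (S : Submodule ℂ E) : ∃ X : E →ₗ[ℂ] E, (N.tw X).Stab S := by
  obtain ⟨σ, hσ⟩ := exists_lift_drift N S
  obtain ⟨p, hp⟩ := LinearMap.exists_leftInverse_of_injective S.subtype (Submodule.ker_subtype _)
  refine ⟨σ ∘ₗ p, fun v hv => ?_⟩
  have hp' : p v = ⟨v, hv⟩ := LinearMap.congr_fun hp ⟨v, hv⟩
  rw [Conn.tw_apply, LinearMap.comp_apply, hp']
  exact hσ ⟨v, hv⟩

/-- a symmetric form on `S` vanishing on the radical of `B|S` is `B(τ u, v) + B(u, τ v)` -/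
theorem exists_sym_div {V : Type} [AddCommGroup V] [Module ℂ V] [FiniteDimensional ℂ V] (G β : LinearMap.BilinForm ℂ V)
    (hG : ∀ x y, G x y = G y x) (hβ : ∀ x y, β x y = β y x)
    (h : ∀ x ∈ LinearMap.ker G, ∀ y ∈ LinearMap.ker G, β x y = 0) :
    ∃ τ : V →ₗ[ℂ] V, ∀ u v, G (τ u) v + G u (τ v) = β u v := by
  obtain ⟨q, hq⟩ := LinearMap.exists_leftInverse_of_injective (LinearMap.ker G).subtype (Submodule.ker_subtype _)
  let q' : V →ₗ[ℂ] V := (LinearMap.ker G).subtype ∘ₗ q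
  have hq1 : ∀ x, q' x ∈ LinearMap.ker G := fun x => (q x).2
  have hq2 : ∀ x ∈ LinearMap.ker G, q' x = x := fun x hx =>
    congrArg Subtype.val (LinearMap.congr_fun hq ⟨x, hx⟩)
  let γ : LinearMap.BilinForm ℂ V := (1 / 2 : ℂ) • (β - β.compl₁₂ LinearMap.id q' + β.compl₁₂ q' LinearMap.id)
  have hγ : ∀ x y, γ x y = (1 / 2 : ℂ) * (β x y - β x (q' y) + β (q' x) y) := fun x y => rfl
  have hr : LinearMap.range G = (LinearMap.ker G).dualAnnihilator := by
    have hfl : G.flip = G := LinearMap.ext fun x => LinearMap.ext fun y => hG y x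
    refine Submodule.eq_of_le_of_finrank_le ?_ ?_
    · rintro _ ⟨x, rfl⟩
      rw [Submodule.mem_dualAnnihilator]
      intro w hw
      rw [hG, LinearMap.mem_ker.1 hw]
      rfl
    · have h1 := LinearMap.finrank_range_add_finrank_ker G
      have h2 := Subspace.finrank_add_finrank_dualAnnihilator_eq (LinearMap.ker G)
      exact (Nat.add_left_cancel (h2.trans (h1.symm.trans (add_comm _ _)))).le
  have hm : ∀ x, γ x ∈ LinearMap.range G := fun x => by
    rw [hr, Submodule.mem_dualAnnihilator]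
    intro w hw
    rw [hγ, hq2 w hw, h _ (hq1 x) w hw]
    ring
  obtain ⟨s, hs⟩ := LinearMap.exists_rightInverse_of_surjective G.rangeRestrict (LinearMap.range_rangeRestrict G)
  refine ⟨s ∘ₗ γ.codRestrict _ hm, fun u v => ?_⟩
  have key : ∀ x, G ((s ∘ₗ γ.codRestrict _ hm) x) = γ x := fun x =>
    congrArg Subtype.val (LinearMap.congr_fun hs (γ.codRestrict _ hm x))
  rw [hG u, key, key, hγ, hγ, hβ v u, hβ v (q' u), hβ (q' v) u]
  ring

/-- every subspace of a quadratic space with a compatible connection moves along a SKEW endomorphism -/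
theorem exists_skew_stab {D : Der} {N : Conn D E} {B : LinearMap.BilinForm ℂ E} (hB : B.Nondegenerate)
    (hs : ∀ x y, B x y = B y x) (hN : N.Compat N B) (S : Submodule ℂ E) :
    ∃ X : E →ₗ[ℂ] E, (∀ u v, B (X u) v + B u (X v) = 0) ∧ (N.tw X).Stab S := by
  obtain ⟨σ, hσ⟩ := exists_lift_drift N S
  let G : LinearMap.BilinForm ℂ S := B.compl₁₂ S.subtype S.subtype
  let β : LinearMap.BilinForm ℂ S := B.compl₁₂ σ S.subtype + B.compl₁₂ S.subtype σ
  have hG : ∀ x y : S, G x y = B x y := fun _ _ => rfl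
  have hβ : ∀ x y : S, β x y = B (σ x) y + B x (σ y) := fun _ _ => rfl
  obtain ⟨τ, hτ⟩ := exists_sym_div G β (fun x y => hs _ _) (fun x y => by rw [hβ, hβ, hs (σ x), hs (x : E), add_comm])
    fun x hx y hy => by
      have hx' : ∀ z ∈ S, B x z = 0 := fun z hz => LinearMap.congr_fun (LinearMap.mem_ker.1 hx) ⟨z, hz⟩
      have hy' : ∀ z ∈ S, B y z = 0 := fun z hz => LinearMap.congr_fun (LinearMap.mem_ker.1 hy) ⟨z, hz⟩
      have h1 := hN.skew (hx' y y.2)
      have h2 := hx' _ (hσ y)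
      have h3 := hy' _ (hσ x)
      rw [map_sub] at h2 h3
      rw [hβ, hs (σ x), hs (N x)] at *
      linear_combination h1 - h2 - h3
  obtain ⟨X, hX, hXσ⟩ := exists_skew_ext hB hs S (σ - S.subtype ∘ₗ τ) fun u v => by
    have := hτ u v
    rw [hG, hG, hβ] at this
    simp only [LinearMap.sub_apply, LinearMap.comp_apply, Submodule.subtype_apply, map_sub]
    linear_combination -this
  refine ⟨X, hX, fun v hv => ?_⟩
  have h1 := hXσ ⟨v, hv⟩
  rw [Conn.tw_apply, h1, LinearMap.sub_apply]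
  have : N v - (σ ⟨v, hv⟩ - (S.subtype ∘ₗ τ) ⟨v, hv⟩) = (N v - σ ⟨v, hv⟩) + τ ⟨v, hv⟩ := by
    simp only [LinearMap.comp_apply, Submodule.subtype_apply]
    abel
  rw [this]
  exact S.add_mem (hσ ⟨v, hv⟩) (τ ⟨v, hv⟩).2

/-- `H¹(T_S) = 0`: if the subspaces `F i j` move along `x i` for one compatible connection, then for EVERY subspace `S`
there is one skew `y` such that each `x i - y` maps `S ⊓ F i j` into `F i j ⊔ S`. -/
theorem h1_tangent {D : Der} {N : Conn D E} {B : LinearMap.BilinForm ℂ E} (hB : B.Nondegenerate)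
    (hs : ∀ x y, B x y = B y x) (hN : N.Compat N B) {I J : Type} (F : I → J → Submodule ℂ E) (x : I → E →ₗ[ℂ] E)
    (hF : ∀ i j, (N.tw (x i)).Stab (F i j)) (S : Submodule ℂ E) :
    ∃ y : E →ₗ[ℂ] E, (∀ u v, B (y u) v + B u (y v) = 0) ∧ (N.tw y).Stab S ∧
      ∀ i j, ∀ v ∈ S ⊓ F i j, x i v - y v ∈ F i j ⊔ S := by
  obtain ⟨y, hy, hS⟩ := exists_skew_stab hB hs hN S
  exact ⟨y, hy, hS, fun i j v hv => Conn.petri_mem (hF i j) hS hv.2 hv.1⟩

end Crest.Agent.R172.Q
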