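import Crest.Agent.R172.Q.Place

/-! # R172/Q/Spec: specialisation of subspaces of `ι → ℂ` along a place `π : O →+* ℂ` -/

set_option autoImplicit false
set_option linter.unusedSectionVars false
set_option linter.unusedVariables false

open Module Matrix

namespace Crest.Agent.R172.Q

variable {O : ValuationSubring ℂ} (π : O →+* ℂ) {ι κ : Type} [Fintype ι] [Fintype κ]

/-- the vector `w` is the reduction of the (integral) vector `v` -/
def Red (v w : ι → ℂ) : Prop := ∀ i, ∃ h : v i ∈ O, π ⟨v i, h⟩ = w i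

/-- scalar version -/
def RedS (a b : ℂ) : Prop := ∃ h : a ∈ O, π ⟨a, h⟩ = b

/-- matrix version -/
def RedM (M N : Matrix ι κ ℂ) : Prop := ∀ i j, RedS π (M i j) (N i j)

theorem red_iff {v w : ι → ℂ} : Red π v w ↔ ∀ i, RedS π (v i) (w i) := Iff.rfl

variable {π}

theorem RedS.zero : RedS π 0 0 := ⟨O.zero_mem, map_zero π⟩
theorem RedS.one : RedS π 1 1 := ⟨O.one_mem, map_one π⟩
theorem RedS.add {a b c d : ℂ} (h : RedS π a b) (h' : RedS π c d) : RedS π (a + c) (b + d) := by
  obtain ⟨h1, rfl⟩ := h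
  obtain ⟨h2, rfl⟩ := h'
  exact ⟨O.add_mem _ _ h1 h2, map_add π ⟨a, h1⟩ ⟨c, h2⟩⟩
theorem RedS.mul {a b c d : ℂ} (h : RedS π a b) (h' : RedS π c d) : RedS π (a * c) (b * d) := by
  obtain ⟨h1, rfl⟩ := h
  obtain ⟨h2, rfl⟩ := h'
  exact ⟨O.mul_mem _ _ h1 h2, map_mul π ⟨a, h1⟩ ⟨c, h2⟩⟩
theorem RedS.neg {a b : ℂ} (h : RedS π a b) : RedS π (-a) (-b) := by
  obtain ⟨h1, rfl⟩ := h
  exact ⟨O.neg_mem _ h1, map_neg π ⟨a, h1⟩⟩
theorem RedS.sub {a b c d : ℂ} (h : RedS π a b) (h' : RedS π c d) : RedS π (a - c) (b - d) := by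
  rw [sub_eq_add_neg, sub_eq_add_neg]
  exact h.add h'.neg
theorem RedS.sum {α : Type} (s : Finset α) {f g : α → ℂ} (h : ∀ a ∈ s, RedS π (f a) (g a)) :
    RedS π (∑ a ∈ s, f a) (∑ a ∈ s, g a) := by
  classical
  induction s using Finset.induction_on with
  | empty => simpa using RedS.zero
  | insert a s ha ih =>
    rw [Finset.sum_insert ha, Finset.sum_insert ha]
    exact (h a (Finset.mem_insert_self _ _)).add (ih fun b hb => h b (Finset.mem_insert_of_mem hb))
theorem RedS.unique {a b c : ℂ} (h : RedS π a b) (h' : RedS π a c) : b = c := by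
  obtain ⟨h1, rfl⟩ := h
  obtain ⟨h2, rfl⟩ := h'
  rfl
theorem RedS.eq_zero {b : ℂ} (h : RedS π 0 b) : b = 0 := h.unique RedS.zero

theorem Red.mulVec {M N : Matrix ι κ ℂ} {v w : κ → ℂ} (hM : RedM π M N) (h : Red π v w) :
    Red π (M *ᵥ v) (N *ᵥ w) := fun i => RedS.sum Finset.univ fun j _ => (hM i j).mul (h j)

theorem Red.dot {v w v' w' : ι → ℂ} (h : Red π v w) (h' : Red π v' w') : RedS π (v ⬝ᵥ v') (w ⬝ᵥ w') :=
  RedS.sum Finset.univ fun j _ => RedS.mul (h j) (h' j)

theorem RedM.mul {μ : Type} [Fintype μ] {M N : Matrix ι κ ℂ} {M' N' : Matrix κ μ ℂ} (h : RedM π M N) (h' : RedM π M' N') :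
    RedM π (M * M') (N * N') := fun i k => RedS.sum Finset.univ fun j _ => (h i j).mul (h' j k)

theorem RedM.transpose {M N : Matrix ι κ ℂ} (h : RedM π M N) : RedM π Mᵀ Nᵀ := fun i j => h j i

variable (π)

/-- the specialisation of a subspace -/
def sp (S : Submodule ℂ (ι → ℂ)) : Submodule ℂ (ι → ℂ) := Submodule.span ℂ {w | ∃ v ∈ S, Red π v w}

variable {π}

theorem Red.mem_sp {S : Submodule ℂ (ι → ℂ)} {v w : ι → ℂ} (h : Red π v w) (hv : v ∈ S) : w ∈ sp π S :=
  Submodule.subset_span ⟨v, hv, h⟩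

theorem sp_le {S T : Submodule ℂ (ι → ℂ)} (h : ∀ v ∈ S, ∀ w, Red π v w → w ∈ T) : sp π S ≤ T :=
  Submodule.span_le.2 fun w ⟨v, hv, hw⟩ => h v hv w hw

theorem sp_mono {S T : Submodule ℂ (ι → ℂ)} (h : S ≤ T) : sp π S ≤ sp π T :=
  sp_le fun v hv w hw => hw.mem_sp (h hv)

theorem sp_inf_le (S T : Submodule ℂ (ι → ℂ)) : sp π (S ⊓ T) ≤ sp π S ⊓ sp π T :=
  le_inf (sp_mono inf_le_left) (sp_mono inf_le_right)

theorem le_sp_sup (S T : Submodule ℂ (ι → ℂ)) : sp π S ⊔ sp π T ≤ sp π (S ⊔ T) :=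
  sup_le (sp_mono le_sup_left) (sp_mono le_sup_right)

theorem sp_bot : sp π (⊥ : Submodule ℂ (ι → ℂ)) = ⊥ := by
  refine le_bot_iff.1 (sp_le fun v hv w hw => ?_)
  rw [Submodule.mem_bot] at hv ⊢
  subst hv
  funext i
  exact RedS.eq_zero (hw i)

theorem exists_scale' (O : ValuationSubring ℂ) (x : ι → ℂ) (hx : x ≠ 0) :
    ∃ (t : ℂ) (i0 : ι), (∀ i, (t • x) i ∈ O) ∧ (t • x) i0 = 1 := by
  obtain ⟨j, hj⟩ := Function.ne_iff.1 hx
  obtain ⟨i0, -, hi0⟩ := Finset.exists_max_image Finset.univ (fun i => O.valuation (x i))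
    ⟨j, Finset.mem_univ _⟩
  have h0 : x i0 ≠ 0 := by
    intro h
    have := hi0 j (Finset.mem_univ _)
    rw [h, map_zero, le_zero_iff, map_eq_zero] at this
    exact hj this
  refine ⟨(x i0)⁻¹, i0, fun i => ?_, ?_⟩
  · rw [Pi.smul_apply, smul_eq_mul, ← div_eq_inv_mul, ← O.valuation_le_one_iff, map_div₀]
    exact div_le_one_of_le₀ (hi0 i (Finset.mem_univ _)) zero_le
  · simp [h0]

/-- specialisation keeps the dimension -/
theorem finrank_sp (S : Submodule ℂ (ι → ℂ)) : finrank ℂ (sp π S) = finrank ℂ S := by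
  induction hd : finrank ℂ S generalizing S with
  | zero =>
    rw [Submodule.finrank_eq_zero.1 hd, sp_bot, finrank_bot]
  | succ d ih =>
    obtain ⟨x, hxS, hx⟩ : ∃ x ∈ S, x ≠ 0 := by
      by_contra hc
      push Not at hc
      rw [(Submodule.eq_bot_iff S).2 hc, finrank_bot] at hd
      omega
    obtain ⟨t, i0, hO, h1⟩ := exists_scale' O x hx
    set v := t • x with hv
    have hvS : v ∈ S := S.smul_mem t hxS
    let w : ι → ℂ := fun i => π ⟨v i, hO i⟩
    have hvw : Red π v w := fun i => ⟨hO i, rfl⟩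
    have hw1 : w i0 = 1 := RedS.unique (π := π) (hvw i0) (by rw [h1]; exact RedS.one)
    let P : Submodule ℂ (ι → ℂ) := LinearMap.ker (LinearMap.proj i0 : (ι → ℂ) →ₗ[ℂ] ℂ)
    have hP : ∀ y, y ∈ P ↔ y i0 = 0 := fun y => Iff.rfl
    have split : ∀ (A A' : Submodule ℂ (ι → ℂ)) (a : ι → ℂ), a i0 = 1 → A' ≤ P → A = A' ⊔ Submodule.span ℂ {a} →
        finrank ℂ A = finrank ℂ A' + 1 := by
      intro A A' a ha hA' hA
      have ha0 : a ≠ 0 := fun h => by simp [h] at ha
      have hdis : A' ⊓ Submodule.span ℂ {a} = ⊥ := by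
        rw [eq_bot_iff]
        rintro y ⟨hy1, hy2⟩
        obtain ⟨c, rfl⟩ := Submodule.mem_span_singleton.1 hy2
        have := (hP _).1 (hA' hy1)
        simp only [Pi.smul_apply, ha, smul_eq_mul, mul_one] at this
        simp [this]
      have := Submodule.finrank_sup_add_finrank_inf_eq A' (Submodule.span ℂ {a})
      rw [hdis, finrank_bot, finrank_span_singleton ha0, ← hA] at this
      omega
    have e1 : finrank ℂ S = finrank ℂ ↥(S ⊓ P) + 1 := by
      refine split S (S ⊓ P) v h1 inf_le_right (le_antisymm (fun y hy => ?_)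
        (sup_le inf_le_left ((Submodule.span_singleton_le_iff_mem _ _).2 hvS)))
      have : y = (y - y i0 • v) + y i0 • v := by abel
      rw [this]
      refine Submodule.add_mem_sup ⟨S.sub_mem hy (S.smul_mem _ hvS), (hP _).2 (by simp [h1])⟩
        (Submodule.smul_mem _ _ (Submodule.mem_span_singleton_self _))
    have e2 : finrank ℂ (sp π S) = finrank ℂ ↥(sp π (S ⊓ P)) + 1 := by
      refine split (sp π S) (sp π (S ⊓ P)) w hw1 (sp_le fun a ha b hb => ?_) (le_antisymm (sp_le fun y hy z hz => ?_)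
        (sup_le (sp_mono inf_le_left) ((Submodule.span_singleton_le_iff_mem _ _).2 (hvw.mem_sp hvS))))
      · have h2 : RedS π (a i0) (b i0) := hb i0
        rw [(hP _).1 ha.2] at h2
        exact (hP _).2 h2.eq_zero
      · have : z = (z - z i0 • w) + z i0 • w := by abel
        rw [this]
        refine Submodule.add_mem_sup (Red.mem_sp (v := y - y i0 • v) (fun i => ?_)
          ⟨S.sub_mem hy (S.smul_mem _ hvS), (hP _).2 (by simp [h1])⟩)
          (Submodule.smul_mem _ _ (Submodule.mem_span_singleton_self _))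
        exact RedS.sub (π := π) (hz i) (RedS.mul (π := π) (hz i0) (hvw i))
    rw [e2, ih (S ⊓ P) (by omega)]

/-- intersections can only grow -/
theorem finrank_inf_le_sp (S T : Submodule ℂ (ι → ℂ)) : finrank ℂ ↥(S ⊓ T) ≤ finrank ℂ ↥(sp π S ⊓ sp π T) := by
  rw [← finrank_sp (π := π) (S ⊓ T)]
  exact Submodule.finrank_mono (sp_inf_le S T)

/-- images under integral matrices -/
theorem map_sp_le {M N : Matrix ι κ ℂ} [DecidableEq κ] (h : RedM π M N) (S : Submodule ℂ (κ → ℂ)) :
    (sp π S).map N.mulVecLin ≤ sp π (S.map M.mulVecLin) := by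
  rw [Submodule.map_le_iff_le_comap]
  exact sp_le fun v hv w hw => (hw.mulVec h).mem_sp ⟨v, hv, rfl⟩

/-- if the reduced matrix is injective, specialisation commutes with the image -/
theorem sp_map_eq {M N : Matrix ι κ ℂ} [DecidableEq κ] (h : RedM π M N) (hN : Function.Injective N.mulVecLin)
    (S : Submodule ℂ (κ → ℂ)) : sp π (S.map M.mulVecLin) = (sp π S).map N.mulVecLin := by
  refine (Submodule.eq_of_le_of_finrank_le (map_sp_le h S) ?_).symm
  rw [finrank_sp, ← LinearEquiv.finrank_eq (Submodule.equivMapOfInjective _ hN _), finrank_sp]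
  exact Submodule.finrank_map_le _ _

/-- a subspace spanned by vectors that reduce to themselves (e.g. rational vectors) is fixed -/
theorem sp_span_eq (A : Set (ι → ℂ)) (hA : ∀ v ∈ A, Red π v v) : sp π (Submodule.span ℂ A) = Submodule.span ℂ A := by
  refine (Submodule.eq_of_le_of_finrank_le (Submodule.span_le.2 fun v hv => (hA v hv).mem_sp (Submodule.subset_span hv))
    (finrank_sp _).le).symm

theorem sp_top : sp π (⊤ : Submodule ℂ (ι → ℂ)) = ⊤ :=
  Submodule.eq_top_of_finrank_eq (by rw [finrank_sp, finrank_top])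

/-- orthogonality (for a matrix pairing) passes to the specialisation -/
theorem sp_orth {M N : Matrix ι κ ℂ} (h : RedM π M N) {S : Submodule ℂ (ι → ℂ)} {T : Submodule ℂ (κ → ℂ)}
    (hST : ∀ v ∈ S, ∀ w ∈ T, v ⬝ᵥ M *ᵥ w = 0) : ∀ v ∈ sp π S, ∀ w ∈ sp π T, v ⬝ᵥ N *ᵥ w = 0 := by
  intro v hv w hw
  induction hv using Submodule.span_induction with
  | mem x hx =>
    obtain ⟨a, ha, hax⟩ := hx
    induction hw using Submodule.span_induction with
    | mem y hy =>
      obtain ⟨b, hb, hby⟩ := hy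
      have := hax.dot (hby.mulVec h)
      rw [hST a ha b hb] at this
      exact this.eq_zero
    | zero => simp
    | add y z _ _ h1 h2 => rw [mulVec_add, dotProduct_add, h1, h2, add_zero]
    | smul c y _ h1 => rw [mulVec_smul, dotProduct_smul, h1, smul_zero]
  | zero => simp
  | add y z _ _ h1 h2 => rw [add_dotProduct, h1, h2, add_zero]
  | smul c y _ h1 => rw [smul_dotProduct, h1, smul_zero]

/-- rank semicontinuity: the kernel can only grow -/
theorem sp_ker_le {M N : Matrix ι κ ℂ} [DecidableEq κ] (h : RedM π M N) :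
    sp π (LinearMap.ker M.mulVecLin) ≤ LinearMap.ker N.mulVecLin := by
  refine sp_le fun v hv w hw => ?_
  have h1 := hw.mulVec h
  have h2 : M *ᵥ v = 0 := hv
  rw [h2] at h1
  funext i
  exact RedS.eq_zero (h1 i)

/-- tensor products in coordinates `ι × κ` -/
def tens (S : Submodule ℂ (ι → ℂ)) (T : Submodule ℂ (κ → ℂ)) : Submodule ℂ (ι × κ → ℂ) :=
  Submodule.span ℂ {u | ∃ v ∈ S, ∃ w ∈ T, u = fun p => v p.1 * w p.2}

theorem tens_sp_le (S : Submodule ℂ (ι → ℂ)) (T : Submodule ℂ (κ → ℂ)) :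
    tens (sp π S) (sp π T) ≤ sp π (tens S T) := by
  refine Submodule.span_le.2 ?_
  rintro _ ⟨v, hv, w, hw, rfl⟩
  change (fun p : ι × κ => v p.1 * w p.2) ∈ sp π (tens S T)
  induction hv using Submodule.span_induction with
  | mem x hx =>
    obtain ⟨a, ha, hax⟩ := hx
    induction hw using Submodule.span_induction with
    | mem y hy =>
      obtain ⟨b, hb, hby⟩ := hy
      exact Red.mem_sp (v := fun p : ι × κ => a p.1 * b p.2) (fun p => RedS.mul (π := π) (hax p.1) (hby p.2))
        (Submodule.subset_span ⟨a, ha, b, hb, rfl⟩)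
    | zero =>
      convert Submodule.zero_mem (sp π (tens S T)) using 1
      funext p
      simp
    | add y z _ _ h1 h2 =>
      convert Submodule.add_mem _ h1 h2 using 1
      funext p
      simp [mul_add]
    | smul c y _ h1 =>
      convert Submodule.smul_mem _ c h1 using 1
      funext p
      simp only [Pi.smul_apply, smul_eq_mul]
      ring
  | zero =>
    convert Submodule.zero_mem (sp π (tens S T)) using 1
    funext p
    simp
  | add y z _ _ h1 h2 =>
    convert Submodule.add_mem _ h1 h2 using 1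
    funext p
    simp [add_mul]
  | smul c y _ h1 =>
    convert Submodule.smul_mem _ c h1 using 1
    funext p
    simp only [Pi.smul_apply, smul_eq_mul]
    ring

/-- the place of a specialisation `z ↦ x₀`, in the language of `RedS` -/
theorem exists_place_red {K : Type} [Field K] [Countable K] [Algebra K ℂ] {σ : Type} [Countable σ] {z : σ → ℂ}
    (hz : AlgebraicIndependent K z) (x₀ : σ → ℂ) :
    ∃ (O : ValuationSubring ℂ) (π : O →+* ℂ), (∀ c : K, RedS π (algebraMap K ℂ c) (algebraMap K ℂ c)) ∧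
      (∀ i, RedS π (z i) (x₀ i)) ∧
      ∀ P : MvPolynomial σ K, RedS π (MvPolynomial.aeval z P) (MvPolynomial.aeval x₀ P) := by
  obtain ⟨O, π, h⟩ := exists_place hz x₀
  refine ⟨O, π, fun c => ?_, fun i => ?_, h⟩
  · have : RedS π _ _ := h (MvPolynomial.C c)
    simpa using this
  · have : RedS π _ _ := h (MvPolynomial.X i)
    simpa using this

end Crest.Agent.R172.Q
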