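import Crest.Agent.R172.Q.Spec
import Crest.Agent.R172.Q.Defs

/-! # R172/Q/SpecM: specialisation in the model of `Q/Defs` (semicontinuity of `H` and `chi2`) -/

set_option autoImplicit false
set_option linter.unusedSectionVars false
set_option linter.unusedVariables false

open Module Matrix

noncomputable section
namespace Crest.Agent.R172.Q
open Crest.Agent.R172.W

section
variable {O : ValuationSubring ℂ} {π : O →+* ℂ} {ι κ : Type} [Fintype ι] [Fintype κ]

/-- matrices as vectors -/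
def uncS (ι κ : Type) : Matrix ι κ ℂ ≃ₗ[ℂ] (ι × κ → ℂ) where
  toFun M := fun p => M p.1 p.2
  invFun v := Matrix.of fun i j => v (i, j)
  map_add' _ _ := rfl
  map_smul' _ _ := rfl
  left_inv _ := rfl
  right_inv _ := rfl

variable (π) in
/-- the specialisation of a space of matrices -/
def spM (S : Submodule ℂ (Matrix ι κ ℂ)) : Submodule ℂ (Matrix ι κ ℂ) :=
  (sp π (S.map (uncS ι κ).toLinearMap)).map (uncS ι κ).symm.toLinearMap

theorem RedM.mem_spM {S : Submodule ℂ (Matrix ι κ ℂ)} {M N : Matrix ι κ ℂ} (h : RedM π M N) (hM : M ∈ S) :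
    N ∈ spM π S :=
  ⟨uncS ι κ N, Red.mem_sp (v := uncS ι κ M) (fun p => h p.1 p.2) ⟨M, hM, rfl⟩, (uncS ι κ).symm_apply_apply N⟩

theorem spM_le {S T : Submodule ℂ (Matrix ι κ ℂ)} (h : ∀ M ∈ S, ∀ N, RedM π M N → N ∈ T) : spM π S ≤ T := by
  rw [spM, Submodule.map_le_iff_le_comap]
  refine sp_le ?_
  rintro _ ⟨M, hM, rfl⟩ w hw
  exact h M hM _ fun i j => hw (i, j)

theorem spM_mono {S T : Submodule ℂ (Matrix ι κ ℂ)} (h : S ≤ T) : spM π S ≤ spM π T :=
  spM_le fun M hM N hN => hN.mem_spM (h hM)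

theorem finrank_spM (S : Submodule ℂ (Matrix ι κ ℂ)) : finrank ℂ (spM π S) = finrank ℂ S := by
  rw [spM, LinearEquiv.finrank_map_eq, finrank_sp, LinearEquiv.finrank_map_eq]

theorem spM_inf_le (S T : Submodule ℂ (Matrix ι κ ℂ)) : spM π (S ⊓ T) ≤ spM π S ⊓ spM π T :=
  le_inf (spM_mono inf_le_left) (spM_mono inf_le_right)

end

variable {O : ValuationSubring ℂ} {π : O →+* ℂ} {n : ℕ} {l : Fin 3 → ℕ}

theorem spM_ten_le (R : Submodule ℂ (L n → ℂ)) (T : Submodule ℂ (K l → ℂ)) :
    spM π (ten R T) ≤ ten (sp π R) (sp π T) :=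
  spM_le fun M hM N hN => ⟨fun k => Red.mem_sp (v := fun p => M p k) (fun p => hN p k) (hM.1 k),
    fun p => Red.mem_sp (v := fun k => M p k) (fun k => hN p k) (hM.2 p)⟩

theorem spM_Lam0 (a : Fin 3 → Wt n) : spM π (Lam0 a l) = Lam0 a l := by
  refine Submodule.eq_of_le_of_finrank_le (spM_le fun M hM N hN p k e => ?_) (finrank_spM _).ge
  have h := hN p k
  rw [hM p k e] at h
  exact h.eq_zero

theorem RedM.mv {g g₀ : Fin 3 → Matrix (L n) (L n) ℂ} (hg : ∀ i, RedM π (g i) (g₀ i)) {M N : Matrix (L n) (K l) ℂ}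
    (h : RedM π M N) : RedM π (mv g M) (mv g₀ N) :=
  fun p k => RedS.sum Finset.univ fun q _ => (hg k.1 p q).mul (h q k)

theorem mv_injective {g : Fin 3 → Matrix (L n) (L n) ℂ} (hg : ∀ i, Function.Injective (g i).mulVec) :
    Function.Injective (mv (l := l) g) := by
  intro M N h
  ext p k
  have : (g k.1).mulVec (fun q => M q k) = (g k.1).mulVec (fun q => N q k) := by
    funext r
    exact congrFun (congrFun h r) k
  exact congrFun (hg k.1 this) p

theorem spM_Lam {g g₀ : Fin 3 → Matrix (L n) (L n) ℂ} (hg : ∀ i, RedM π (g i) (g₀ i))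
    (h₀ : ∀ i, Function.Injective (g₀ i).mulVec) (a : Fin 3 → Wt n) : spM π (Lam g a l) = Lam g₀ a l := by
  refine (Submodule.eq_of_le_of_finrank_le ?_ ?_).symm
  · conv_lhs => rw [Lam, ← spM_Lam0 (π := π) a]
    rw [Submodule.map_le_iff_le_comap]
    exact spM_le fun M hM N hN => (hN.mv hg).mem_spM ⟨M, hM, rfl⟩
  · rw [finrank_spM, Lam, Lam, ← LinearEquiv.finrank_eq (Submodule.equivMapOfInjective _ (mv_injective h₀) _)]
    exact Submodule.finrank_map_le _ _

/-- semicontinuity of `Λ ∩ R ⊗ T` -/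
theorem finrank_Lam_ten_le {g g₀ : Fin 3 → Matrix (L n) (L n) ℂ} (hg : ∀ i, RedM π (g i) (g₀ i))
    (h₀ : ∀ i, Function.Injective (g₀ i).mulVec) (a : Fin 3 → Wt n) (R : Submodule ℂ (L n → ℂ))
    (T : Submodule ℂ (K l → ℂ)) :
    finrank ℂ ↥(Lam g a l ⊓ ten R T) ≤ finrank ℂ ↥(Lam g₀ a l ⊓ ten (sp π R) (sp π T)) := by
  rw [← finrank_spM (π := π)]
  refine Submodule.finrank_mono ((spM_inf_le _ _).trans ?_)
  rw [spM_Lam hg h₀]
  exact inf_le_inf_left _ (spM_ten_le R T)

/-- semicontinuity of `H` -/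
theorem finrank_H_le {g g₀ : Fin 3 → Matrix (L n) (L n) ℂ} (hg : ∀ i, RedM π (g i) (g₀ i))
    (h₀ : ∀ i, Function.Injective (g₀ i).mulVec) (a : Fin 3 → Wt n) (T : Submodule ℂ (K l → ℂ)) :
    finrank ℂ (H g a T) ≤ finrank ℂ (H g₀ a (sp π T)) := by
  have := finrank_Lam_ten_le hg h₀ a ⊤ T
  rwa [sp_top] at this

/-- semicontinuity of the Hilbert-Mumford numbers -/
theorem chi2_le_sp {g g₀ : Fin 3 → Matrix (L n) (L n) ℂ} (hg : ∀ i, RedM π (g i) (g₀ i))
    (h₀ : ∀ i, Function.Injective (g₀ i).mulVec) (a : Fin 3 → Wt n) (R : Submodule ℂ (L n → ℂ)) :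
    chi2 g a l R ≤ chi2 g₀ a l (sp π R) := by
  have := finrank_Lam_ten_le (l := l) hg h₀ a R ⊤
  rw [sp_top] at this
  unfold chi2
  rw [finrank_sp]
  omega

/-- elements of `Gp n` are invertible -/
theorem Gp_isUnit {g : Matrix (L n) (L n) ℂ} (hg : g ∈ Gp n) : IsUnit g := by
  induction hg using Submonoid.closure_induction with
  | mem x hx =>
    obtain ⟨e, -, he, rfl⟩ := hx
    refine ⟨⟨1 + e, 1 - e, ?_, ?_⟩, rfl⟩
    · rw [add_mul, mul_sub, mul_sub, he]; simp
    · rw [sub_mul, mul_add, mul_add, he]; simp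
  | one => exact isUnit_one
  | mul x y _ _ hx hy => exact hx.mul hy

theorem Gp_injective {g : Matrix (L n) (L n) ℂ} (hg : g ∈ Gp n) : Function.Injective g.mulVec :=
  Matrix.mulVec_injective_iff_isUnit.2 (Gp_isUnit hg)

/-- `bV` as a bilinear form -/
def BV (l : Fin 3 → ℕ) : LinearMap.BilinForm ℂ (K l → ℂ) :=
  LinearMap.mk₂ ℂ bV (fun x y z => by simp [bV, add_mul, Finset.sum_add_distrib])
    (fun c x y => by simp [bV, Finset.mul_sum, mul_assoc])
    (fun x y z => by simp [bV, mul_add, Finset.sum_add_distrib])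
    (fun c x y => by simp [bV, Finset.mul_sum, mul_left_comm])

@[simp] theorem BV_apply (x y : K l → ℂ) : BV l x y = bV x y := rfl

theorem rv_rvS (k : K l) : rv (rv k) = k := by
  obtain ⟨i, k⟩ := k
  simp [rv]

theorem bV_commS (x y : K l → ℂ) : bV x y = bV y x := by
  unfold bV
  refine Finset.sum_bij' (fun k _ => rv k) (fun k _ => rv k) (by simp) (by simp) (fun k _ => rv_rvS k)
    (fun k _ => rv_rvS k) fun k _ => ?_
  rw [rv_rvS, mul_comm]

theorem bV_singleS (x : K l → ℂ) (k : K l) : bV x (Pi.single (rv k) 1) = x k := by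
  classical
  unfold bV
  rw [Finset.sum_eq_single k]
  · simp
  · intro j _ hj
    rw [Pi.single_eq_of_ne, mul_zero]
    intro h
    apply hj
    rw [← rv_rvS j, h, rv_rvS]
  · simp

theorem BV_nondeg : (BV l).Nondegenerate := by
  constructor
  · intro x hx
    funext k
    have := hx (Pi.single (rv k) 1)
    rwa [BV_apply, bV_singleS] at this
  · intro x hx
    funext k
    have := hx (Pi.single (rv k) 1)
    rwa [BV_apply, bV_commS, bV_singleS] at this

theorem isLag_iff (T : Submodule ℂ (K l → ℂ)) : IsLag T ↔ (BV l).orthogonal T = T := by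
  constructor
  · intro h
    ext x
    rw [h x, LinearMap.BilinForm.mem_orthogonal_iff]
    exact forall₂_congr fun y _ => by rw [bV_commS]; rfl
  · intro h x
    conv_lhs => rw [← h]
    rw [LinearMap.BilinForm.mem_orthogonal_iff]
    exact forall₂_congr fun y _ => by rw [bV_commS]; rfl

theorem IsLag.finrank {T : Submodule ℂ (K l → ℂ)} (h : IsLag T) : 2 * finrank ℂ T = finrank ℂ (K l → ℂ) := by
  have h1 := LinearMap.BilinForm.finrank_orthogonal BV_nondeg T
  have h2 := Submodule.finrank_le T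
  rw [(isLag_iff T).1 h] at h1
  omega

theorem isLag_of_iso {T : Submodule ℂ (K l → ℂ)} (h : ∀ x ∈ T, ∀ y ∈ T, bV x y = 0)
    (hd : 2 * finrank ℂ T = finrank ℂ (K l → ℂ)) : IsLag T := by
  rw [isLag_iff]
  have h1 := LinearMap.BilinForm.finrank_orthogonal BV_nondeg T
  have h2 : T ≤ (BV l).orthogonal T := fun x hx => by
    rw [LinearMap.BilinForm.mem_orthogonal_iff]
    exact fun y hy => h y hy x hx
  exact (Submodule.eq_of_le_of_finrank_le h2 (by omega)).symm

/-- the specialisation of a Lagrangian is a Lagrangian -/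
theorem IsLag.sp {T : Submodule ℂ (K l → ℂ)} (h : IsLag T) : IsLag (sp π T) := by
  classical
  refine isLag_of_iso ?_ (by rw [finrank_sp]; exact h.finrank)
  let J : Matrix (K l) (K l) ℂ := Matrix.of fun i j => if j = rv i then 1 else 0
  have hJ : ∀ x y : K l → ℂ, x ⬝ᵥ J *ᵥ y = bV x y := fun x y => by
    simp [J, dotProduct, mulVec, bV]
  have hR : RedM π J J := fun i j => by
    by_cases hij : j = rv i
    · simpa [J, hij] using RedS.one
    · simpa [J, hij] using RedS.zero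
  intro x hx y hy
  rw [← hJ]
  exact sp_orth hR (fun v hv w hw => by rw [hJ]; exact (h v).1 hv w hw) x hx y hy

end Crest.Agent.R172.Q
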